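import Vale.Agent.Lib.P072.Persist

/-!
Strict decrease of the Lyapunov function away from a compact part of the stoichiometric class,
and the resulting absorbing set.
-/

namespace Vale.Agent.Lib.P072

open Finset Filter Topology

variable {d : ℕ}

/-- A drop along a directed path is covered by the positive drops along the edges. -/
lemma drop_le_sum {α : Type*} (R : Finset (α × α)) (h : α → ℝ) {a b : α} (hab : Reach R a b) :
    h a - h b ≤ ∑ r ∈ R, max (h r.1 - h r.2) 0 := by
  classical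
  have hnn : 0 ≤ ∑ r ∈ R, max (h r.1 - h r.2) 0 :=
    Finset.sum_nonneg fun r _ => le_max_right _ _
  by_cases hlt : h b < h a
  swap
  · push Not at hlt
    linarith
  have hcover : Set.Ico (h b) (h a) ⊆ ⋃ r ∈ R, Set.Ico (h r.2) (h r.1) := by
    intro τ hτ
    obtain ⟨s, s', hss, hUs, hUs', _, _⟩ :=
      exists_crossing R (fun y => τ < h y) hab hτ.2 (not_lt.mpr hτ.1)
    simp only [Set.mem_iUnion]
    exact ⟨(s, s'), hss, not_lt.mp hUs', hUs⟩
  have hvol := (MeasureTheory.measure_mono (μ := MeasureTheory.volume) hcover).trans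
    (MeasureTheory.measure_biUnion_finset_le R _)
  simp only [Real.volume_Ico] at hvol
  have h2 : ∑ r ∈ R, ENNReal.ofReal (h r.1 - h r.2)
      ≤ ENNReal.ofReal (∑ r ∈ R, max (h r.1 - h r.2) 0) := by
    rw [ENNReal.ofReal_sum_of_nonneg (fun r _ => le_max_right _ _)]
    apply Finset.sum_le_sum
    intro r _
    exact ENNReal.ofReal_le_ofReal (le_max_left _ _)
  exact (ENNReal.ofReal_le_ofReal_iff hnn).mp (hvol.trans h2)

/-- The strict form of the level inequality. -/
lemma level_sum_strict {α : Type*} [DecidableEq α] (R : Finset (α × α))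
    (hWR : ∀ r ∈ R, Reach R r.2 r.1)
    (m : α → ℝ) (hm : ∀ a, 0 < m a) (k : α × α → ℝ) (ε : ℝ) (hε : 0 < ε)
    (hk : ∀ r ∈ R, ε ≤ k r ∧ k r ≤ ε⁻¹) (K : ℝ) (hK : (R.card : ℝ) / (ε / 2) ^ 2 ≤ K)
    (h : α → ℝ) (hh : ∀ a b, Conn R a b → h b < h a → K * m b ≤ m a) :
    ∑ r ∈ R, k r * m r.1 * (h r.2 - h r.1)
      ≤ -(ε / 2) * ∑ r ∈ R, m r.1 * max (h r.1 - h r.2) 0 := by
  classical
  set k' : α × α → ℝ := fun r => if h r.2 < h r.1 then k r / 2 else k r with hk'def
  have hinv : ε⁻¹ ≤ (ε / 2)⁻¹ := by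
    apply inv_anti₀ (by positivity)
    linarith
  have hk' : ∀ r ∈ R, ε / 2 ≤ k' r ∧ k' r ≤ (ε / 2)⁻¹ := by
    intro r hr
    obtain ⟨h1, h2⟩ := hk r hr
    have hinvpos : 0 < ε⁻¹ := inv_pos.mpr hε
    simp only [hk'def]
    split_ifs
    · constructor <;> linarith
    · constructor <;> linarith
  have h0 := level_sum R hWR m hm k' (ε / 2) (by positivity) hk' K hK h hh
  have hterm : ∀ r ∈ R, k r * m r.1 * (h r.2 - h r.1)
      ≤ k' r * m r.1 * (h r.2 - h r.1) + (-(ε / 2)) * (m r.1 * max (h r.1 - h r.2) 0) := by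
    intro r hr
    obtain ⟨h1, _⟩ := hk r hr
    have hmr := hm r.1
    simp only [hk'def]
    split_ifs with hlt
    · rw [max_eq_left (by linarith)]
      have h2 : 0 < h r.1 - h r.2 := by linarith
      have h3 : ε / 2 * (m r.1 * (h r.1 - h r.2)) ≤ k r / 2 * (m r.1 * (h r.1 - h r.2)) :=
        mul_le_mul_of_nonneg_right (by linarith) (by positivity)
      nlinarith
    · push Not at hlt
      rw [max_eq_right (by linarith)]
      simp
  calc ∑ r ∈ R, k r * m r.1 * (h r.2 - h r.1)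
      ≤ ∑ r ∈ R, (k' r * m r.1 * (h r.2 - h r.1)
          + (-(ε / 2)) * (m r.1 * max (h r.1 - h r.2) 0)) := Finset.sum_le_sum hterm
    _ = ∑ r ∈ R, k' r * m r.1 * (h r.2 - h r.1)
          + (-(ε / 2)) * ∑ r ∈ R, m r.1 * max (h r.1 - h r.2) 0 := by
        rw [Finset.sum_add_distrib, Finset.mul_sum]
    _ ≤ _ := by linarith

lemma dot_vec_sub (a b : Fin d → ℕ) (n : Fin d → ℝ) :
    dot (vec a - vec b) n = dot (vec a) n - dot (vec b) n := by
  unfold dot
  rw [← Finset.sum_sub_distrib]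
  apply Finset.sum_congr rfl
  intro i _
  simp only [Pi.sub_apply]
  ring

lemma dot_massAction (R : Finset (Reaction d)) (k : Reaction d → ℝ) (x n : Fin d → ℝ) :
    dot n (massAction R k x)
      = ∑ r ∈ R, k r * (∏ j, x j ^ r.1 j) * (dot (vec r.2) n - dot (vec r.1) n) := by
  unfold dot massAction
  simp_rw [Finset.mul_sum]
  rw [Finset.sum_comm]
  apply Finset.sum_congr rfl
  intro r _
  rw [← Finset.sum_sub_distrib, Finset.mul_sum]
  apply Finset.sum_congr rfl
  intro i _
  unfold reactionVector vec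
  ring

/-- The strict drift inequality. -/
lemma drift_strict {R : Finset (Reaction d)} (hWR : WeaklyReversible R)
    {k : Reaction d → ℝ} {ε : ℝ} (hε : 0 < ε) (hk : ∀ r ∈ R, ε ≤ k r ∧ k r ≤ ε⁻¹)
    {x n : Fin d → ℝ} (hx : Pos x) {K : ℝ} (hK : (R.card : ℝ) / (ε / 2) ^ 2 ≤ Real.exp K)
    (hn : ∀ e ∈ diffs R, 0 < dot e n → K ≤ lev e x)
    {m₀ : ℝ} (hm₀ : 0 ≤ m₀) (hm₀le : ∀ r ∈ R, m₀ ≤ ∏ j, x j ^ r.1 j)
    {δ : ℝ} {e : Fin d → ℝ} (he : e ∈ diffs R) (hδ : δ ≤ |dot e n|) :
    dot n (massAction R k x) ≤ -((ε / 2) * m₀ * δ) := by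
  classical
  rw [dot_massAction]
  set h : (Fin d → ℕ) → ℝ := fun y => dot (vec y) n with hh
  have hmono : ∀ a : Fin d → ℕ, 0 < ∏ j, x j ^ a j := by
    intro a
    rw [mono_eq hx]
    exact Real.exp_pos _
  have hstrict := level_sum_strict R hWR (fun y => ∏ j, x j ^ y j) hmono k ε hε hk
    (Real.exp K) hK h (by
      intro a b hab hlt
      have hne : a ≠ b := by
        rintro rfl
        exact lt_irrefl _ hlt
      have hmem := mem_diffs hab hne
      have hdot : 0 < dot (vec a - vec b) n := by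
        rw [dot_vec_sub]
        simp only [hh] at hlt
        linarith
      have hle := hn _ hmem hdot
      rw [mono_eq hx, mono_eq hx, ← Real.exp_add]
      apply Real.exp_le_exp.mpr
      have h1 : lev (vec a - vec b) x = dot (vec a) (lg x) - dot (vec b) (lg x) :=
        dot_vec_sub a b (lg x)
      rw [h1] at hle
      linarith)
  have hsum : ∑ r ∈ R, k r * (∏ j, x j ^ r.1 j) * (dot (vec r.2) n - dot (vec r.1) n)
      ≤ -(ε / 2) * ∑ r ∈ R, (∏ j, x j ^ r.1 j) * max (h r.1 - h r.2) 0 := hstrict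
  refine le_trans hsum ?_
  -- lower bound for the sum of the drops
  have hdrops : δ ≤ ∑ r ∈ R, max (h r.1 - h r.2) 0 := by
    unfold diffs at he
    obtain ⟨p, hp, rfl⟩ := Finset.mem_image.mp he
    obtain ⟨_, hconn⟩ := Finset.mem_filter.mp hp
    rw [dot_vec_sub] at hδ
    rcases le_total 0 (dot (vec p.1) n - dot (vec p.2) n) with h0 | h0
    · rw [abs_of_nonneg h0] at hδ
      exact le_trans hδ (drop_le_sum R h hconn.1)
    · rw [abs_of_nonpos h0] at hδ
      have := drop_le_sum R h hconn.2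
      simp only [hh] at this ⊢
      linarith
  have hlow : m₀ * δ ≤ ∑ r ∈ R, (∏ j, x j ^ r.1 j) * max (h r.1 - h r.2) 0 := by
    have h1 : m₀ * δ ≤ m₀ * ∑ r ∈ R, max (h r.1 - h r.2) 0 :=
      mul_le_mul_of_nonneg_left hdrops hm₀
    refine le_trans h1 ?_
    rw [Finset.mul_sum]
    apply Finset.sum_le_sum
    intro r hr
    exact mul_le_mul_of_nonneg_right (hm₀le r hr) (le_max_right _ _)
  have hε2 : 0 ≤ ε / 2 := by positivity
  have := mul_le_mul_of_nonneg_left hlow hε2
  nlinarith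

/-- A monomial is bounded below on a box. -/
lemma mono_lower {x : Fin d → ℝ} {r : ℝ} (hr : 0 < r) (hr1 : r ≤ 1) (hx : ∀ i, r ≤ x i)
    (y : Fin d → ℕ) {N : ℕ} (hN : ∑ j, y j ≤ N) : r ^ N ≤ ∏ j, x j ^ y j := by
  calc r ^ N ≤ r ^ (∑ j, y j) := pow_le_pow_of_le_one hr.le hr1 hN
    _ = ∏ j, r ^ y j := (Finset.prod_pow_eq_pow_sum _ _ _).symm
    _ ≤ ∏ j, x j ^ y j := by
        apply Finset.prod_le_prod
        · intro j _
          positivity
        · intro j _
          exact pow_le_pow_left₀ hr.le (hx j) _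

/-- A supporting slope bounded by `-η` gives a linear decrease. -/
lemma monotone_rate {a b : ℝ} (hab : a ≤ b) (g : ℝ → ℝ) (y : ℝ → Fin d → ℝ) {η : ℝ}
    (hg : ContinuousOn g (Set.Icc a b))
    (H : ∀ s ∈ Set.Ioc a b, ∃ (n y' : Fin d → ℝ),
      (∀ τ ∈ Set.Icc a b, g s - g τ ≤ dot n (y s) - dot n (y τ)) ∧
        HasDerivAt y y' s ∧ dot n y' ≤ -η) :
    g b ≤ g a - η * (b - a) := by
  set f : ℝ → ℝ := fun z => - g (b - z) with hf
  have hfc : ContinuousOn f (Set.Icc 0 (b - a)) := by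
    apply ContinuousOn.neg
    apply hg.comp (by fun_prop)
    intro z hz
    constructor <;> linarith [hz.1, hz.2]
  have hbound : ∀ x ∈ Set.Ico 0 (b - a), ∀ r : ℝ, (-η) < r →
      ∃ᶠ z in 𝓝[>] x, slope f x z < r := by
    intro z₀ hz₀ r hr
    have hs : b - z₀ ∈ Set.Ioc a b := by
      constructor <;> linarith [hz₀.1, hz₀.2]
    obtain ⟨n, y', hsub, hd, hneg⟩ := H _ hs
    set ψ : ℝ → ℝ := fun z => - dot n (y (b - z)) with hψ
    have hinner : HasDerivAt (fun z : ℝ => b - z) (-1) z₀ := by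
      simpa using (hasDerivAt_id z₀).const_sub b
    have hpath : ∀ i, HasDerivAt (fun z => y (b - z) i) (y' i * (-1)) z₀ := by
      intro i
      have h1 : HasDerivAt (fun t => y t i) (y' i) (b - z₀) := (hasDerivAt_pi.mp hd) i
      exact h1.comp z₀ hinner
    have hψd : HasDerivAt ψ (dot n y') z₀ := by
      have h2 : HasDerivAt (fun z => ∑ i, n i * y (b - z) i) (∑ i, n i * (y' i * (-1))) z₀ := by
        apply HasDerivAt.fun_sum
        intro i _
        exact (hpath i).const_mul (n i)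
      have h3 := h2.neg
      have h4 : -∑ i, n i * (y' i * (-1)) = dot n y' := by
        unfold dot
        rw [← Finset.sum_neg_distrib]
        apply Finset.sum_congr rfl
        intro i _
        ring
      rw [h4] at h3
      exact h3
    have htend := hasDerivAt_iff_tendsto_slope.mp hψd
    have htend2 : Tendsto (slope ψ z₀) (𝓝[>] z₀) (𝓝 (dot n y')) :=
      htend.mono_left (nhdsWithin_mono _ (fun z hz => ne_of_gt hz))
    have hev1 : ∀ᶠ z in 𝓝[>] z₀, slope ψ z₀ z < r :=
      htend2.eventually (gt_mem_nhds (lt_of_le_of_lt hneg hr))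
    have hev2 : ∀ᶠ z in 𝓝[>] z₀, z ∈ Set.Ioc z₀ (b - a) := Ioc_mem_nhdsGT hz₀.2
    apply Eventually.frequently
    filter_upwards [hev1, hev2] with z hz1 hz2
    refine lt_of_le_of_lt ?_ hz1
    have hτ : b - z ∈ Set.Icc a b := by
      constructor <;> linarith [hz2.1, hz2.2, hz₀.1]
    have h5 := hsub _ hτ
    have hzpos : 0 < z - z₀ := by linarith [hz2.1]
    unfold slope
    simp only [vsub_eq_sub, smul_eq_mul]
    apply mul_le_mul_of_nonneg_left _ (inv_nonneg.mpr hzpos.le)
    simp only [hf, hψ]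
    linarith
  have hmain := image_le_of_liminf_slope_right_le_deriv_boundary (f := f) (a := 0) (b := b - a)
    hfc (B := fun z => f 0 - η * z) (B' := fun _ => -η)
    (by simp) (by fun_prop)
    (fun x _ => by
      have h1 : HasDerivAt (fun z => f 0 - η * z) (-η) x := by
        have := ((hasDerivAt_id x).const_mul η).const_sub (f 0)
        simpa using this
      exact h1.hasDerivWithinAt) hbound
    (x := b - a) ⟨by linarith, le_rfl⟩
  simp only [hf, sub_zero, sub_sub_cancel] at hmain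
  linarith

lemma phi_zero (x : Fin d → ℝ) : phi x 0 = -(d : ℝ) := by
  unfold phi
  simp

/-- The stoichiometric subspace is spanned by the differences of mutually reachable complexes. -/
lemma stoich_le_span (R : Finset (Reaction d)) (hWR : WeaklyReversible R) :
    stoichiometricSubspace R ≤ Submodule.span ℝ (diffs R : Set (Fin d → ℝ)) := by
  apply Submodule.span_le.mpr
  rintro _ ⟨r, hr, rfl⟩
  by_cases hne : r.2 = r.1
  · have : reactionVector r = 0 := by
      funext i
      simp [reactionVector, hne]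
    rw [this]
    exact Submodule.zero_mem _
  · apply Submodule.subset_span
    have hconn : Conn R r.2 r.1 := by
      refine ⟨hWR r hr, ?_⟩
      exact Relation.ReflTransGen.single (by simpa using hr)
    have := mem_diffs hconn hne
    have h2 : vec r.2 - vec r.1 = reactionVector r := by
      funext i
      simp [reactionVector, vec]
    rw [h2] at this
    exact this

/-- Structure of the maximiser away from the set where `gam` is controlled. -/
lemma not_near_structure {R : Finset (Reaction d)} (hWR : WeaklyReversible R)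
    (hdim : Module.finrank ℝ (stoichiometricSubspace R) ≤ 2)
    {c x : Fin d → ℝ} (hc : Pos c) (hx : Pos x) (hxS : x - c ∈ stoichiometricSubspace R)
    {B K δ Λ : ℝ} (hB1 : 1 ≤ B) (hB : ∀ e ∈ diffs R, ∀ i, |e i| ≤ B) (hK0 : 0 ≤ K)
    (hδ : K + d * B * (2 + Real.exp K) ≤ δ) (hδpos : 0 < δ)
    (hΛ : δ + K + 2 * δ * d * B ≤ Λ)
    (hnear : 4 * B * Λ * (∑ i, x i + ∑ i, c i) < gam c x) :
    ∃ n, Allowed (diffs R) δ n ∧ (∀ n', Allowed (diffs R) δ n' → phi x n' ≤ phi x n) ∧
      (∀ e ∈ diffs R, 0 < dot e n → K ≤ lev e x) ∧ ∃ e ∈ diffs R, δ ≤ |dot e n| := by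
  classical
  have hBnn : 0 ≤ B := by linarith
  have hΛpos : 0 < Λ := by
    have h3 : 0 ≤ 2 * δ * d * B := by positivity
    linarith
  have hρnn : 0 ≤ ∑ i, x i + ∑ i, c i :=
    add_nonneg (Finset.sum_nonneg fun i _ => (hx i).le) (Finset.sum_nonneg fun i _ => (hc i).le)
  have Hfar : ∀ e ∈ diffs R, ∀ e' ∈ diffs R, |lev e x| < Λ → |lev e' x| < Λ → Par e e' := by
    intro e he e' he' hl hl'
    by_contra hnp
    have := gam_le_of_not_par hdim hc hx hxS (diffs_mem_stoich he) (diffs_mem_stoich he')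
      (diffs_isInt he) (diffs_isInt he') (hB e he) (hB e' he') hl hl' hnp
    linarith
  obtain ⟨n, h1, h2, h3, _, h5⟩ := key_structure hx (diffs R)
    (fun e he => (diffs_isInt he).intLike) hB hK0 hδ hδpos hBnn hΛ Hfar
  refine ⟨n, h1, h2, h3, ?_⟩
  by_contra hno
  push Not at hno
  have hall : ∀ e ∈ diffs R, dot e n = 0 := by
    intro e he
    rcases h1 e he with h | h
    · exact h
    · exact absurd h (not_le.mpr (hno e he))
  have hmult := h5 hall
  -- now `gam` is controlled, a contradiction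
  apply absurd hnear
  push Not
  have hxS' := stoich_le_span R hWR hxS
  by_cases hE : ∃ e ∈ diffs R, e ≠ 0
  · obtain ⟨e₁, he₁, hne₁⟩ := hE
    obtain ⟨e0, he0, hfl, lam, hlam⟩ := hmult e₁ he₁
    have he0ne : e0 ≠ 0 := by
      rintro rfl
      apply hne₁
      rw [hlam, smul_zero]
    obtain ⟨i1, hi1⟩ : ∃ i, e0 i ≠ 0 := by
      by_contra hall0
      push Not at hall0
      exact he0ne (funext hall0)
    have hspan : Submodule.span ℝ (diffs R : Set (Fin d → ℝ)) ≤ Submodule.span ℝ {e0} := by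
      apply Submodule.span_le.mpr
      intro e he
      obtain ⟨e0', he0', hfl', lam', hlam'⟩ := hmult e he
      have hp := Hfar e0' he0' e0 he0 hfl' hfl
      rw [SetLike.mem_coe, Submodule.mem_span_singleton]
      refine ⟨lam' * (e0' i1 / e0 i1), ?_⟩
      rw [hlam']
      funext i
      simp only [Pi.smul_apply, smul_eq_mul]
      have := hp i i1
      field_simp
      linear_combination (-lam') * this
    obtain ⟨a, ha⟩ := Submodule.mem_span_singleton.mp (hspan hxS')
    have hcoord : ∀ k, x k - c k = a * e0 k := by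
      intro k
      have := congrFun ha k
      simpa using this.symm
    have hgam : gam c x = a * lev e0 x := by
      unfold gam lev dot lg
      rw [Finset.mul_sum]
      apply Finset.sum_congr rfl
      intro k _
      rw [hcoord k]
      ring
    have hint := (diffs_isInt he0).intLike i1 hi1
    have habs : |a| ≤ ∑ i, x i + ∑ i, c i := by
      have h6 := abs_sub_le_masses hx hc i1
      rw [hcoord i1, abs_mul] at h6
      have := abs_nonneg a
      nlinarith
    rw [hgam]
    calc a * lev e0 x ≤ |a * lev e0 x| := le_abs_self _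
      _ = |a| * |lev e0 x| := abs_mul _ _
      _ ≤ (∑ i, x i + ∑ i, c i) * Λ := mul_le_mul habs hfl.le (abs_nonneg _) hρnn
      _ ≤ 4 * B * Λ * (∑ i, x i + ∑ i, c i) := by
          have : 0 ≤ (∑ i, x i + ∑ i, c i) * Λ := by positivity
          nlinarith
  · push Not at hE
    have hbot : Submodule.span ℝ (diffs R : Set (Fin d → ℝ)) ≤ ⊥ := by
      apply Submodule.span_le.mpr
      intro e he
      simp [hE e he]
    have hzero : x - c = 0 := by
      have := hbot hxS'
      simpa using this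
    have hgam : gam c x = 0 := by
      unfold gam
      apply Finset.sum_eq_zero
      intro i _
      have := congrFun hzero i
      simp only [Pi.sub_apply, Pi.zero_apply] at this
      rw [this, zero_mul]
    rw [hgam]
    positivity

/-- Bounds on the set where `gam` is controlled. -/
lemma near_bounds (hd : 0 < d) {c : Fin d → ℝ} (hc : Pos c) {A : ℝ} (hA : 0 ≤ A) :
    ∃ Rs rs : ℝ, 0 < rs ∧ ∀ x : Fin d → ℝ, Pos x →
      gam c x ≤ A * (∑ i, x i + ∑ i, c i) → ∑ i, x i ≤ Rs ∧ ∀ i, rs ≤ x i := by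
  classical
  obtain ⟨Rs, hRs1, hRs⟩ := exists_threshold hd A (V c + A * ∑ i, c i) hA
  obtain ⟨c₀, hc₀, hc₀le⟩ := exists_min_coord hc
  have hCnn : 0 ≤ ∑ i, c i := Finset.sum_nonneg fun i _ => (hc i).le
  obtain ⟨A₁, hA₁def⟩ : ∃ A₁ : ℝ, A₁ = ∑ j, (Rs + c j) * |Real.log (c j)| := ⟨_, rfl⟩
  have hA₁nn : 0 ≤ A₁ := by
    rw [hA₁def]
    apply Finset.sum_nonneg
    intro j _
    have := hc j
    positivity
  obtain ⟨Q, hQdef⟩ : ∃ Q : ℝ, Q = A * (Rs + ∑ i, c i) + A₁ := ⟨_, rfl⟩
  have hQnn : 0 ≤ Q := by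
    rw [hQdef]
    positivity
  have hexp := Real.exp_pos (-(2 / c₀) * (Q + 1))
  refine ⟨Rs, min (c₀ / 2) (min 1 (Real.exp (-(2 / c₀) * (Q + 1)))), ?_, ?_⟩
  · simp only [lt_min_iff]
    exact ⟨by linarith, one_pos, hexp⟩
  intro x hx hgam
  have hmass : ∑ i, x i ≤ Rs := by
    by_contra hcon
    push Not at hcon
    have h1 := hRs _ hcon
    have hmp : 0 < ∑ i, x i := by linarith
    have h2 := V_ge_mass hx hd hmp
    have h3 := V_sub_le_gam hx hc
    nlinarith
  refine ⟨hmass, ?_⟩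
  intro i
  by_contra hcon
  push Not at hcon
  simp only [lt_min_iff] at hcon
  obtain ⟨hxc, hx1, hxe⟩ := hcon
  have hxpos := hx i
  -- each term of `gam` is bounded below
  have hterm : ∀ j, -((Rs + c j) * |Real.log (c j)|) ≤ (x j - c j) * Real.log (x j) := by
    intro j
    have hxj := hx j
    have hcj := hc j
    have h1 : (x j - c j) * Real.log (c j) ≤ (x j - c j) * Real.log (x j) := by
      rcases le_total (c j) (x j) with h | h
      · exact mul_le_mul_of_nonneg_left (Real.log_le_log hcj h) (by linarith)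
      · exact mul_le_mul_of_nonpos_left (Real.log_le_log hxj h) (by linarith)
    have h2 : |x j - c j| ≤ Rs + c j := by
      have h3 : x j ≤ ∑ i, x i := Finset.single_le_sum (f := x) (fun i _ => (hx i).le)
        (Finset.mem_univ j)
      rw [abs_le]
      constructor <;> linarith
    have h4 : |(x j - c j) * Real.log (c j)| ≤ (Rs + c j) * |Real.log (c j)| := by
      rw [abs_mul]
      exact mul_le_mul_of_nonneg_right h2 (abs_nonneg _)
    have h5 := neg_abs_le ((x j - c j) * Real.log (c j))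
    linarith
  have hsplit : (x i - c i) * Real.log (x i) ≤ gam c x + A₁ := by
    unfold gam
    rw [← Finset.add_sum_erase _ _ (Finset.mem_univ i)]
    have h1 : -A₁ ≤ ∑ j ∈ Finset.univ.erase i, (x j - c j) * Real.log (x j) := by
      have h2 : ∑ j ∈ Finset.univ.erase i, (Rs + c j) * |Real.log (c j)| ≤ A₁ := by
        rw [hA₁def]
        apply Finset.sum_le_sum_of_subset_of_nonneg (Finset.erase_subset _ _)
        intro j _ _
        have := hc j
        positivity
      have h3 : ∑ j ∈ Finset.univ.erase i, (-((Rs + c j) * |Real.log (c j)|))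
          ≤ ∑ j ∈ Finset.univ.erase i, (x j - c j) * Real.log (x j) :=
        Finset.sum_le_sum fun j _ => hterm j
      rw [Finset.sum_neg_distrib] at h3
      linarith
    linarith
  have hle : (x i - c i) * Real.log (x i) ≤ Q := by
    have h1 : A * (∑ i, x i + ∑ i, c i) ≤ A * (Rs + ∑ i, c i) :=
      mul_le_mul_of_nonneg_left (by linarith) hA
    rw [hQdef]
    linarith
  have hlog : Real.log (x i) ≤ -(2 / c₀) * (Q + 1) := by
    have := Real.log_le_log hxpos hxe.le
    rwa [Real.log_exp] at this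
  have hci := hc₀le i
  have h1 : c₀ / 2 ≤ c i - x i := by linarith
  have h2 : (2 / c₀) * (Q + 1) ≤ -Real.log (x i) := by linarith
  have h3 : (c₀ / 2) * ((2 / c₀) * (Q + 1)) ≤ (c i - x i) * (-Real.log (x i)) :=
    mul_le_mul h1 h2 (by positivity) (by linarith)
  have h4 : (c₀ / 2) * ((2 / c₀) * (Q + 1)) = Q + 1 := by
    field_simp
  nlinarith

/-- The absorbing property: every global solution visits a fixed bounded region away from the
boundary. -/
theorem absorbing_of_finrank_le_two {R : Finset (Reaction d)} (hWR : WeaklyReversible R)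
    (hdim : Module.finrank ℝ (stoichiometricSubspace R) ≤ 2) {ε : ℝ} (hε : 0 < ε)
    {c : Fin d → ℝ} (hc : ∀ i, 0 < c i) :
    ∃ Rs rs : ℝ, 0 < rs ∧ ∀ (k : ℝ → Reaction d → ℝ) (x : ℝ → Fin d → ℝ),
      (∀ t, ∀ r ∈ R, ε ≤ k t r ∧ k t r ≤ ε⁻¹) →
      x 0 - c ∈ stoichiometricSubspace R →
      ContinuousOn x (Set.Ici 0) →
      (∀ t, 0 ≤ t → ∀ i, 0 < x t i) →
      (∀ t, 0 < t → HasDerivAt x (massAction R (k t) (x t)) t) →
      ∃ t₀, 0 ≤ t₀ ∧ ∑ i, x t₀ i ≤ Rs ∧ ∀ i, rs ≤ x t₀ i := by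
  classical
  rcases Nat.eq_zero_or_pos d with hd0 | hd
  · subst hd0
    exact ⟨0, 1, one_pos, fun _ _ _ _ _ _ _ => ⟨0, le_rfl, by simp, fun i => i.elim0⟩⟩
  obtain ⟨B, hB1, hB⟩ := exists_bound_diffs R
  have hBnn : 0 ≤ B := by linarith
  obtain ⟨K, hKdef⟩ : ∃ K : ℝ, K = (R.card : ℝ) / (ε / 2) ^ 2 := ⟨_, rfl⟩
  have hK0 : 0 ≤ K := by
    rw [hKdef]
    positivity
  have hKexp : (R.card : ℝ) / (ε / 2) ^ 2 ≤ Real.exp K := by
    have := Real.add_one_le_exp K
    rw [← hKdef]
    linarith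
  obtain ⟨δ, hδdef⟩ : ∃ δ : ℝ, δ = K + d * B * (2 + Real.exp K) + 1 := ⟨_, rfl⟩
  have hδ : K + d * B * (2 + Real.exp K) ≤ δ := by linarith
  have hδpos : 0 < δ := by
    have h1 : 0 ≤ (d : ℝ) * B * (2 + Real.exp K) := by
      have := Real.exp_pos K
      positivity
    linarith
  obtain ⟨Λ, hΛdef⟩ : ∃ Λ : ℝ, Λ = δ + K + 2 * δ * d * B := ⟨_, rfl⟩
  have hΛ : δ + K + 2 * δ * d * B ≤ Λ := hΛdef.ge
  have hΛpos : 0 < Λ := by
    have h1 : 0 ≤ 2 * δ * d * B := by positivity
    linarith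
  obtain ⟨Rs, rs, hrs, hnear⟩ := near_bounds hd hc (A := 4 * B * Λ) (by positivity)
  refine ⟨Rs, rs, hrs, ?_⟩
  intro k x hk hx0 hcont hpos hderiv
  by_contra hno
  push Not at hno
  have hfar : ∀ s, 0 ≤ s → 4 * B * Λ * (∑ i, x s i + ∑ i, c i) < gam c (x s) := by
    intro s hs
    by_contra hcon
    push Not at hcon
    obtain ⟨h1, h2⟩ := hnear (x s) (hpos s hs) hcon
    obtain ⟨i, hi⟩ := hno s hs h1
    exact absurd (h2 i) (not_le.mpr hi)
  -- bounds along this solution
  have hIco : ∀ T, ContinuousOn x (Set.Ico 0 T) := fun T =>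
    hcont.mono (fun s hs => hs.1)
  have hposI : ∀ T, ∀ t ∈ Set.Ico 0 T, ∀ i, 0 < x t i := fun T t ht => hpos t ht.1
  have hderI : ∀ T, ∀ t ∈ Set.Ioo 0 T, HasDerivAt x (massAction R (k t) (x t)) t :=
    fun T t ht => hderiv t ht.1
  obtain ⟨C₁, hC₁⟩ := mass_bound_of_finrank_le_two hWR hdim hε hc (∑ i, x 0 i)
  have hmass : ∀ T, ∀ t ∈ Set.Ico 0 T, ∑ i, x t i ≤ C₁ := fun T =>
    hC₁ T k x hk hx0 le_rfl (hIco T) (hposI T) (hderI T)
  obtain ⟨r₀, hr₀, hr₀le⟩ := exists_min_coord (hpos 0 le_rfl)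
  obtain ⟨r, hr, hrl⟩ := lower_bound_of_finrank_le_two hWR hdim hε hc C₁ hr₀
  have hlow : ∀ t, 0 ≤ t → ∀ i, r ≤ x t i := by
    intro t ht i
    exact hrl (t + 1) k x hk hx0 hr₀le (hIco _) (hposI _) (hderI _) (hmass _) t
      ⟨ht, by linarith⟩ i
  -- the rate of decrease
  obtain ⟨r', hr'def⟩ : ∃ r' : ℝ, r' = min r 1 := ⟨_, rfl⟩
  have hr'pos : 0 < r' := by
    rw [hr'def]
    exact lt_min hr one_pos
  have hr'1 : r' ≤ 1 := by
    rw [hr'def]
    exact min_le_right _ _
  have hr'r : r' ≤ r := by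
    rw [hr'def]
    exact min_le_left _ _
  obtain ⟨N, hNdef⟩ : ∃ N : ℕ, N = ∑ q ∈ R, ∑ j, q.1 j := ⟨_, rfl⟩
  have hN : ∀ q ∈ R, ∑ j, q.1 j ≤ N := by
    intro q hq
    rw [hNdef]
    exact Finset.single_le_sum (f := fun q : Reaction d => ∑ j, q.1 j)
      (fun _ _ => Nat.zero_le _) hq
  obtain ⟨η, hηdef⟩ : ∃ η : ℝ, η = (ε / 2) * r' ^ N * δ := ⟨_, rfl⟩
  have hηpos : 0 < η := by
    rw [hηdef]
    positivity
  have hV0 : -(d : ℝ) ≤ V (x 0) := by
    have := phi_le_V (hpos 0 le_rfl) 0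
    rwa [phi_zero] at this
  obtain ⟨τ, hτdef⟩ : ∃ τ : ℝ, τ = (V (x 0) + d) / η + 1 := ⟨_, rfl⟩
  have hτpos : 0 < τ := by
    have : 0 ≤ (V (x 0) + d) / η := div_nonneg (by linarith) hηpos.le
    rw [hτdef]
    linarith
  have hPos : ∀ s ∈ Set.Icc 0 τ, Pos (x s) := fun s hs => hpos s hs.1
  have hgc : ContinuousOn (fun s => W (diffs R) δ (x s)) (Set.Icc 0 τ) := by
    apply (W_continuousOn (diffs R) δ).comp (hcont.mono (fun s hs => hs.1))
    intro s hs
    exact hPos s hs
  have hdec := monotone_rate hτpos.le (fun s => W (diffs R) δ (x s)) x (η := η) hgc (by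
    intro s hs
    have hs0 : 0 ≤ s := hs.1.le
    have hxS : x s - c ∈ stoichiometricSubspace R := by
      have := Submodule.add_mem _ (sub_mem_stoich (hIco (s + 1)) (hderI (s + 1))
        (t := s) ⟨hs0, by linarith⟩) hx0
      rwa [sub_add_sub_cancel] at this
    obtain ⟨n, hn, hmax, hprop, e, he, heδ⟩ := not_near_structure hWR hdim hc (hpos s hs0) hxS
      hB1 hB hK0 hδ hδpos hΛ (hfar s hs0)
    refine ⟨n, massAction R (k s) (x s), ?_, hderiv s hs.1, ?_⟩
    · intro τ' hτ'
      have h1 := W_eq (hpos s hs0) hn hmax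
      have h2 := phi_le_W (hPos τ' hτ') hn
      have h3 := phi_sub (x s) (x τ') n
      show W (diffs R) δ (x s) - W (diffs R) δ (x τ') ≤ _
      rw [h1]
      linarith
    · rw [hηdef]
      exact drift_strict hWR hε (hk s) (hpos s hs0) hKexp hprop (by positivity)
        (fun q hq => mono_lower hr'pos hr'1 (fun i => le_trans hr'r (hlow s hs0 i)) q.1 (hN q hq))
        he heδ)
  have h1 : -(d : ℝ) ≤ W (diffs R) δ (x τ) := by
    have := phi_le_W (E := diffs R) (δ := δ) (hpos τ hτpos.le) (allowed_zero (diffs R) δ)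
    rwa [phi_zero] at this
  have h2 := W_le_V (E := diffs R) (δ := δ) (hpos 0 le_rfl)
  have h3 : W (diffs R) δ (x τ) ≤ W (diffs R) δ (x 0) - η * (τ - 0) := hdec
  have h4 : η * τ = V (x 0) + d + η := by
    rw [hτdef]
    field_simp
  linarith

end Vale.Agent.Lib.P072
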