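import Vale.Agent.Lib.P072.Absorb

/-!
The compact attractor on a stoichiometric class, for subspaces of dimension at most two.
-/

namespace Vale.Agent.Lib.P072

open Finset Filter Topology

variable {d : ℕ}

/-- The compact attractor. -/
theorem attractor_of_finrank_le_two {R : Finset (Reaction d)} (hWR : WeaklyReversible R)
    (hdim : Module.finrank ℝ (stoichiometricSubspace R) ≤ 2) {ε : ℝ} (hε : 0 < ε)
    {c : Fin d → ℝ} (hc : ∀ i, 0 < c i) :
    ∃ K : Set (Fin d → ℝ), IsCompact K ∧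
      (∀ y ∈ K, (∀ i, 0 < y i) ∧ y - c ∈ stoichiometricSubspace R) ∧
      ∀ (k : ℝ → Reaction d → ℝ) (x : ℝ → Fin d → ℝ),
        (∀ t, ∀ r ∈ R, ε ≤ k t r ∧ k t r ≤ ε⁻¹) →
        x 0 - c ∈ stoichiometricSubspace R →
        ContinuousOn x (Set.Ici 0) →
        (∀ t, 0 ≤ t → ∀ i, 0 < x t i) →
        (∀ t, 0 < t → HasDerivAt x (massAction R (k t) (x t)) t) →
        ∃ t₀, ∀ t, t₀ ≤ t → x t ∈ K := by
  classical
  obtain ⟨Rs, rs, hrs, habsorb⟩ := absorbing_of_finrank_le_two hWR hdim hε hc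
  obtain ⟨R₂, hR₂⟩ := mass_bound_of_finrank_le_two hWR hdim hε hc Rs
  obtain ⟨r₂, hr₂, hr₂l⟩ := lower_bound_of_finrank_le_two hWR hdim hε hc R₂ hrs
  refine ⟨{y | y - c ∈ stoichiometricSubspace R ∧ ∑ i, y i ≤ R₂ ∧ ∀ i, r₂ ≤ y i}, ?_, ?_, ?_⟩
  · -- compactness
    have hclosedS : IsClosed {y : Fin d → ℝ | y - c ∈ stoichiometricSubspace R} := by
      have h1 : IsClosed ((stoichiometricSubspace R : Submodule ℝ (Fin d → ℝ)) :
          Set (Fin d → ℝ)) := Submodule.closed_of_finiteDimensional _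
      exact h1.preimage (continuous_id.sub continuous_const)
    have hclosedm : IsClosed {y : Fin d → ℝ | ∑ i, y i ≤ R₂} :=
      isClosed_le (continuous_finsetSum _ fun i _ => continuous_apply i) continuous_const
    have hclosedl : IsClosed {y : Fin d → ℝ | ∀ i, r₂ ≤ y i} := by
      simp only [Set.ofPred_forall]
      exact isClosed_iInter fun i => isClosed_le continuous_const (continuous_apply i)
    have hbox : {y : Fin d → ℝ | y - c ∈ stoichiometricSubspace R ∧ ∑ i, y i ≤ R₂ ∧ ∀ i, r₂ ≤ y i}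
        ⊆ Set.Icc (fun _ => r₂) (fun _ => R₂) := by
      rintro y ⟨_, hm, hl⟩
      refine ⟨hl, ?_⟩
      intro i
      have : y i ≤ ∑ j, y j := Finset.single_le_sum (f := y)
        (fun j _ => le_trans hr₂.le (hl j)) (Finset.mem_univ i)
      exact le_trans this hm
    exact isCompact_Icc.of_isClosed_subset
      (hclosedS.inter (hclosedm.inter hclosedl)) hbox
  · rintro y ⟨hS, _, hl⟩
    exact ⟨fun i => lt_of_lt_of_le hr₂ (hl i), hS⟩
  · intro k x hk hx0 hcont hpos hderiv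
    obtain ⟨t₀, ht₀, hm₀, hl₀⟩ := habsorb k x hk hx0 hcont hpos hderiv
    refine ⟨t₀, ?_⟩
    intro t ht
    -- the shifted solution
    set z : ℝ → Fin d → ℝ := fun s => x (s + t₀) with hz
    set k' : ℝ → Reaction d → ℝ := fun s => k (s + t₀) with hk'
    have hz0 : z 0 = x t₀ := by simp [hz]
    have hxS : ∀ s, 0 ≤ s → x s - c ∈ stoichiometricSubspace R := by
      intro s hs
      have := Submodule.add_mem _ (sub_mem_stoich (T := s + 1)
        (hcont.mono (fun τ hτ => hτ.1)) (fun τ hτ => hderiv τ hτ.1) (t := s)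
        ⟨hs, by linarith⟩) hx0
      rwa [sub_add_sub_cancel] at this
    have hkz : ∀ s, ∀ r ∈ R, ε ≤ k' s r ∧ k' s r ≤ ε⁻¹ := fun s => hk (s + t₀)
    have hz0S : z 0 - c ∈ stoichiometricSubspace R := by
      rw [hz0]
      exact hxS t₀ ht₀
    have hzc : ∀ T, ContinuousOn z (Set.Ico 0 T) := by
      intro T
      apply hcont.comp (by fun_prop)
      intro s hs
      show 0 ≤ s + t₀
      linarith [hs.1]
    have hzp : ∀ T, ∀ s ∈ Set.Ico 0 T, ∀ i, 0 < z s i := by
      intro T s hs i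
      exact hpos _ (by linarith [hs.1]) i
    have hzd : ∀ T, ∀ s ∈ Set.Ioo 0 T, HasDerivAt z (massAction R (k' s) (z s)) s := by
      intro T s hs
      have h1 := hderiv (s + t₀) (by linarith [hs.1])
      exact h1.comp_add_const s t₀
    have hzm : ∀ T, ∀ s ∈ Set.Ico 0 T, ∑ i, z s i ≤ R₂ := fun T =>
      hR₂ T k' z hkz hz0S (by rw [hz0]; exact hm₀) (hzc T) (hzp T) (hzd T)
    have hzl : ∀ T, ∀ s ∈ Set.Ico 0 T, ∀ i, r₂ ≤ z s i := fun T =>
      hr₂l T k' z hkz hz0S (fun i => by rw [hz0]; exact hl₀ i) (hzc T) (hzp T) (hzd T) (hzm T)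
    have hs0 : t - t₀ ∈ Set.Ico 0 (t - t₀ + 1) := ⟨by linarith, by linarith⟩
    have hzt : z (t - t₀) = x t := by simp [hz]
    refine ⟨hxS t (le_trans ht₀ ht), ?_, ?_⟩
    · have := hzm _ _ hs0
      rwa [hzt] at this
    · intro i
      have := hzl _ _ hs0 i
      rwa [hzt] at this

end Vale.Agent.Lib.P072
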