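import Vale.Agent.Lib.P072.Weak

/-!
Solutions for measurable rates, in integrated form: they are weak solutions, they are unique, and
they exist globally.
-/

namespace Vale.Agent.Lib.P072

open Finset Filter Topology MeasureTheory Metric
open scoped NNReal

variable {d : ℕ}

lemma norm_reaction_term (r : Reaction d) (c : ℝ) (z : Fin d → ℝ) (i : Fin d) :
    |c * (∏ j, z j ^ r.1 j) * reactionVector r i| ≤ |c| * |∏ j, z j ^ r.1 j| * ‖reactionVector r‖ := by
  rw [abs_mul, abs_mul]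
  exact mul_le_mul_of_nonneg_left (norm_le_pi_norm (reactionVector r) i) (by positivity)

lemma abs_rate_le {ε c : ℝ} (hε : 0 < ε) (h : ε ≤ c ∧ c ≤ ε⁻¹) : |c| ≤ ε⁻¹ := by
  rw [abs_of_pos (lt_of_lt_of_le hε h.1)]
  exact h.2

/-- A bound for the vector field on a compact set, uniform in the rates. -/
lemma field_bound (R : Finset (Reaction d)) {ε : ℝ} (hε : 0 < ε) {Q : Set (Fin d → ℝ)}
    (hQ : IsCompact Q) :
    ∃ Bd : ℝ, 0 ≤ Bd ∧ ∀ k' : Reaction d → ℝ, (∀ r ∈ R, ε ≤ k' r ∧ k' r ≤ ε⁻¹) →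
      ∀ z ∈ Q, ‖massAction R k' z‖ ≤ Bd := by
  have hc : ∀ r : Reaction d, ∃ B : ℝ, ∀ z ∈ Q, ‖∏ j, z j ^ r.1 j‖ ≤ B := fun r =>
    hQ.exists_bound_of_continuousOn (by fun_prop)
  choose B hB using hc
  refine ⟨∑ r ∈ R, ε⁻¹ * |B r| * ‖reactionVector r‖, Finset.sum_nonneg fun r _ => by positivity, ?_⟩
  intro k' hk' z hz
  apply (pi_norm_le_iff_of_nonneg (Finset.sum_nonneg fun r _ => by positivity)).mpr
  intro i
  rw [Real.norm_eq_abs]
  refine le_trans (Finset.abs_sum_le_sum_abs _ _) (Finset.sum_le_sum fun r hr => ?_)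
  refine le_trans (norm_reaction_term r _ z i) ?_
  apply mul_le_mul_of_nonneg_right _ (norm_nonneg _)
  have h1 := abs_rate_le hε (hk' r hr)
  have h2 : |∏ j, z j ^ r.1 j| ≤ |B r| := le_trans (hB r z hz) (le_abs_self _)
  exact mul_le_mul h1 h2 (abs_nonneg _) (by positivity)

/-- A Lipschitz constant for the vector field on a compact set, uniform in the rates. -/
lemma field_lipschitz (R : Finset (Reaction d)) {ε : ℝ} (hε : 0 < ε) {Q : Set (Fin d → ℝ)}
    (hQ : IsCompact Q) :
    ∃ Lip : ℝ≥0, ∀ k' : Reaction d → ℝ, (∀ r ∈ R, ε ≤ k' r ∧ k' r ≤ ε⁻¹) →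
      LipschitzOnWith Lip (massAction R k') Q := by
  have hc : ∀ r : Reaction d, ∃ L : ℝ≥0, LipschitzOnWith L (fun z : Fin d → ℝ => ∏ j, z j ^ r.1 j) Q := by
    intro r
    have hd : ContDiff ℝ 1 (fun z : Fin d → ℝ => ∏ j, z j ^ r.1 j) := by
      apply contDiff_prod
      intro j _
      exact (contDiff_apply ℝ ℝ j).pow _
    exact (hd.locallyLipschitz.locallyLipschitzOn (s := Q)).exists_lipschitzOnWith_of_compact hQ
  choose L hL using hc
  have hnn : 0 ≤ ∑ r ∈ R, ε⁻¹ * (L r : ℝ) * ‖reactionVector r‖ :=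
    Finset.sum_nonneg fun r _ => by positivity
  refine ⟨Real.toNNReal (∑ r ∈ R, ε⁻¹ * (L r : ℝ) * ‖reactionVector r‖), ?_⟩
  intro k' hk'
  apply LipschitzOnWith.of_dist_le_mul
  intro z hz z' hz'
  have hdist : 0 ≤ dist z z' := dist_nonneg
  rw [Real.coe_toNNReal _ hnn, dist_pi_le_iff (by positivity)]
  intro i
  rw [Real.dist_eq]
  have hsub : massAction R k' z i - massAction R k' z' i
      = ∑ r ∈ R, k' r * ((∏ j, z j ^ r.1 j) - ∏ j, z' j ^ r.1 j) * reactionVector r i := by
    unfold massAction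
    rw [← Finset.sum_sub_distrib]
    apply Finset.sum_congr rfl
    intro r _
    ring
  rw [hsub, Finset.sum_mul]
  refine le_trans (Finset.abs_sum_le_sum_abs _ _) (Finset.sum_le_sum fun r hr => ?_)
  rw [abs_mul, abs_mul]
  have h1 := abs_rate_le hε (hk' r hr)
  have h2 : |(∏ j, z j ^ r.1 j) - ∏ j, z' j ^ r.1 j| ≤ L r * dist z z' := by
    have := (hL r).dist_le_mul z hz z' hz'
    rwa [Real.dist_eq] at this
  have h3 : |reactionVector r i| ≤ ‖reactionVector r‖ := norm_le_pi_norm (reactionVector r) i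
  calc |k' r| * |(∏ j, z j ^ r.1 j) - ∏ j, z' j ^ r.1 j| * |reactionVector r i|
      ≤ ε⁻¹ * (L r * dist z z') * ‖reactionVector r‖ :=
        mul_le_mul (mul_le_mul h1 h2 (abs_nonneg _) (by positivity)) h3 (abs_nonneg _)
          (by positivity)
    _ = ε⁻¹ * (L r : ℝ) * ‖reactionVector r‖ * dist z z' := by ring

/-- Measurability of the vector field along a continuous path. -/
lemma field_aem {R : Finset (Reaction d)} {k : ℝ → Reaction d → ℝ}
    (hkm : ∀ r ∈ R, Measurable fun t => k t r) {α : ℝ → Fin d → ℝ} {s : Set ℝ}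
    (hs : MeasurableSet s) (hα : ContinuousOn α s) :
    AEStronglyMeasurable (fun t => massAction R (k t) (α t)) (volume.restrict s) := by
  apply AEMeasurable.aestronglyMeasurable
  apply aemeasurable_pi_iff.mpr
  intro i
  unfold massAction
  apply Finset.aemeasurable_fun_sum
  intro r hr
  refine ((hkm r hr).aemeasurable.mul ?_).mul_const _
  apply ContinuousOn.aemeasurable _ hs
  apply continuousOn_finsetProd
  intro j _
  exact ((continuous_apply j).comp_continuousOn hα).pow _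

/-- The vector field along a continuous path is integrable. -/
lemma field_int {R : Finset (Reaction d)} {k : ℝ → Reaction d → ℝ} {ε : ℝ} (hε : 0 < ε)
    (hkm : ∀ r ∈ R, Measurable fun t => k t r) (hk : ∀ t, ∀ r ∈ R, ε ≤ k t r ∧ k t r ≤ ε⁻¹)
    {α : ℝ → Fin d → ℝ} {a b : ℝ} (hab : a ≤ b) (hα : ContinuousOn α (Set.Icc a b)) :
    IntervalIntegrable (fun t => massAction R (k t) (α t)) volume a b := by
  obtain ⟨Bd, _, hBd⟩ := field_bound R hε (isCompact_Icc.image_of_continuousOn hα)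
  rw [intervalIntegrable_iff_integrableOn_Ioc_of_le hab]
  have hm := field_aem (R := R) (k := k) hkm (measurableSet_Ioc (a := a) (b := b))
    (hα.mono Set.Ioc_subset_Icc_self)
  apply Integrable.of_bound hm Bd
  rw [ae_restrict_iff' measurableSet_Ioc]
  refine Eventually.of_forall fun t ht => ?_
  exact hBd _ (hk t) _ ⟨t, Set.Ioc_subset_Icc_self ht, rfl⟩

/-- A positive solution in integrated form is a weak solution. -/
theorem wsol_of_integral {R : Finset (Reaction d)} {k : ℝ → Reaction d → ℝ} {ε T : ℝ}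
    {x : ℝ → Fin d → ℝ} (hε : 0 < ε)
    (hkm : ∀ r ∈ R, Measurable fun t => k t r) (hk : ∀ t, ∀ r ∈ R, ε ≤ k t r ∧ k t r ≤ ε⁻¹)
    (hT : 0 ≤ T)
    (hcont : ContinuousOn x (Set.Icc 0 T)) (hpos : ∀ t ∈ Set.Icc 0 T, ∀ i, 0 < x t i)
    (hint : ∀ t ∈ Set.Icc 0 T, x t = x 0 + ∫ s in (0 : ℝ)..t, massAction R (k s) (x s)) :
    WSol R ε T k x := by
  obtain ⟨Bd, hBd0, hBd⟩ := field_bound R hε (isCompact_Icc.image_of_continuousOn hcont)
  have hfi : ∀ {a b : ℝ}, 0 ≤ a → a ≤ b → b ≤ T →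
      IntervalIntegrable (fun t => massAction R (k t) (x t)) volume a b := by
    intro a b ha hab hb
    exact field_int hε hkm hk hab (hcont.mono (Set.Icc_subset_Icc ha hb))
  have hdiffer : ∀ s ∈ Set.Icc 0 T, ∀ t ∈ Set.Icc 0 T, s ≤ t →
      x t - x s = ∫ u in s..t, massAction R (k u) (x u) := by
    intro s hs t ht hst
    have h1 := hint t ht
    have h2 := hint s hs
    have h3 := intervalIntegral.integral_add_adjacent_intervals (hfi le_rfl hs.1 hs.2)
      (hfi hs.1 hst ht.2)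
    rw [h1, h2, ← h3]
    abel
  have hLipBd : ∀ s ∈ Set.Icc 0 T, ∀ t ∈ Set.Icc 0 T, s ≤ t → dist (x s) (x t) ≤ Bd * (t - s) := by
    intro s hs t ht hst
    rw [dist_comm, dist_eq_norm, hdiffer s hs t ht hst]
    have h1 := intervalIntegral.norm_integral_le_of_norm_le_const
      (a := s) (b := t) (f := fun u => massAction R (k u) (x u)) (C := Bd) (by
        intro u hu
        rw [Set.uIoc_of_le hst] at hu
        exact hBd _ (hk u) _ ⟨u, ⟨le_trans hs.1 hu.1.le, le_trans hu.2 ht.2⟩, rfl⟩)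
    rwa [abs_of_nonneg (by linarith)] at h1
  refine
    { rates := hk
      lip := ?_
      pos := fun t ht => hpos t ⟨ht.1, ht.2.le⟩
      ode := ?_ }
  · intro b hb
    refine ⟨Real.toNNReal Bd, LipschitzOnWith.of_dist_le_mul ?_⟩
    intro s hs t ht
    have hs' : s ∈ Set.Icc 0 T := ⟨hs.1, by linarith [hs.2]⟩
    have ht' : t ∈ Set.Icc 0 T := ⟨ht.1, by linarith [ht.2]⟩
    rw [Real.coe_toNNReal _ hBd0]
    rcases le_total s t with hst | hst
    · have := hLipBd s hs' t ht' hst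
      rw [Real.dist_eq s t, abs_sub_comm, abs_of_nonneg (by linarith)]
      exact this
    · have := hLipBd t ht' s hs' hst
      rw [dist_comm (x s), Real.dist_eq s t, abs_of_nonneg (by linarith)]
      exact this
  · have hI := hfi le_rfl hT le_rfl
    filter_upwards [hI.ae_hasDerivAt_integral] with t ht ht'
    have htI : t ∈ Set.uIcc 0 T := by
      rw [Set.uIcc_of_le hT]
      exact ⟨ht'.1.le, ht'.2.le⟩
    have h1 := (ht htI 0 Set.left_mem_uIcc).const_add (x 0)
    apply h1.congr_of_eventuallyEq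
    filter_upwards [Ioo_mem_nhds ht'.1 ht'.2] with s hs
    exact hint s ⟨hs.1.le, hs.2.le⟩

/-- Uniqueness of continuous solutions in integrated form. -/
theorem unique_integral {R : Finset (Reaction d)} {k : ℝ → Reaction d → ℝ} {ε T : ℝ}
    {x z : ℝ → Fin d → ℝ} {x₀ : Fin d → ℝ} (hε : 0 < ε)
    (hkm : ∀ r ∈ R, Measurable fun t => k t r) (hk : ∀ t, ∀ r ∈ R, ε ≤ k t r ∧ k t r ≤ ε⁻¹)
    (hT : 0 ≤ T) (hx : ContinuousOn x (Set.Icc 0 T)) (hz : ContinuousOn z (Set.Icc 0 T))
    (hxi : ∀ t ∈ Set.Icc 0 T, x t = x₀ + ∫ s in (0 : ℝ)..t, massAction R (k s) (x s))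
    (hzi : ∀ t ∈ Set.Icc 0 T, z t = x₀ + ∫ s in (0 : ℝ)..t, massAction R (k s) (z s)) :
    ∀ t ∈ Set.Icc 0 T, x t = z t := by
  have hQ := (isCompact_Icc.image_of_continuousOn hx).union
    (isCompact_Icc.image_of_continuousOn hz)
  obtain ⟨Lip, hLip⟩ := field_lipschitz R hε hQ
  set D : ℝ → ℝ := fun t => ‖x t - z t‖ with hD
  have hDc : ContinuousOn D (Set.Icc 0 T) := (hx.sub hz).norm
  -- the bound for the difference
  have hDle : ∀ t ∈ Set.Icc 0 T, D t ≤ Lip * ∫ s in (0 : ℝ)..t, D s := by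
    intro t ht
    have hsub : Set.Icc 0 t ⊆ Set.Icc 0 T := Set.Icc_subset_Icc_right ht.2
    have h1 : x t - z t = ∫ s in (0 : ℝ)..t,
        (massAction R (k s) (x s) - massAction R (k s) (z s)) := by
      rw [intervalIntegral.integral_sub (field_int hε hkm hk ht.1 (hx.mono hsub))
        (field_int hε hkm hk ht.1 (hz.mono hsub)), hxi t ht, hzi t ht]
      abel
    simp only [hD]
    rw [h1]
    have hDi : IntervalIntegrable (fun s => ‖x s - z s‖) volume 0 t :=
      ContinuousOn.intervalIntegrable (by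
        rw [Set.uIcc_of_le ht.1]
        exact hDc.mono hsub)
    have h2 : ‖∫ s in (0 : ℝ)..t, (massAction R (k s) (x s) - massAction R (k s) (z s))‖
        ≤ ∫ s in (0 : ℝ)..t, (Lip : ℝ) * ‖x s - z s‖ := by
      apply intervalIntegral.norm_integral_le_of_norm_le ht.1 _ (hDi.const_mul _)
      refine Eventually.of_forall fun s hs => ?_
      have hsT : s ∈ Set.Icc 0 T := hsub (Set.Ioc_subset_Icc_self hs)
      have h3 := (hLip (k s) (hk s)).dist_le_mul (x s) (Or.inl ⟨s, hsT, rfl⟩) (z s)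
        (Or.inr ⟨s, hsT, rfl⟩)
      rwa [dist_eq_norm, dist_eq_norm] at h3
    rwa [intervalIntegral.integral_const_mul] at h2
  -- the primitive of the difference
  set P : ℝ → ℝ := fun t => ∫ s in (0 : ℝ)..t, D s with hP
  have hPc : ContinuousOn P (Set.Icc 0 T) := by
    have := intervalIntegral.continuousOn_primitive_interval (μ := volume) (f := D) (a := 0)
      (b := T) (by
        rw [Set.uIcc_of_le hT]
        exact hDc.integrableOn_Icc)
    rwa [Set.uIcc_of_le hT] at this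
  have hPd : ∀ t ∈ Set.Ico 0 T, HasDerivWithinAt P (D t) (Set.Ici t) t := by
    intro t ht
    have hi : IntervalIntegrable D volume 0 t := ContinuousOn.intervalIntegrable (by
      rw [Set.uIcc_of_le ht.1]
      exact hDc.mono (Set.Icc_subset_Icc_right ht.2.le))
    have hcw : ContinuousWithinAt D (Set.Ici t) t :=
      (hDc t ⟨ht.1, ht.2.le⟩).mono_of_mem_nhdsWithin (by
        have : Set.Icc t T ∈ 𝓝[≥] t := Icc_mem_nhdsGE ht.2
        exact mem_of_superset this (Set.Icc_subset_Icc_left ht.1))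
    have hsm : StronglyMeasurableAtFilter D (𝓝[>] t) volume := by
      refine ⟨Set.Ioo t T, Ioo_mem_nhdsGT ht.2, ?_⟩
      exact (hDc.mono (fun s hs => ⟨le_trans ht.1 hs.1.le, hs.2.le⟩)).aestronglyMeasurable
        measurableSet_Ioo
    have hiT : IntervalIntegrable D volume 0 T := ContinuousOn.intervalIntegrable (by
      rw [Set.uIcc_of_le hT]
      exact hDc)
    have h3 := intervalIntegral.integral_hasDerivWithinAt_right (f := D) (a := 0) (b := t) hi
      (s := Set.Ici t) (t := Set.Ioi t) hsm (hcw.mono Set.Ioi_subset_Ici_self)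
    exact h3
  have hbound := norm_le_gronwallBound_of_norm_deriv_right_le (f := P) (f' := D) (δ := 0)
    (K := Lip) (ε := 0) (a := 0) (b := T) hPc hPd (by simp [hP]) (by
      intro t ht
      have h1 := hDle t ⟨ht.1, ht.2.le⟩
      have h2 : ‖D t‖ = D t := abs_of_nonneg (norm_nonneg _)
      rw [h2]
      have h3 := le_abs_self (P t)
      have h4 : 0 ≤ (Lip : ℝ) := NNReal.coe_nonneg _
      have h5 : (Lip : ℝ) * P t ≤ Lip * ‖P t‖ := mul_le_mul_of_nonneg_left h3 h4
      simp only [add_zero]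
      simp only [hP] at h5 ⊢
      linarith)
  intro t ht
  have h1 := hbound t ht
  rw [gronwallBound_ε0_δ0] at h1
  have h2 := hDle t ht
  have h3 : P t ≤ 0 := le_trans (le_abs_self _) h1
  have h4 : D t ≤ 0 := by
    have h5 : (Lip : ℝ) * P t ≤ 0 := mul_nonpos_of_nonneg_of_nonpos (NNReal.coe_nonneg _) h3
    exact le_trans h2 h5
  have h6 : ‖x t - z t‖ = 0 := le_antisymm h4 (norm_nonneg _)
  exact sub_eq_zero.mp (norm_eq_zero.mp h6)

end Vale.Agent.Lib.P072
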