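import Vale.Agent.Lib.P072.Slope

/-!
The analytic core of the recursive construction: families of affine functions on the first
`k + 1` coordinates such that nearly maximising members are localized.
-/

namespace Vale.Agent.Lib.P072

open Finset

/-- Pairing on the first `k + 1` coordinates. -/
def dotk (k : ℕ) (a b : ℕ → ℝ) : ℝ := ∑ i ∈ range (k + 1), a i * b i

/-- Entropy on the first `k + 1` coordinates. -/
noncomputable def Vk (k : ℕ) (y : ℕ → ℝ) : ℝ := ∑ i ∈ range (k + 1), Fn (y i)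

/-- Mass on the first `k + 1` coordinates. -/
def massk (k : ℕ) (y : ℕ → ℝ) : ℝ := ∑ i ∈ range (k + 1), y i

/-- Positivity on the first `k + 1` coordinates. -/
def PosK (k : ℕ) (y : ℕ → ℝ) : Prop := ∀ i ≤ k, 0 < y i

/-- Decreasing first `k` coordinates, and a last coordinate at most `Λ` times the one before. -/
def Srt : ℕ → (ℕ → ℝ) → ℝ → Prop
  | 0, _, _ => True
  | k + 1, y, Λ => (∀ i < k, y (i + 1) ≤ y i) ∧ y (k + 1) ≤ Λ * y k

/-- The affine function attached to `n`, at the point `y`. -/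
def Ob (k : ℕ) (A : (ℕ → ℝ) → ℝ) (y n : ℕ → ℝ) : ℝ := dotk k n y - A n

/-- `n` maximises up to `ε` at `y`. -/
def NearMax (k : ℕ) (N : Set (ℕ → ℝ)) (A : (ℕ → ℝ) → ℝ) (y n : ℕ → ℝ) (ε : ℝ) : Prop :=
  ∀ n' ∈ N, Ob k A y n' ≤ Ob k A y n + ε

/-- The properties of a level of the construction. -/
structure Core (k : ℕ) (Λ δ ℓ Wb Cb : ℝ) (N : Set (ℕ → ℝ)) (A w : (ℕ → ℝ) → ℝ) : Prop where
  congrN : ∀ n n', (∀ i ≤ k, n i = n' i) → n ∈ N → n' ∈ N
  congrA : ∀ n n', (∀ i ≤ k, n i = n' i) → A n = A n'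
  congrW : ∀ n n', (∀ i ≤ k, n i = n' i) → w n = w n'
  ne : N.Nonempty
  w_nonneg : ∀ n ∈ N, 0 ≤ w n
  w_le : ∀ n ∈ N, w n ≤ Wb
  anti : ∀ n ∈ N, ∀ i < k, n (i + 1) ≤ n i
  ub : ∀ y, PosK k y → ∀ n ∈ N, Ob k A y n ≤ Vk k y + Cb * massk k y
  nm : ∀ y, PosK k y → Srt k y Λ → ∀ n ∈ N, NearMax k N A y n (δ * y k) →
    ∀ i ≤ k, |n i - Real.log (y i)| ≤ w n + ℓ
  cl : ∀ y, PosK k y → ∀ n ∈ N, ∀ ε, 0 ≤ ε → NearMax k N A y n ε →
    Real.exp (n k - w n - 1 / 2) ≤ y k + 2 * ε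
  lb : ∀ y, PosK k y → Srt k y Λ → ∃ n ∈ N, Vk k y - Cb * massk k y ≤ Ob k A y n

lemma dotk_succ (k : ℕ) (a b : ℕ → ℝ) : dotk (k + 1) a b = dotk k a b + a (k + 1) * b (k + 1) :=
  Finset.sum_range_succ _ _

lemma Vk_succ (k : ℕ) (y : ℕ → ℝ) : Vk (k + 1) y = Vk k y + Fn (y (k + 1)) :=
  Finset.sum_range_succ _ _

lemma massk_succ (k : ℕ) (y : ℕ → ℝ) : massk (k + 1) y = massk k y + y (k + 1) :=
  Finset.sum_range_succ _ _

lemma dotk_congr {k : ℕ} {a a' : ℕ → ℝ} (b : ℕ → ℝ) (h : ∀ i ≤ k, a i = a' i) :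
    dotk k a b = dotk k a' b := by
  unfold dotk
  apply Finset.sum_congr rfl
  intro i hi
  rw [h i (by have := Finset.mem_range.mp hi; omega)]

lemma dotk_congr_right {k : ℕ} (a : ℕ → ℝ) {b b' : ℕ → ℝ} (h : ∀ i ≤ k, b i = b' i) :
    dotk k a b = dotk k a b' := by
  unfold dotk
  apply Finset.sum_congr rfl
  intro i hi
  rw [h i (by have := Finset.mem_range.mp hi; omega)]

lemma dotk_update_last (k : ℕ) (c y : ℕ → ℝ) (s : ℝ) :
    dotk k c (Function.update y k (y k + s)) = dotk k c y + c k * s := by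
  unfold dotk
  rw [Finset.sum_range_succ, Finset.sum_range_succ, Function.update_self]
  have : ∑ i ∈ range k, c i * Function.update y k (y k + s) i = ∑ i ∈ range k, c i * y i := by
    apply Finset.sum_congr rfl
    intro i hi
    rw [Function.update_of_ne (by have := Finset.mem_range.mp hi; omega)]
  rw [this]
  ring

lemma massk_nonneg {k : ℕ} {y : ℕ → ℝ} (hy : PosK k y) : 0 ≤ massk k y := by
  apply Finset.sum_nonneg
  intro i hi
  exact (hy i (by have := Finset.mem_range.mp hi; omega)).le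

lemma le_massk {k : ℕ} {y : ℕ → ℝ} (hy : PosK k y) : y k ≤ massk k y := by
  unfold massk
  rw [Finset.sum_range_succ]
  have h : 0 ≤ ∑ i ∈ range k, y i := by
    apply Finset.sum_nonneg
    intro i hi
    exact (hy i (by have := Finset.mem_range.mp hi; omega)).le
  linarith

lemma PosK.down {k : ℕ} {y : ℕ → ℝ} (hy : PosK (k + 1) y) : PosK k y :=
  fun i hi => hy i (by omega)

lemma Srt.down {k : ℕ} {y : ℕ → ℝ} {Λ : ℝ} (hy : PosK (k + 1) y) (hΛ : 1 ≤ Λ)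
    (h : Srt (k + 1) y Λ) : Srt k y (Λ + 1) := by
  cases k with
  | zero => trivial
  | succ j =>
    refine ⟨fun i hi => h.1 i (by omega), ?_⟩
    have h1 := h.1 j (by omega)
    have h2 := hy j (by omega)
    nlinarith

lemma PosK.merge {k : ℕ} {y : ℕ → ℝ} (hy : PosK (k + 1) y) :
    PosK k (Function.update y k (y k + y (k + 1))) := by
  intro i hi
  rcases eq_or_ne i k with rfl | hne
  · rw [Function.update_self]
    linarith [hy i (by omega), hy (i + 1) (by omega)]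
  · rw [Function.update_of_ne hne]
    exact hy i (by omega)

lemma Srt.merge {k : ℕ} {y : ℕ → ℝ} {Λ : ℝ} (hy : PosK (k + 1) y) (hΛ : 1 ≤ Λ)
    (h : Srt (k + 1) y Λ) : Srt k (Function.update y k (y k + y (k + 1))) (Λ + 1) := by
  cases k with
  | zero => trivial
  | succ j =>
    refine ⟨fun i hi => ?_, ?_⟩
    · rw [Function.update_of_ne (by omega), Function.update_of_ne (by omega)]
      exact h.1 i (by omega)
    · rw [Function.update_self, Function.update_of_ne (by omega)]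
      have h1 := h.1 j (by omega)
      have h2 := h.2
      have h3 := hy j (by omega)
      nlinarith

lemma NearMax.mono {k : ℕ} {N : Set (ℕ → ℝ)} {A : (ℕ → ℝ) → ℝ} {y n : ℕ → ℝ} {ε ε' : ℝ}
    (h : NearMax k N A y n ε) (hε : ε ≤ ε') : NearMax k N A y n ε' :=
  fun n' hn' => by linarith [h n' hn']

/-- Existence of near maximisers. -/
lemma Core.exists_near {k : ℕ} {Λ δ ℓ Wb Cb : ℝ} {N : Set (ℕ → ℝ)} {A w : (ℕ → ℝ) → ℝ}
    (C : Core k Λ δ ℓ Wb Cb N A w) {y : ℕ → ℝ} (hy : PosK k y) {ε : ℝ} (hε : 0 < ε) :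
    ∃ n ∈ N, NearMax k N A y n ε := by
  have hne : ((fun n => Ob k A y n) '' N).Nonempty := C.ne.image _
  have hbdd : BddAbove ((fun n => Ob k A y n) '' N) := by
    refine ⟨Vk k y + Cb * massk k y, ?_⟩
    rintro _ ⟨n, hn, rfl⟩
    exact C.ub y hy n hn
  obtain ⟨_, ⟨n, hn, rfl⟩, hlt⟩ := exists_lt_of_lt_csSup hne
    (sub_lt_self (sSup ((fun n => Ob k A y n) '' N)) hε)
  refine ⟨n, hn, fun n' hn' => ?_⟩
  have := le_csSup hbdd (Set.mem_image_of_mem _ hn')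
  simp only at hlt this
  linarith

/-- The slope function at a prefix. -/
noncomputable def prf (k : ℕ) (Z : (ℕ → ℝ) → Finset ℝ) (ρ : (ℕ → ℝ) → ℝ) (c : ℕ → ℝ) : ℝ → ℝ :=
  slopeT (Z c) (c k) (ρ c)

/-- The next level of the family. -/
def nextN (k : ℕ) (N₀ : Set (ℕ → ℝ)) (Z : (ℕ → ℝ) → Finset ℝ) (ρ : (ℕ → ℝ) → ℝ) :
    Set (ℕ → ℝ) := {n | n ∈ N₀ ∧ Slot (Z n) (n k) (ρ n) (n (k + 1))}

/-- The next level of the constants. -/
noncomputable def nextA (k : ℕ) (A₀ : (ℕ → ℝ) → ℝ) (Z : (ℕ → ℝ) → Finset ℝ)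
    (ρ : (ℕ → ℝ) → ℝ) (n : ℕ → ℝ) : ℝ := A₀ n + Tr (prf k Z ρ n) (n (k + 1))

open Classical in
/-- The next level of the widths. -/
noncomputable def nextW (k : ℕ) (w₀ : (ℕ → ℝ) → ℝ) (Z : (ℕ → ℝ) → Finset ℝ)
    (ρ : (ℕ → ℝ) → ℝ) (n : ℕ → ℝ) : ℝ := if n (k + 1) ∈ Z n then ρ n else w₀ n

/-- Hypotheses of the inductive step. -/
structure StepHyp (k : ℕ) (Λ δ δ₀ ℓ₀ Wb₀ Cb₀ L ρb Rb : ℝ) (N₀ : Set (ℕ → ℝ))
    (A₀ w₀ : (ℕ → ℝ) → ℝ) (Z : (ℕ → ℝ) → Finset ℝ) (ρ : (ℕ → ℝ) → ℝ) : Prop where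
  core : Core k (Λ + 1) δ₀ ℓ₀ Wb₀ Cb₀ N₀ A₀ w₀
  congrZ : ∀ c c', (∀ i ≤ k, c i = c' i) → Z c = Z c'
  congrρ : ∀ c c', (∀ i ≤ k, c i = c' i) → ρ c = ρ c'
  walls : ∀ c ∈ N₀, Walls (Z c) (c k) (ρ c)
  rho_ge : ∀ c ∈ N₀, w₀ c + L ≤ ρ c
  rho_le : ∀ c ∈ N₀, ρ c ≤ ρb
  hL : 0 ≤ L
  hΛ : 1 ≤ Λ
  hδ : 0 < δ
  hδ1 : δ ≤ 1 / 10
  hδ₀ : 0 < δ₀
  hδδ₀ : δ ≤ δ₀ / 4
  hρR : ρb ≤ Rb
  hR : Real.log Λ + Wb₀ + ℓ₀ ≤ Rb
  N1 : (δ + ρb + Rb) * (1 + δ₀ + 2 * (δ + ρb + Rb) * Λ) * Real.exp (3 / 2 - L) ≤ δ₀ / 2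
  N2 : Real.exp (ℓ₀ - L) * (2 * ρb + 1) ≤ δ₀ / 4

namespace StepHyp

variable {k : ℕ} {Λ δ δ₀ ℓ₀ Wb₀ Cb₀ L ρb Rb : ℝ} {N₀ : Set (ℕ → ℝ)}
  {A₀ w₀ : (ℕ → ℝ) → ℝ} {Z : (ℕ → ℝ) → Finset ℝ} {ρ : (ℕ → ℝ) → ℝ}

lemma prof (S : StepHyp k Λ δ δ₀ ℓ₀ Wb₀ Cb₀ L ρb Rb N₀ A₀ w₀ Z ρ) {c : ℕ → ℝ} (hc : c ∈ N₀) :
    Prof (prf k Z ρ c) (ρ c) := slopeT_prof (S.walls c hc)

lemma ob_next (A₀ : (ℕ → ℝ) → ℝ) (y n : ℕ → ℝ) :
    Ob (k + 1) (nextA k A₀ Z ρ) y n
      = Ob k A₀ y n + n (k + 1) * y (k + 1) - Tr (prf k Z ρ n) (n (k + 1)) := by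
  unfold Ob nextA
  rw [dotk_succ]
  ring

lemma prf_congr (S : StepHyp k Λ δ δ₀ ℓ₀ Wb₀ Cb₀ L ρb Rb N₀ A₀ w₀ Z ρ) {c c' : ℕ → ℝ}
    (h : ∀ i ≤ k, c i = c' i) : prf k Z ρ c = prf k Z ρ c' := by
  unfold prf
  rw [S.congrZ c c' h, S.congrρ c c' h, h k le_rfl]

lemma upd_agree (c : ℕ → ℝ) (ν : ℝ) : ∀ i ≤ k, Function.update c (k + 1) ν i = c i := by
  intro i hi
  exact Function.update_of_ne (by omega) _ _

/-- The extension of a prefix by an admissible value. -/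
lemma upd_mem (S : StepHyp k Λ δ δ₀ ℓ₀ Wb₀ Cb₀ L ρb Rb N₀ A₀ w₀ Z ρ) {c : ℕ → ℝ} (hc : c ∈ N₀)
    {ν : ℝ} (hν : Slot (Z c) (c k) (ρ c) ν) :
    Function.update c (k + 1) ν ∈ nextN k N₀ Z ρ := by
  have hag := upd_agree (k := k) c ν
  refine ⟨S.core.congrN _ _ (fun i hi => (hag i hi).symm) hc, ?_⟩
  rw [S.congrZ _ _ hag, S.congrρ _ _ hag, hag k le_rfl, Function.update_self]
  exact hν

lemma upd_ob (S : StepHyp k Λ δ δ₀ ℓ₀ Wb₀ Cb₀ L ρb Rb N₀ A₀ w₀ Z ρ) (c y : ℕ → ℝ) (ν : ℝ) :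
    Ob (k + 1) (nextA k A₀ Z ρ) y (Function.update c (k + 1) ν)
      = Ob k A₀ y c + ν * y (k + 1) - Tr (prf k Z ρ c) ν := by
  have hag := upd_agree (k := k) c ν
  rw [ob_next, Function.update_self, S.prf_congr hag]
  unfold Ob
  rw [dotk_congr y hag, S.core.congrA _ _ hag]

/-- The Fenchel gap at the last coordinate is controlled by the maximisation defect. -/
lemma Dl_le (S : StepHyp k Λ δ δ₀ ℓ₀ Wb₀ Cb₀ L ρb Rb N₀ A₀ w₀ Z ρ) {y n : ℕ → ℝ}
    (hy : PosK (k + 1) y) (hn : n ∈ nextN k N₀ Z ρ) {ε : ℝ}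
    (hN : NearMax (k + 1) (nextN k N₀ Z ρ) (nextA k A₀ Z ρ) y n ε) :
    Dl (prf k Z ρ n) (n (k + 1)) (y (k + 1)) ≤ ε := by
  have hW := S.walls n hn.1
  have hs : 0 < y (k + 1) := hy _ le_rfl
  set p := prf k Z ρ n with hp
  have hslot : Slot (Z n) (n k) (ρ n) (p (Real.log (y (k + 1)))) := slopeT_slot hW _
  have hfix : p (p (Real.log (y (k + 1)))) = p (Real.log (y (k + 1))) := slopeT_fix hW hslot
  have h0 := Dl_eq_zero (S.prof hn.1) hfix hs rfl
  have h1 := hN _ (S.upd_mem hn.1 hslot)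
  rw [S.upd_ob, ob_next] at h1
  rw [← hp] at h1 h0
  unfold Dl at h0 ⊢
  linarith

lemma nextW_ge (S : StepHyp k Λ δ δ₀ ℓ₀ Wb₀ Cb₀ L ρb Rb N₀ A₀ w₀ Z ρ) {n : ℕ → ℝ}
    (hn : n ∈ nextN k N₀ Z ρ) : w₀ n ≤ nextW k w₀ Z ρ n := by
  unfold nextW
  split_ifs
  · linarith [S.rho_ge n hn.1, S.hL]
  · exact le_rfl

lemma wd_le_nextW (S : StepHyp k Λ δ δ₀ ℓ₀ Wb₀ Cb₀ L ρb Rb N₀ A₀ w₀ Z ρ) {n : ℕ → ℝ}
    (hn : n ∈ nextN k N₀ Z ρ) : wd (Z n) (ρ n) (n (k + 1)) ≤ nextW k w₀ Z ρ n := by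
  unfold nextW
  by_cases h : n (k + 1) ∈ Z n
  · rw [wd_of_mem h]
    simp [h]
  · rw [wd_of_not_mem h]
    simp only [h, if_false]
    exact S.core.w_nonneg n hn.1

/-- Lower bound for the slope at a near maximiser. -/
lemma Err_sharp_ge (S : StepHyp k Λ δ δ₀ ℓ₀ Wb₀ Cb₀ L ρb Rb N₀ A₀ w₀ Z ρ) {y c : ℕ → ℝ}
    (hy : PosK (k + 1) y) (hsrt : Srt (k + 1) y Λ) (hc : c ∈ N₀)
    (hN : NearMax k N₀ A₀ y c (δ₀ * y k)) :
    -Rb * y (k + 1) ≤ Err (prf k Z ρ c) (y (k + 1)) := by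
  have hW := S.walls c hc
  have hs : 0 < y (k + 1) := hy _ le_rfl
  have hY : 0 < y k := hy _ (by omega)
  have hΛ := S.hΛ
  have hloc := S.core.nm y hy.down (hsrt.down hy hΛ) c hc hN k le_rfl
  have hlog : Real.log (y (k + 1)) ≤ Real.log Λ + Real.log (y k) := by
    rw [← Real.log_mul (by linarith) hY.ne']
    exact Real.log_le_log hs (by have := hsrt.2; linarith)
  have hw := S.core.w_le c hc
  have h1 := (abs_le.mp hloc).1
  refine Err_ge (S.prof hc) hs fun t ht => ?_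
  apply slopeT_lower hW (le_trans (S.rho_le c hc) S.hρR) (U := Real.log (y (k + 1))) _ ht
  have := S.hR
  linarith

/-- A prefix of a near maximiser whose last coordinate is not the top is a near maximiser. -/
lemma near_lower (S : StepHyp k Λ δ δ₀ ℓ₀ Wb₀ Cb₀ L ρb Rb N₀ A₀ w₀ Z ρ) {y n : ℕ → ℝ}
    (hy : PosK (k + 1) y) (hsrt : Srt (k + 1) y Λ) (hn : n ∈ nextN k N₀ Z ρ)
    (hN : NearMax (k + 1) (nextN k N₀ Z ρ) (nextA k A₀ Z ρ) y n (δ * y (k + 1)))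
    (hne : n (k + 1) ≠ n k) : NearMax k N₀ A₀ y n (δ₀ * y k) := by
  have hW := S.walls n hn.1
  have hs : 0 < y (k + 1) := hy _ le_rfl
  have hY : 0 < y k := hy _ (by omega)
  have hΛ := S.hΛ
  have hδ₀ := S.hδ₀
  have hδ := S.hδ
  have hρR := S.hρR
  have hslen : y (k + 1) ≤ Λ * y k := hsrt.2
  obtain ⟨c, hc, hcN⟩ := S.core.exists_near hy.down (ε := δ₀ / 2 * y k) (by positivity)
  have hErr := S.Err_sharp_ge hy hsrt hc (hcN.mono (by nlinarith))
  have hW' := S.walls c hc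
  set q := prf k Z ρ c with hq
  have hslot : Slot (Z c) (c k) (ρ c) (q (Real.log (y (k + 1)))) := slopeT_slot hW' _
  have hfix : q (q (Real.log (y (k + 1)))) = q (Real.log (y (k + 1))) := slopeT_fix hW' hslot
  have h0 := Dl_eq_zero (S.prof hc) hfix hs rfl
  have h1 := hN _ (S.upd_mem hc hslot)
  rw [S.upd_ob, ob_next] at h1
  rw [← hq] at h1 h0
  have h2 := Dl_nonneg (S.prof hn.1) (slopeT_fix hW hn.2) hs
  have h3 := Err_le (S.prof hn.1) hs.le
  have h4 := S.rho_le n hn.1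
  have h5 : ρ n * y (k + 1) ≤ ρb * y (k + 1) := mul_le_mul_of_nonneg_right h4 hs.le
  obtain ⟨Ca, hCa⟩ : ∃ Ca, Ca = δ + ρb + Rb := ⟨_, rfl⟩
  have hρb : 0 < ρb := lt_of_lt_of_le (by linarith [hW.rad]) h4
  have hCapos : 0 < Ca := by
    rw [hCa]
    linarith
  -- comparison of prefixes
  have h6 : Ob k A₀ y c ≤ Ob k A₀ y n + Ca * y (k + 1) := by
    unfold Dl Th at h0 h2
    rw [hCa]
    nlinarith
  have hnear : NearMax k N₀ A₀ y n (δ₀ / 2 * y k + Ca * y (k + 1)) := by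
    intro c' hc'
    linarith [hcN c' hc']
  -- the crude localization
  have hcl := S.core.cl y hy.down n hn.1 _ (by positivity) hnear
  have hCaΛ : Ca * y (k + 1) ≤ Ca * (Λ * y k) := mul_le_mul_of_nonneg_left hslen hCapos.le
  have hcl2 : Real.exp (n k - w₀ n - 1 / 2) ≤ (1 + δ₀ + 2 * Ca * Λ) * y k := by
    nlinarith
  -- the last coordinate lies below the top plateau
  have hD := S.Dl_le hy hn hN
  have hD' : Dl (prf k Z ρ n) (n (k + 1)) (y (k + 1)) ≤ (1 / 10) * y (k + 1) :=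
    le_trans hD (mul_le_mul_of_nonneg_right S.hδ1 hs.le)
  have hup := loc_upper_of_gap (S.prof hn.1) (slopeT_fix hW hn.2) (wd_nonneg hW _)
    (gap_right hW hn.2 hne) hs hD'
  have hbelow := Slot.add_wd_le hW hn.2 hne
  have hrho := S.rho_ge n hn.1
  have hlogs : Real.log (y (k + 1)) ≤ (n k - w₀ n - 1 / 2) + (3 / 2 - L) := by linarith
  have hsle : y (k + 1) ≤ Real.exp (n k - w₀ n - 1 / 2) * Real.exp (3 / 2 - L) := by
    rw [← Real.exp_add, ← Real.exp_log hs]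
    simpa using Real.exp_le_exp.mpr hlogs
  have hexp := Real.exp_pos (3 / 2 - L)
  have hsle2 : y (k + 1) ≤ (1 + δ₀ + 2 * Ca * Λ) * y k * Real.exp (3 / 2 - L) :=
    le_trans hsle (mul_le_mul_of_nonneg_right hcl2 hexp.le)
  have hN1 : Ca * (1 + δ₀ + 2 * Ca * Λ) * Real.exp (3 / 2 - L) ≤ δ₀ / 2 := by
    rw [hCa]
    exact S.N1
  have hfinal : Ca * y (k + 1) ≤ δ₀ / 2 * y k := by
    have h7 := mul_le_mul_of_nonneg_left hsle2 hCapos.le
    have h8 := mul_le_mul_of_nonneg_right hN1 hY.le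
    nlinarith
  exact hnear.mono (by nlinarith)

/-- A prefix of a near maximiser whose last coordinate is the top is a near maximiser at the
merged point. -/
lemma near_top (S : StepHyp k Λ δ δ₀ ℓ₀ Wb₀ Cb₀ L ρb Rb N₀ A₀ w₀ Z ρ) {y n : ℕ → ℝ}
    (hy : PosK (k + 1) y) (hsrt : Srt (k + 1) y Λ) (hn : n ∈ nextN k N₀ Z ρ)
    (hN : NearMax (k + 1) (nextN k N₀ Z ρ) (nextA k A₀ Z ρ) y n (δ * y (k + 1)))
    (heq : n (k + 1) = n k) :
    NearMax k N₀ A₀ (Function.update y k (y k + y (k + 1))) n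
      (δ₀ * Function.update y k (y k + y (k + 1)) k) := by
  have hs : 0 < y (k + 1) := hy _ le_rfl
  have hY : 0 < y k := hy _ (by omega)
  have hΛ := S.hΛ
  have hδ₀ := S.hδ₀
  have hδ := S.hδ
  set y' := Function.update y k (y k + y (k + 1)) with hy'
  have hy'k : y' k = y k + y (k + 1) := by
    rw [hy', Function.update_self]
  have hpos' : PosK k y' := hy.merge
  have hsrt' : Srt k y' (Λ + 1) := hsrt.merge hy hΛ
  have hY' : 0 < y' k := hpos' k le_rfl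
  obtain ⟨c, hc, hcN⟩ := S.core.exists_near hpos' (ε := δ₀ / 2 * y' k) (by positivity)
  have hloc := S.core.nm y' hpos' hsrt' c hc (hcN.mono (by nlinarith)) k le_rfl
  have hW' := S.walls c hc
  have hWn := S.walls n hn.1
  have htop := slot_top hW'
  have hp' := S.prof hc
  -- the conjugate at the top is small
  have hT : Tr (prf k Z ρ c) (c k) ≤ δ₀ / 4 * y' k := by
    have h1 := Tr_top_le hp' (τ := c k) (fun t ht => slopeT_top hW' ht)
      (fun t ht => slopeT_low hW' ht) hW'.rho_pos.le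
    have h2 := S.rho_ge c hc
    have h3 := (abs_le.mp hloc).2
    have h4 : Real.exp (c k - ρ c) ≤ y' k * Real.exp (ℓ₀ - L) := by
      have h9 : y' k * Real.exp (ℓ₀ - L) = Real.exp (Real.log (y' k) + (ℓ₀ - L)) := by
        rw [Real.exp_add, Real.exp_log hY']
      rw [h9]
      exact Real.exp_le_exp.mpr (by linarith)
    have h5 : 2 * ρ c + 1 ≤ 2 * ρb + 1 := by linarith [S.rho_le c hc]
    have h6 : 0 ≤ 2 * ρ c + 1 := by linarith [hW'.rad]
    have h7 := Real.exp_pos (ℓ₀ - L)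
    have h8 := S.N2
    calc Tr (prf k Z ρ c) (c k) ≤ Real.exp (c k - ρ c) * (2 * ρ c + 1) := h1
      _ ≤ (y' k * Real.exp (ℓ₀ - L)) * (2 * ρb + 1) :=
          mul_le_mul h4 h5 h6 (by positivity)
      _ = y' k * (Real.exp (ℓ₀ - L) * (2 * ρb + 1)) := by ring
      _ ≤ y' k * (δ₀ / 4) := mul_le_mul_of_nonneg_left h8 hY'.le
      _ = δ₀ / 4 * y' k := by ring
  -- values at the merged point
  have hob : ∀ c₁ : ℕ → ℝ, Ob k A₀ y' c₁ = Ob k A₀ y c₁ + c₁ k * y (k + 1) := by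
    intro c₁
    unfold Ob
    rw [hy', dotk_update_last]
    ring
  have h1 := hN _ (S.upd_mem hc htop)
  rw [S.upd_ob, ob_next, heq] at h1
  have hTn := Tr_nonneg (S.prof hn.1) (slopeT_fix hWn (slot_top hWn))
  have h2 := hob c
  have h3 := hob n
  have h4 : δ * y (k + 1) ≤ δ₀ / 4 * y' k := by
    rw [hy'k]
    have := S.hδδ₀
    nlinarith
  intro c' hc'
  have h5 := hcN c' hc'
  nlinarith

/-- The inductive step: the next level satisfies the same properties. -/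
theorem core_next (S : StepHyp k Λ δ δ₀ ℓ₀ Wb₀ Cb₀ L ρb Rb N₀ A₀ w₀ Z ρ) {ℓ Wb Cb : ℝ}
    (hℓ₀ : 0 ≤ ℓ₀) (hℓ : ℓ₀ + Real.log (1 + Λ) + 1 ≤ ℓ) (hWb₀ : Wb₀ ≤ Wb) (hWbρ : ρb ≤ Wb)
    (hCb₀ : Cb₀ + δ₀ ≤ Cb) (hCbR : Rb ≤ Cb) :
    Core (k + 1) Λ δ ℓ Wb Cb (nextN k N₀ Z ρ) (nextA k A₀ Z ρ) (nextW k w₀ Z ρ) := by
  have hΛ := S.hΛ
  have hδ₀ := S.hδ₀
  have hlogΛ : 0 ≤ Real.log (1 + Λ) := Real.log_nonneg (by linarith)
  have hle : ∀ {n n' : ℕ → ℝ}, (∀ i ≤ k + 1, n i = n' i) → ∀ i ≤ k, n i = n' i :=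
    fun h i hi => h i (by omega)
  refine
    { congrN := ?_, congrA := ?_, congrW := ?_, ne := ?_, w_nonneg := ?_, w_le := ?_, anti := ?_,
      ub := ?_, nm := ?_, cl := ?_, lb := ?_ }
  · intro n n' h hn
    refine ⟨S.core.congrN _ _ (hle h) hn.1, ?_⟩
    rw [← S.congrZ _ _ (hle h), ← S.congrρ _ _ (hle h), ← h k (by omega), ← h (k + 1) le_rfl]
    exact hn.2
  · intro n n' h
    unfold nextA
    rw [S.core.congrA _ _ (hle h), S.prf_congr (hle h), h (k + 1) le_rfl]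
  · intro n n' h
    unfold nextW
    rw [S.congrZ _ _ (hle h), S.congrρ _ _ (hle h), h (k + 1) le_rfl, S.core.congrW _ _ (hle h)]
  · obtain ⟨c, hc⟩ := S.core.ne
    exact ⟨_, S.upd_mem hc (slot_top (S.walls c hc))⟩
  · intro n hn
    unfold nextW
    split_ifs
    · linarith [(S.walls n hn.1).rad]
    · exact S.core.w_nonneg n hn.1
  · intro n hn
    unfold nextW
    split_ifs
    · linarith [S.rho_le n hn.1]
    · linarith [S.core.w_le n hn.1]
  · intro n hn i hi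
    rcases Nat.lt_succ_iff_lt_or_eq.mp hi with h | rfl
    · exact S.core.anti n hn.1 i h
    · exact hn.2.1
  · intro y hy n hn
    have hs : 0 < y (k + 1) := hy _ le_rfl
    have h1 := S.core.ub y hy.down n hn.1
    have h2 := Dl_nonneg (S.prof hn.1) (slopeT_fix (S.walls n hn.1) hn.2) hs
    have h3 := Err_le (S.prof hn.1) hs.le
    have h4 := S.rho_le n hn.1
    have h5 : ρ n * y (k + 1) ≤ ρb * y (k + 1) := mul_le_mul_of_nonneg_right h4 hs.le
    have h6 := massk_nonneg hy.down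
    rw [ob_next, Vk_succ, massk_succ]
    unfold Dl Th at h2
    have h7 : ρb * y (k + 1) ≤ Cb * y (k + 1) :=
      mul_le_mul_of_nonneg_right (by linarith [S.hρR]) hs.le
    have h8 : Cb₀ * massk k y ≤ Cb * massk k y :=
      mul_le_mul_of_nonneg_right (by linarith) h6
    nlinarith
  · intro y hy hsrt n hn hN i hi
    have hW := S.walls n hn.1
    have hs : 0 < y (k + 1) := hy _ le_rfl
    have hY : 0 < y k := hy _ (by omega)
    have hD := S.Dl_le hy hn hN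
    have hD' : Dl (prf k Z ρ n) (n (k + 1)) (y (k + 1)) ≤ (1 / 10) * y (k + 1) :=
      le_trans hD (mul_le_mul_of_nonneg_right S.hδ1 hs.le)
    have hfix := slopeT_fix hW hn.2
    have hlow := loc_lower_of_gap (S.prof hn.1) hfix (wd_nonneg hW _) (gap_left hW hn.2) hs hD'
    have hwd := S.wd_le_nextW hn
    have hw₀ := S.nextW_ge hn
    by_cases hne : n (k + 1) = n k
    · have hnear := S.near_top hy hsrt hn hN hne
      have hloc := S.core.nm _ hy.merge (hsrt.merge hy hΛ) n hn.1 hnear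
      have hk := hloc k le_rfl
      rw [Function.update_self] at hk
      have hk1 := abs_le.mp hk
      have h1 : Real.log (y k) ≤ Real.log (y k + y (k + 1)) :=
        Real.log_le_log hY (by linarith)
      have h2 : Real.log (y (k + 1)) ≤ Real.log (y k + y (k + 1)) :=
        Real.log_le_log hs (by linarith)
      have h3 : Real.log (y k + y (k + 1)) ≤ Real.log (1 + Λ) + Real.log (y k) := by
        rw [← Real.log_mul (by linarith) hY.ne']
        apply Real.log_le_log (by linarith)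
        have := hsrt.2
        linarith
      rcases Nat.lt_succ_iff_lt_or_eq.mp (Nat.lt_succ_of_le hi) with h | rfl
      · rcases Nat.lt_succ_iff_lt_or_eq.mp h with h' | rfl
        · have h4 := hloc i (by omega)
          rw [Function.update_of_ne (by omega)] at h4
          linarith
        · rw [abs_le]
          constructor <;> linarith [hk1.1, hk1.2]
      · rw [abs_le, hne]
        rw [hne] at hlow hwd
        have hρw : w₀ n ≤ nextW k w₀ Z ρ n := hw₀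
        constructor <;> linarith [hk1.1, hk1.2]
    · have hnear := S.near_lower hy hsrt hn hN hne
      have hloc := S.core.nm y hy.down (hsrt.down hy hΛ) n hn.1 hnear
      have hup := loc_upper_of_gap (S.prof hn.1) hfix (wd_nonneg hW _)
        (gap_right hW hn.2 hne) hs hD'
      rcases Nat.lt_succ_iff_lt_or_eq.mp (Nat.lt_succ_of_le hi) with h | rfl
      · have := hloc i (by omega)
        linarith
      · rw [abs_le]
        constructor <;> linarith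
  · intro y hy n hn ε hε hN
    have hW := S.walls n hn.1
    have hs : 0 < y (k + 1) := hy _ le_rfl
    have hD := S.Dl_le hy hn hN
    have h1 := cl_of_gap (S.prof hn.1) (slopeT_fix hW hn.2) (wd_nonneg hW _) (gap_left hW hn.2)
      hs hε hD
    refine le_trans (Real.exp_le_exp.mpr ?_) h1
    linarith [S.wd_le_nextW hn]
  · intro y hy hsrt
    have hs : 0 < y (k + 1) := hy _ le_rfl
    have hY : 0 < y k := hy _ (by omega)
    obtain ⟨c₀, hc₀, hval⟩ := S.core.lb y hy.down (hsrt.down hy hΛ)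
    obtain ⟨c, hc, hcN⟩ := S.core.exists_near hy.down (ε := δ₀ * y k) (by positivity)
    have hErr := S.Err_sharp_ge hy hsrt hc hcN
    have hW := S.walls c hc
    have hslot : Slot (Z c) (c k) (ρ c) (prf k Z ρ c (Real.log (y (k + 1)))) := slopeT_slot hW _
    have hfix : prf k Z ρ c (prf k Z ρ c (Real.log (y (k + 1))))
        = prf k Z ρ c (Real.log (y (k + 1))) := slopeT_fix hW hslot
    have h0 := Dl_eq_zero (S.prof hc) hfix hs rfl
    refine ⟨_, S.upd_mem hc hslot, ?_⟩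
    rw [S.upd_ob, Vk_succ, massk_succ]
    unfold Dl Th at h0
    have h1 := hcN c₀ hc₀
    have h2 := le_massk hy.down
    have h3 := massk_nonneg hy.down
    have h4 : δ₀ * y k ≤ δ₀ * massk k y := mul_le_mul_of_nonneg_left h2 hδ₀.le
    have h5 : (Cb₀ + δ₀) * massk k y ≤ Cb * massk k y := mul_le_mul_of_nonneg_right hCb₀ h3
    have h6 : Rb * y (k + 1) ≤ Cb * y (k + 1) := mul_le_mul_of_nonneg_right hCbR hs.le
    nlinarith

end StepHyp

/-- Definition of the first level of the family. -/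
def baseN (ρ : ℝ) : Set (ℕ → ℝ) := {n | Slot0 ρ (n 0)}

/-- Constants of the first level. -/
noncomputable def baseA (ρ : ℝ) (n : ℕ → ℝ) : ℝ := Tr (slope0 ρ) (n 0)

/-- Widths of the first level. -/
noncomputable def baseW (ρ : ℝ) (n : ℕ → ℝ) : ℝ := wd0 ρ (n 0)

lemma dotk_zero (a b : ℕ → ℝ) : dotk 0 a b = a 0 * b 0 := by
  simp [dotk]

lemma Vk_zero (y : ℕ → ℝ) : Vk 0 y = Fn (y 0) := by
  simp [Vk]

lemma massk_zero (y : ℕ → ℝ) : massk 0 y = y 0 := by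
  simp [massk]

/-- The first level of the family. -/
theorem core_base {ρ Λ δ ℓ Wb Cb : ℝ} (hρ : 1 ≤ ρ) (hδ : δ ≤ 1 / 10) (hδ0 : 0 < δ) (hℓ : 1 ≤ ℓ)
    (hWb : ρ ≤ Wb) (hCb : ρ ≤ Cb) :
    Core 0 Λ δ ℓ Wb Cb (baseN ρ) (baseA ρ) (baseW ρ) := by
  have hρ0 : 0 ≤ ρ := by linarith
  have hP := slope0_prof hρ0
  have hob : ∀ y n : ℕ → ℝ, Ob 0 (baseA ρ) y n = n 0 * y 0 - Tr (slope0 ρ) (n 0) := by
    intro y n
    unfold Ob baseA
    rw [dotk_zero]
  -- existence of competitors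
  have hcomp : ∀ (y : ℕ → ℝ), ∀ ν, Slot0 ρ ν → ∃ n ∈ baseN ρ, n 0 = ν := by
    intro y ν hν
    exact ⟨fun _ => ν, hν, rfl⟩
  -- the gap at a near maximiser
  have hgapD : ∀ {y n : ℕ → ℝ} {ε : ℝ}, 0 < y 0 → n ∈ baseN ρ →
      NearMax 0 (baseN ρ) (baseA ρ) y n ε → Dl (slope0 ρ) (n 0) (y 0) ≤ ε := by
    intro y n ε hy hn hN
    have hslot : Slot0 ρ (slope0 ρ (Real.log (y 0))) := slope0_slot _
    obtain ⟨n', hn', hn'0⟩ := hcomp y _ hslot
    have h0 := Dl_eq_zero hP (slope0_fix hρ0 hslot) hy rfl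
    have h1 := hN n' hn'
    rw [hob, hob, hn'0] at h1
    unfold Dl at h0 ⊢
    linarith
  refine
    { congrN := ?_, congrA := ?_, congrW := ?_, ne := ?_, w_nonneg := ?_, w_le := ?_, anti := ?_,
      ub := ?_, nm := ?_, cl := ?_, lb := ?_ }
  · intro n n' h hn
    show Slot0 ρ (n' 0)
    rw [← h 0 le_rfl]
    exact hn
  · intro n n' h
    unfold baseA
    rw [h 0 le_rfl]
  · intro n n' h
    unfold baseW
    rw [h 0 le_rfl]
  · exact ⟨fun _ => 0, Or.inl rfl⟩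
  · intro n _
    exact wd0_nonneg hρ0 _
  · intro n _
    unfold baseW wd0
    split_ifs <;> linarith
  · intro n _ i hi
    omega
  · intro y hy n hn
    have hs : 0 < y 0 := hy 0 le_rfl
    have h2 := Dl_nonneg hP (slope0_fix hρ0 hn) hs
    have h3 := Err_le hP hs.le
    rw [hob, Vk_zero, massk_zero]
    unfold Dl Th at h2
    have h7 : ρ * y 0 ≤ Cb * y 0 := mul_le_mul_of_nonneg_right hCb hs.le
    linarith
  · intro y hy _ n hn hN i hi
    have hi0 : i = 0 := by omega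
    subst hi0
    have hs : 0 < y 0 := hy 0 le_rfl
    have hD := hgapD hs hn hN
    have hD' : Dl (slope0 ρ) (n 0) (y 0) ≤ (1 / 10) * y 0 :=
      le_trans hD (mul_le_mul_of_nonneg_right hδ hs.le)
    have h1 := loc_lower_of_gap hP (slope0_fix hρ0 hn) (wd0_nonneg hρ0 _) (gap0_left hρ hn) hs hD'
    have h2 := loc_upper_of_gap hP (slope0_fix hρ0 hn) (wd0_nonneg hρ0 _) (gap0_right hρ hn) hs hD'
    unfold baseW
    rw [abs_le]
    constructor <;> linarith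
  · intro y hy n hn ε hε hN
    have hs : 0 < y 0 := hy 0 le_rfl
    have hD := hgapD hs hn hN
    exact cl_of_gap hP (slope0_fix hρ0 hn) (wd0_nonneg hρ0 _) (gap0_left hρ hn) hs hε hD
  · intro y hy _
    have hs : 0 < y 0 := hy 0 le_rfl
    have hslot : Slot0 ρ (slope0 ρ (Real.log (y 0))) := slope0_slot _
    obtain ⟨n', hn', hn'0⟩ := hcomp y _ hslot
    have h0 := Dl_eq_zero hP (slope0_fix hρ0 hslot) hs rfl
    refine ⟨n', hn', ?_⟩
    rw [hob, hn'0, Vk_zero, massk_zero]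
    have h1 := Err_ge hP (R := ρ) hs (fun t _ => slope0_lower hρ0 t)
    unfold Dl Th at h0
    have h7 : ρ * y 0 ≤ Cb * y 0 := mul_le_mul_of_nonneg_right hCb hs.le
    linarith

end Vale.Agent.Lib.P072
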