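import Mathlib

/-!
Definitions for mass-action systems on `d` species.
-/

namespace Vale.Agent.Lib.P072

/-- A reaction `y → y'`, given as the pair (source complex, target complex);
complexes are vectors of nonnegative integers indexed by the `d` species. -/
abbrev Reaction (d : ℕ) := (Fin d → ℕ) × (Fin d → ℕ)

/-- Weak reversibility of a finite reaction set: for every reaction `y → y'` there is a
directed path from `y'` back to `y`. -/
def WeaklyReversible {d : ℕ} (R : Finset (Reaction d)) : Prop :=
  ∀ r ∈ R, Relation.ReflTransGen (fun a b => (a, b) ∈ R) r.2 r.1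

/-- The reaction vector `y' - y`. -/
def reactionVector {d : ℕ} (r : Reaction d) : Fin d → ℝ :=
  fun i => (r.2 i : ℝ) - (r.1 i : ℝ)

/-- The stoichiometric subspace: the real span of the reaction vectors. -/
def stoichiometricSubspace {d : ℕ} (R : Finset (Reaction d)) : Submodule ℝ (Fin d → ℝ) :=
  Submodule.span ℝ (reactionVector '' (R : Set (Reaction d)))

/-- The mass-action vector field with rate function `k`:
`f(x) = ∑_{y → y'} k_{y → y'} x^y (y' - y)`. -/
noncomputable def massAction {d : ℕ} (R : Finset (Reaction d)) (k : Reaction d → ℝ)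
    (x : Fin d → ℝ) : Fin d → ℝ :=
  fun i => ∑ r ∈ R, k r * (∏ j, x j ^ r.1 j) * reactionVector r i

end Vale.Agent.Lib.P072
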