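import Mathlib

/-!
Entropy function, its Fenchel conjugate pairing, and motion along a fibre `x + α e`.
-/

namespace Vale.Agent.Lib.P072

open Finset

variable {d : ℕ}

/-- Euclidean pairing. -/
def dot (a b : Fin d → ℝ) : ℝ := ∑ i, a i * b i

/-- Coordinatewise logarithm. -/
noncomputable def lg (x : Fin d → ℝ) : Fin d → ℝ := fun i => Real.log (x i)

/-- The entropy function. -/
noncomputable def V (x : Fin d → ℝ) : ℝ := ∑ i, (x i * Real.log (x i) - x i)

/-- The affine minorants of the entropy. -/
noncomputable def phi (x n : Fin d → ℝ) : ℝ := ∑ i, (n i * x i - Real.exp (n i))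

/-- Positivity of all coordinates. -/
def Pos (x : Fin d → ℝ) : Prop := ∀ i, 0 < x i

/-- The convex function `exp a - a - 1`. -/
noncomputable def G (a : ℝ) : ℝ := Real.exp a - a - 1

/-- Moving along a direction. -/
def shift (x : Fin d → ℝ) (α : ℝ) (e : Fin d → ℝ) : Fin d → ℝ := fun i => x i + α * e i

/-- Entries of a vector are zero or at least one in absolute value. -/
def IntLike (e : Fin d → ℝ) : Prop := ∀ i, e i ≠ 0 → 1 ≤ |e i|

/-- The level of `x` along `e`. -/
noncomputable def lev (e x : Fin d → ℝ) : ℝ := dot e (lg x)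

lemma G_nonneg (a : ℝ) : 0 ≤ G a := by
  have := Real.add_one_le_exp a
  unfold G
  linarith

lemma G_ge_abs (a : ℝ) : |a| - 1 ≤ G a := by
  unfold G
  rcases le_total 0 a with h | h
  · rw [abs_of_nonneg h]
    have := Real.quadratic_le_exp_of_nonneg h
    nlinarith [sq_nonneg (a - 1)]
  · rw [abs_of_nonpos h]
    have := Real.exp_pos a
    linarith

lemma G_le_exp_abs (a : ℝ) : G a ≤ Real.exp |a| := by
  unfold G
  rcases le_total 0 a with h | h
  · rw [abs_of_nonneg h]
    linarith
  · rw [abs_of_nonpos h]
    have h1 : Real.exp a ≤ 1 := Real.exp_le_one_iff.mpr h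
    have h2 := Real.add_one_le_exp (-a)
    linarith

lemma phi_le_V {x : Fin d → ℝ} (hx : Pos x) (n : Fin d → ℝ) : phi x n ≤ V x := by
  unfold phi V
  apply Finset.sum_le_sum
  intro i _
  have hxi := hx i
  have h1 := Real.add_one_le_exp (n i - Real.log (x i))
  have h2 : Real.exp (n i) = x i * Real.exp (n i - Real.log (x i)) := by
    rw [Real.exp_sub, Real.exp_log hxi]
    field_simp
  rw [h2]
  nlinarith

lemma phi_lg {x : Fin d → ℝ} (hx : Pos x) : phi x (lg x) = V x := by
  unfold phi V lg
  apply Finset.sum_congr rfl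
  intro i _
  rw [Real.exp_log (hx i)]
  ring

lemma phi_sub (x y n : Fin d → ℝ) : phi x n - phi y n = dot n x - dot n y := by
  unfold phi dot
  rw [← Finset.sum_sub_distrib, ← Finset.sum_sub_distrib]
  apply Finset.sum_congr rfl
  intro i _
  ring

lemma phi_shift (x : Fin d → ℝ) (α : ℝ) (e n : Fin d → ℝ) :
    phi (shift x α e) n = phi x n + α * dot e n := by
  unfold phi shift dot
  rw [Finset.mul_sum, ← Finset.sum_add_distrib]
  apply Finset.sum_congr rfl
  intro i _
  ring

lemma shift_shift_neg (x : Fin d → ℝ) (α : ℝ) (e : Fin d → ℝ) :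
    shift (shift x α e) (-α) e = x := by
  funext i
  simp [shift]

/-- Upper bound for `phi x n` through a point of the fibre of `x`. -/
lemma phi_le_through {x : Fin d → ℝ} {α : ℝ} {e : Fin d → ℝ}
    (hz : Pos (shift x α e)) (n : Fin d → ℝ) :
    phi x n ≤ V (shift x α e) - α * dot e n := by
  have h := phi_shift (shift x α e) (-α) e n
  rw [shift_shift_neg] at h
  have h2 := phi_le_V hz n
  rw [h]
  linarith

/-- The value of `phi x` at the logarithm of a point of the fibre of `x`. -/
lemma phi_lg_through {x : Fin d → ℝ} {α : ℝ} {e : Fin d → ℝ}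
    (hz : Pos (shift x α e)) :
    phi x (lg (shift x α e)) = V (shift x α e) - α * lev e (shift x α e) := by
  have h := phi_shift (shift x α e) (-α) e (lg (shift x α e))
  rw [shift_shift_neg] at h
  rw [h, phi_lg hz]
  unfold lev
  ring

/-- The gap between the entropy and an affine minorant, as a weighted sum of `G`. -/
lemma V_sub_phi_lg {x z : Fin d → ℝ} (hx : Pos x) (hz : Pos z) :
    V x - phi x (lg z) = ∑ i, x i * G (Real.log (z i) - Real.log (x i)) := by
  unfold V phi lg G
  rw [← Finset.sum_sub_distrib]
  apply Finset.sum_congr rfl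
  intro i _
  have h1 : Real.exp (Real.log (z i) - Real.log (x i)) = z i / x i := by
    rw [Real.exp_sub, Real.exp_log (hz i), Real.exp_log (hx i)]
  rw [h1, Real.exp_log (hz i)]
  have hxi := (hx i).ne'
  field_simp
  ring

/-- Value of `phi` at a one coordinate perturbation of `lg x`. -/
lemma phi_update {x : Fin d → ℝ} (hx : Pos x) (j : Fin d) (c : ℝ) :
    phi x (fun i => Real.log (x i) + if i = j then c else 0) = V x - x j * G c := by
  unfold phi V G
  have h : ∀ i, ((Real.log (x i) + if i = j then c else 0) * x i
      - Real.exp (Real.log (x i) + if i = j then c else 0))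
      = (x i * Real.log (x i) - x i) - (if i = j then x j * (Real.exp c - c - 1) else 0) := by
    intro i
    by_cases hij : i = j
    · subst hij
      simp only [if_true]
      rw [Real.exp_add, Real.exp_log (hx i)]
      ring
    · simp only [hij, if_false]
      rw [add_zero, Real.exp_log (hx i)]
      ring
  rw [Finset.sum_congr rfl (fun i _ => h i), Finset.sum_sub_distrib]
  simp

lemma dot_update (e x : Fin d → ℝ) (j : Fin d) (c : ℝ) :
    dot e (fun i => Real.log (x i) + if i = j then c else 0) = lev e x + c * e j := by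
  unfold dot lev dot lg
  have h : ∀ i, e i * (Real.log (x i) + if i = j then c else 0)
      = e i * Real.log (x i) + (if i = j then c * e j else 0) := by
    intro i
    by_cases hij : i = j
    · subst hij
      simp only [if_true]
      ring
    · simp only [hij, if_false]
      ring
  rw [Finset.sum_congr rfl (fun i _ => h i), Finset.sum_add_distrib]
  simp

/-- One can raise the level along `e` by any amount. -/
lemma reach_up {x e : Fin d → ℝ} (hx : Pos x) (he : e ≠ 0) (hi : IntLike e) {Δ : ℝ}
    (hΔ : 0 ≤ Δ) :
    ∃ α, 0 ≤ α ∧ Pos (shift x α e) ∧ lev e x + Δ ≤ lev e (shift x α e) := by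
  classical
  -- a single distinguished coordinate carries the gain
  suffices H : ∃ α, 0 ≤ α ∧ Pos (shift x α e) ∧ ∃ i₀, e i₀ * Real.log (x i₀) + Δ
      ≤ e i₀ * Real.log (shift x α e i₀) by
    obtain ⟨α, hα, hpos, i₀, hi₀⟩ := H
    refine ⟨α, hα, hpos, ?_⟩
    have hmono : ∀ i, e i * Real.log (x i) ≤ e i * Real.log (shift x α e i) := by
      intro i
      rcases lt_trichotomy (e i) 0 with h | h | h
      · have h1 : shift x α e i ≤ x i := by
          unfold shift
          nlinarith
        have h2 := Real.log_le_log (hpos i) h1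
        nlinarith
      · simp [h]
      · have h1 : x i ≤ shift x α e i := by
          unfold shift
          nlinarith
        have h2 := Real.log_le_log (hx i) h1
        nlinarith
    unfold lev dot lg
    have hsum : ∑ i, e i * Real.log (x i) + Δ
        ≤ ∑ i, (e i * Real.log (shift x α e i)) := by
      rw [← Finset.add_sum_erase _ _ (Finset.mem_univ i₀),
        ← Finset.add_sum_erase (Finset.univ) (fun i => e i * Real.log (shift x α e i))
          (Finset.mem_univ i₀)]
      have := Finset.sum_le_sum (s := Finset.univ.erase i₀) (fun i _ => hmono i)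
      linarith
    exact hsum
  by_cases hneg : ∃ i, e i < 0
  · -- the coordinate reaching zero first
    set s := Finset.univ.filter (fun i => e i < 0) with hs
    have hsne : s.Nonempty := by
      obtain ⟨i, hi'⟩ := hneg
      exact ⟨i, Finset.mem_filter.mpr ⟨Finset.mem_univ _, hi'⟩⟩
    obtain ⟨i₀, hi₀s, hi₀min⟩ := Finset.exists_min_image s (fun i => x i / (-e i)) hsne
    have hi₀neg : e i₀ < 0 := (Finset.mem_filter.mp hi₀s).2
    set m := x i₀ / (-e i₀) with hm
    have hmpos : 0 < m := div_pos (hx i₀) (by linarith)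
    set η := Real.exp (-Δ) with hη
    have hηpos : 0 < η := Real.exp_pos _
    have hηle : η ≤ 1 := Real.exp_le_one_iff.mpr (by linarith)
    refine ⟨m * (1 - η), mul_nonneg hmpos.le (by linarith), ?_, i₀, ?_⟩
    · intro i
      unfold shift
      rcases lt_or_ge (e i) 0 with h | h
      · have h1 : m ≤ x i / (-e i) := hi₀min i (Finset.mem_filter.mpr ⟨Finset.mem_univ _, h⟩)
        have h2 : m * (-e i) ≤ x i := by
          rwa [le_div_iff₀ (by linarith)] at h1
        have hxi := hx i
        have h3 : m * (1 - η) * (-e i) ≤ (1 - η) * x i := by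
          calc m * (1 - η) * (-e i) = (1 - η) * (m * (-e i)) := by ring
            _ ≤ (1 - η) * x i := mul_le_mul_of_nonneg_left h2 (by linarith)
        nlinarith
      · have hxi := hx i
        have : 0 ≤ m * (1 - η) * e i := mul_nonneg (mul_nonneg hmpos.le (by linarith)) h
        linarith
    · have h0 : shift x (m * (1 - η)) e i₀ = x i₀ * η := by
        unfold shift
        have : m * (-e i₀) = x i₀ := by
          rw [hm]
          have hne : -e i₀ ≠ 0 := by linarith
          exact div_mul_cancel₀ _ hne
        nlinarith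
      rw [h0, Real.log_mul (hx i₀).ne' hηpos.ne', hη, Real.log_exp]
      have h1 : 1 ≤ |e i₀| := hi i₀ hi₀neg.ne
      rw [abs_of_neg hi₀neg] at h1
      nlinarith
  · push Not at hneg
    obtain ⟨i₀, hi₀⟩ : ∃ i, e i ≠ 0 := by
      by_contra hall
      push Not at hall
      exact he (funext hall)
    have hpos₀ : 0 < e i₀ := lt_of_le_of_ne (hneg i₀) (Ne.symm hi₀)
    have h1 : 1 ≤ e i₀ := by
      have := hi i₀ hi₀
      rwa [abs_of_pos hpos₀] at this
    have hE : 0 ≤ Real.exp Δ - 1 := by
      have := Real.one_le_exp hΔ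
      linarith
    have hα : 0 ≤ x i₀ * (Real.exp Δ - 1) / e i₀ :=
      div_nonneg (mul_nonneg (hx i₀).le hE) hpos₀.le
    refine ⟨x i₀ * (Real.exp Δ - 1) / e i₀, hα, ?_, i₀, ?_⟩
    · intro i
      unfold shift
      have hxi := hx i
      have := mul_nonneg hα (hneg i)
      linarith
    · have h0 : shift x (x i₀ * (Real.exp Δ - 1) / e i₀) e i₀ = x i₀ * Real.exp Δ := by
        unfold shift
        field_simp
        ring
      rw [h0, Real.log_mul (hx i₀).ne' (Real.exp_pos Δ).ne', Real.log_exp]
      nlinarith

lemma pos_shift_of_between {x e : Fin d → ℝ} (hx : Pos x) {α β : ℝ} (hβ : 0 ≤ β)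
    (hαβ : β ≤ α) (hpos : Pos (shift x α e)) : Pos (shift x β e) := by
  intro i
  have h1 := hx i
  have h2 := hpos i
  unfold shift at h2 ⊢
  rcases le_total 0 (e i) with h | h
  · have := mul_nonneg hβ h
    linarith
  · have : α * e i ≤ β * e i := mul_le_mul_of_nonpos_right hαβ h
    linarith

lemma continuousOn_lev_shift {x e : Fin d → ℝ} {s : Set ℝ}
    (hpos : ∀ α ∈ s, Pos (shift x α e)) :
    ContinuousOn (fun α => lev e (shift x α e)) s := by
  unfold lev dot lg shift
  refine continuousOn_finsetSum _ fun i _ => ?_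
  refine ContinuousOn.mul continuousOn_const ?_
  refine ContinuousOn.log (by fun_prop) ?_
  intro α hα
  exact (hpos α hα i).ne'

/-- Solving the level equation when the level must go up. -/
lemma solve_up {x e : Fin d → ℝ} (hx : Pos x) (he : e ≠ 0) (hi : IntLike e) {c : ℝ}
    (hc : lev e x ≤ c) :
    ∃ α, 0 ≤ α ∧ Pos (shift x α e) ∧ lev e (shift x α e) = c := by
  obtain ⟨α₁, hα₁, hpos₁, hlev₁⟩ := reach_up hx he hi (sub_nonneg.mpr hc)
  have hcont : ContinuousOn (fun α => lev e (shift x α e)) (Set.Icc 0 α₁) :=
    continuousOn_lev_shift fun α hα => pos_shift_of_between hx hα.1 hα.2 hpos₁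
  have h0 : shift x 0 e = x := by
    funext i
    simp [shift]
  have hmem : c ∈ Set.Icc (lev e (shift x 0 e)) (lev e (shift x α₁ e)) := by
    rw [h0]
    exact ⟨hc, by linarith⟩
  obtain ⟨α, hα, hαc⟩ := intermediate_value_Icc hα₁ hcont hmem
  exact ⟨α, hα.1, pos_shift_of_between hx hα.1 hα.2 hpos₁, hαc⟩

lemma lev_neg (e x : Fin d → ℝ) : lev (-e) x = - lev e x := by
  unfold lev dot
  simp [Finset.sum_neg_distrib]

lemma shift_neg (x : Fin d → ℝ) (α : ℝ) (e : Fin d → ℝ) :
    shift x α (-e) = shift x (-α) e := by
  funext i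
  simp [shift]

lemma IntLike.neg {e : Fin d → ℝ} (h : IntLike e) : IntLike (-e) := by
  intro i hi
  have : e i ≠ 0 := by simpa using hi
  simpa using h i this

/-- Solving the level equation in general, with sign information on the displacement. -/
lemma fiber_solve {x e : Fin d → ℝ} (hx : Pos x) (he : e ≠ 0) (hi : IntLike e) (c : ℝ) :
    ∃ α, Pos (shift x α e) ∧ lev e (shift x α e) = c ∧
      (lev e x ≤ c → 0 ≤ α) ∧ (c ≤ lev e x → α ≤ 0) := by
  rcases lt_trichotomy (lev e x) c with h | h | h
  · obtain ⟨α, hα, hpos, hl⟩ := solve_up hx he hi h.le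
    exact ⟨α, hpos, hl, fun _ => hα, fun h' => absurd h' (not_le.mpr h)⟩
  · refine ⟨0, ?_, ?_, fun _ => le_rfl, fun _ => le_rfl⟩
    · have h0 : shift x 0 e = x := by
        funext i
        simp [shift]
      rw [h0]
      exact hx
    · have h0 : shift x 0 e = x := by
        funext i
        simp [shift]
      rw [h0]
      exact h
  · have hne : -e ≠ 0 := neg_ne_zero.mpr he
    have hl : lev (-e) x ≤ -c := by
      rw [lev_neg]
      linarith
    obtain ⟨β, hβ, hpos, hlev⟩ := solve_up hx hne hi.neg hl
    rw [shift_neg] at hpos hlev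
    rw [lev_neg] at hlev
    refine ⟨-β, hpos, by linarith, fun h' => absurd h' (not_le.mpr h), fun _ => by linarith⟩

/-- Termwise sign of the level change along a fibre. -/
lemma term_nonneg_of_nonneg {x e : Fin d → ℝ} (hx : Pos x) {α : ℝ} (hα : 0 ≤ α)
    (hz : Pos (shift x α e)) (i : Fin d) :
    0 ≤ e i * (Real.log (shift x α e i) - Real.log (x i)) := by
  rcases lt_trichotomy (e i) 0 with h | h | h
  · have h1 : shift x α e i ≤ x i := by
      unfold shift
      nlinarith
    have h2 := Real.log_le_log (hz i) h1
    nlinarith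
  · simp [h]
  · have h1 : x i ≤ shift x α e i := by
      unfold shift
      nlinarith
    have h2 := Real.log_le_log (hx i) h1
    nlinarith

lemma term_nonpos_of_nonpos {x e : Fin d → ℝ} (hx : Pos x) {α : ℝ} (hα : α ≤ 0)
    (hz : Pos (shift x α e)) (i : Fin d) :
    e i * (Real.log (shift x α e i) - Real.log (x i)) ≤ 0 := by
  rcases lt_trichotomy (e i) 0 with h | h | h
  · have h1 : x i ≤ shift x α e i := by
      unfold shift
      nlinarith
    have h2 := Real.log_le_log (hx i) h1
    nlinarith
  · simp [h]
  · have h1 : shift x α e i ≤ x i := by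
      unfold shift
      nlinarith
    have h2 := Real.log_le_log (hz i) h1
    nlinarith

lemma sum_term_eq (e x z : Fin d → ℝ) :
    ∑ i, e i * (Real.log (z i) - Real.log (x i)) = lev e z - lev e x := by
  unfold lev dot lg
  rw [← Finset.sum_sub_distrib]
  apply Finset.sum_congr rfl
  intro i _
  ring

/-- Coordinatewise bound on the logarithmic displacement along a fibre. -/
lemma abs_log_shift_le {x e : Fin d → ℝ} (hx : Pos x) (hi : IntLike e) {α : ℝ}
    (hz : Pos (shift x α e)) (i : Fin d) :
    |Real.log (shift x α e i) - Real.log (x i)| ≤ |lev e (shift x α e) - lev e x| := by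
  by_cases hei : e i = 0
  · have : shift x α e i = x i := by simp [shift, hei]
    rw [this]
    simp
  · have h1 := hi i hei
    have hsum := sum_term_eq e x (shift x α e)
    have key : |e i * (Real.log (shift x α e i) - Real.log (x i))|
        ≤ |lev e (shift x α e) - lev e x| := by
      rcases le_total 0 α with hα | hα
      · have hnn := fun j (_ : j ∈ Finset.univ) => term_nonneg_of_nonneg hx hα hz j
        have := Finset.single_le_sum hnn (Finset.mem_univ i)
        rw [abs_of_nonneg (term_nonneg_of_nonneg hx hα hz i)]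
        rw [hsum] at this
        exact le_trans this (le_abs_self _)
      · have hnn : ∀ j ∈ Finset.univ, 0 ≤ -(e j * (Real.log (shift x α e j) - Real.log (x j))) :=
          fun j _ => neg_nonneg.mpr (term_nonpos_of_nonpos hx hα hz j)
        have := Finset.single_le_sum hnn (Finset.mem_univ i)
        rw [Finset.sum_neg_distrib, hsum] at this
        rw [abs_of_nonpos (term_nonpos_of_nonpos hx hα hz i)]
        exact le_trans this (neg_le_abs _)
    rw [abs_mul] at key
    have h2 := abs_nonneg (Real.log (shift x α e i) - Real.log (x i))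
    nlinarith

end Vale.Agent.Lib.P072
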