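import Vale.Agent.Lib.P072.Attractor

/-!
Global existence and uniqueness of solutions for constant rates.
-/

namespace Vale.Agent.Lib.P072

open Finset Filter Topology Metric
open scoped NNReal

variable {d : ℕ}

lemma massAction_contDiff (R : Finset (Reaction d)) (k : Reaction d → ℝ) :
    ContDiff ℝ 1 (massAction R k) := by
  unfold massAction
  apply contDiff_pi.mpr
  intro i
  apply ContDiff.sum
  intro r _
  apply ContDiff.mul _ contDiff_const
  apply ContDiff.mul contDiff_const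
  apply contDiff_prod
  intro j _
  exact (contDiff_apply ℝ ℝ j).pow _

/-- Uniqueness of solutions on a closed interval with right derivatives. -/
lemma unique_Icc {F : (Fin d → ℝ) → (Fin d → ℝ)} (hF : ContDiff ℝ 1 F)
    {x z : ℝ → Fin d → ℝ} {T : ℝ}
    (hx : ContinuousOn x (Set.Icc 0 T)) (hz : ContinuousOn z (Set.Icc 0 T))
    (hx' : ∀ t ∈ Set.Ico 0 T, HasDerivWithinAt x (F (x t)) (Set.Ici t) t)
    (hz' : ∀ t ∈ Set.Ico 0 T, HasDerivWithinAt z (F (z t)) (Set.Ici t) t)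
    (h0 : x 0 = z 0) : Set.EqOn x z (Set.Icc 0 T) := by
  have hc1 := isCompact_Icc.image_of_continuousOn hx
  have hc2 := isCompact_Icc.image_of_continuousOn hz
  obtain ⟨ρ, hρ⟩ := (hc1.union hc2).isBounded.subset_closedBall (0 : Fin d → ℝ)
  obtain ⟨K, hK⟩ := (hF.locallyLipschitz.locallyLipschitzOn (s := closedBall (0 : Fin d → ℝ) ρ)
    ).exists_lipschitzOnWith_of_compact (isCompact_closedBall _ _)
  apply ODE_solution_unique_of_mem_Icc_right (v := fun _ => F)
    (s := fun _ => closedBall (0 : Fin d → ℝ) ρ) (K := K) (fun _ _ => hK) hx hx' ?_ hz hz' ?_ h0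
  · intro t ht
    exact hρ (Or.inl ⟨t, ⟨ht.1, ht.2.le⟩, rfl⟩)
  · intro t ht
    exact hρ (Or.inr ⟨t, ⟨ht.1, ht.2.le⟩, rfl⟩)

/-- A continuous solution has the right derivative at the initial time. -/
lemma right_deriv_zero {F : (Fin d → ℝ) → (Fin d → ℝ)} (hF : Continuous F)
    {z : ℝ → Fin d → ℝ} {T : ℝ} (hT : 0 < T) (hz : ContinuousOn z (Set.Ico 0 T))
    (hz' : ∀ t ∈ Set.Ioo 0 T, HasDerivAt z (F (z t)) t) :
    HasDerivWithinAt z (F (z 0)) (Set.Ici 0) 0 := by
  have hmem : Set.Ioo 0 T ∈ 𝓝[>] (0 : ℝ) := Ioo_mem_nhdsGT hT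
  apply hasDerivWithinAt_Ici_of_tendsto_deriv (s := Set.Ioo 0 T)
    (fun t ht => (hz' t ht).differentiableAt.differentiableWithinAt)
    ((hz 0 ⟨le_rfl, hT⟩).mono Set.Ioo_subset_Ico_self) hmem
  have h1 : Tendsto z (𝓝[>] 0) (𝓝 (z 0)) := by
    have h2 : ContinuousWithinAt z (Set.Ioo 0 T) 0 :=
      (hz 0 ⟨le_rfl, hT⟩).mono Set.Ioo_subset_Ico_self
    have h3 := h2.tendsto
    rwa [nhdsWithin_Ioo_eq_nhdsGT hT] at h3
  have h4 : Tendsto (fun t => F (z t)) (𝓝[>] 0) (𝓝 (F (z 0))) :=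
    hF.continuousAt.tendsto.comp h1
  apply h4.congr'
  filter_upwards [hmem] with t ht
  exact (hz' t ht).deriv.symm

/-- Uniqueness in the form used for arbitrary solutions. -/
lemma unique_Ico {F : (Fin d → ℝ) → (Fin d → ℝ)} (hF : ContDiff ℝ 1 F)
    {x z : ℝ → Fin d → ℝ} {T : ℝ}
    (hx : ContinuousOn x (Set.Ico 0 T)) (hz : ContinuousOn z (Set.Ico 0 T))
    (hx' : ∀ t ∈ Set.Ioo 0 T, HasDerivAt x (F (x t)) t)
    (hz' : ∀ t ∈ Set.Ioo 0 T, HasDerivAt z (F (z t)) t)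
    (h0 : x 0 = z 0) {t : ℝ} (ht : t ∈ Set.Ico 0 T) : x t = z t := by
  have hT : 0 < T := lt_of_le_of_lt ht.1 ht.2
  have hsub : Set.Icc 0 t ⊆ Set.Ico 0 T := fun s hs => ⟨hs.1, lt_of_le_of_lt hs.2 ht.2⟩
  have hr : ∀ {y : ℝ → Fin d → ℝ}, ContinuousOn y (Set.Ico 0 T) →
      (∀ s ∈ Set.Ioo 0 T, HasDerivAt y (F (y s)) s) →
      ∀ s ∈ Set.Ico 0 t, HasDerivWithinAt y (F (y s)) (Set.Ici s) s := by
    intro y hy hy' s hs
    rcases eq_or_lt_of_le hs.1 with h | h
    · rw [← h]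
      exact right_deriv_zero hF.continuous hT hy hy'
    · exact (hy' s ⟨h, lt_trans hs.2 ht.2⟩).hasDerivWithinAt
  exact unique_Icc hF (hx.mono hsub) (hz.mono hsub) (hr hx hx') (hr hz hz') h0 ⟨ht.1, le_rfl⟩

/-- A uniform local existence step on a box away from the boundary. -/
lemma local_step {F : (Fin d → ℝ) → (Fin d → ℝ)} (hF : ContDiff ℝ 1 F) {r M : ℝ} (hr : 0 < r) :
    ∃ τ : ℝ, 0 < τ ∧ ∀ (x₁ : Fin d → ℝ) (T : ℝ), (∀ i, r ≤ x₁ i) → (∀ i, x₁ i ≤ M) →
      ∃ α : ℝ → Fin d → ℝ, α T = x₁ ∧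
        (∀ t ∈ Set.Icc T (T + τ), HasDerivWithinAt α (F (α t)) (Set.Icc T (T + τ)) t) ∧
        ∀ t ∈ Set.Icc T (T + τ), Pos (α t) := by
  set Q : Set (Fin d → ℝ) := Set.Icc (fun _ => r / 2) (fun _ => M + r / 2) with hQ
  have hQc : IsCompact Q := isCompact_Icc
  obtain ⟨K, hK⟩ := (hF.locallyLipschitz.locallyLipschitzOn (s := Q)
    ).exists_lipschitzOnWith_of_compact hQc
  obtain ⟨L₀, hL₀⟩ := hQc.exists_bound_of_continuousOn hF.continuous.continuousOn
  set L : ℝ≥0 := Real.toNNReal L₀ with hL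
  have hLb : ∀ y ∈ Q, ‖F y‖ ≤ L := fun y hy => le_trans (hL₀ y hy) (Real.le_coe_toNNReal _)
  set a : ℝ≥0 := ⟨r / 2, by positivity⟩ with ha
  have hacoe : (a : ℝ) = r / 2 := rfl
  have hLpos : (0 : ℝ) < L + 1 := by positivity
  refine ⟨(r / 2) / (L + 1), by positivity, ?_⟩
  set τ : ℝ := (r / 2) / (L + 1) with hτ
  have hτpos : 0 < τ := by positivity
  intro x₁ T h1 h2
  have hball : closedBall x₁ a ⊆ Q := by
    intro y hy
    rw [mem_closedBall_iff_norm] at hy
    have hyi : ∀ i, |y i - x₁ i| ≤ r / 2 := fun i =>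
      le_trans (norm_le_pi_norm (y - x₁) i) hy
    constructor
    · intro i
      have := abs_le.mp (hyi i)
      have := h1 i
      simp only
      linarith [(abs_le.mp (hyi i)).1]
    · intro i
      have := h2 i
      simp only
      linarith [(abs_le.mp (hyi i)).2]
  have hLτ : (L : ℝ) * τ ≤ r / 2 := by
    have h3 : (L + 1 : ℝ) * τ = r / 2 := by
      rw [hτ]
      field_simp
    have : (0 : ℝ) ≤ τ := hτpos.le
    nlinarith
  have ht₀ : T ∈ Set.Icc T (T + τ) := ⟨le_rfl, by linarith⟩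
  have hPL : IsPicardLindelof (fun _ => F) (tmin := T) (tmax := T + τ) ⟨T, ht₀⟩ x₁ a 0 L K := by
    apply IsPicardLindelof.of_time_independent
    · intro y hy
      exact hLb y (hball hy)
    · exact hK.mono hball
    · simp only [NNReal.coe_zero, sub_zero, add_sub_cancel_left, sub_self]
      rw [max_eq_left hτpos.le]
      exact hLτ
  obtain ⟨α, hα0, hα⟩ := hPL.exists_eq_forall_mem_Icc_hasDerivWithinAt₀
  simp only at hα0
  -- the solution stays in the ball
  have hstay : ∀ t ∈ Set.Icc T (T + τ), ‖α t - x₁‖ ≤ (L + 1) * (t - T) := by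
    have hcont : ContinuousOn (fun t => α t - x₁) (Set.Icc T (T + τ)) :=
      (fun t ht => (hα t ht).continuousWithinAt.sub continuousWithinAt_const)
    refine image_norm_le_of_norm_deriv_right_lt_deriv_boundary' (f := fun t => α t - x₁)
      (f' := fun t => F (α t)) (B := fun t => (L + 1) * (t - T)) (B' := fun _ => (L + 1 : ℝ))
      hcont ?_ ?_ ?_ ?_ ?_
    · intro t ht
      have h3 := (hα t ⟨ht.1, ht.2.le⟩).sub_const x₁
      exact h3.mono_of_mem_nhdsWithin (Icc_mem_nhdsGE_of_mem ht)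
    · simp [hα0]
    · fun_prop
    · intro t _
      have h3 : HasDerivAt (fun t => ((L : ℝ) + 1) * (t - T)) ((L + 1 : ℝ) * 1) t :=
        ((hasDerivAt_id t).sub_const T).const_mul _
      rw [mul_one] at h3
      exact h3.hasDerivWithinAt
    · intro t ht heq
      have hmem : α t ∈ closedBall x₁ a := by
        rw [mem_closedBall_iff_norm, hacoe]
        rw [heq]
        have h4 : t - T ≤ τ := by linarith [ht.2]
        calc ((L : ℝ) + 1) * (t - T) ≤ (L + 1) * τ := mul_le_mul_of_nonneg_left h4 hLpos.le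
          _ = r / 2 := by
              rw [hτ]
              field_simp
      have := hLb _ (hball hmem)
      linarith
  refine ⟨α, hα0, hα, ?_⟩
  intro t ht i
  have hmem : α t ∈ closedBall x₁ a := by
    rw [mem_closedBall_iff_norm, hacoe]
    refine le_trans (hstay t ht) ?_
    have h4 : t - T ≤ τ := by linarith [ht.2]
    calc ((L : ℝ) + 1) * (t - T) ≤ (L + 1) * τ := mul_le_mul_of_nonneg_left h4 hLpos.le
      _ = r / 2 := by
          rw [hτ]
          field_simp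
  have := (hball hmem).1 i
  simp only at this
  linarith

/-- Gluing two pieces of solutions. -/
lemma glue {F : (Fin d → ℝ) → (Fin d → ℝ)} {y α : ℝ → Fin d → ℝ} {T τ : ℝ} (hT : 0 ≤ T)
    (hτ : 0 ≤ τ) (hαT : α T = y T)
    (hy : ∀ t ∈ Set.Icc 0 T, HasDerivWithinAt y (F (y t)) (Set.Icc 0 T) t)
    (hα : ∀ t ∈ Set.Icc T (T + τ), HasDerivWithinAt α (F (α t)) (Set.Icc T (T + τ)) t) :
    ∃ y' : ℝ → Fin d → ℝ, (∀ t, t ≤ T → y' t = y t) ∧ (∀ t, T ≤ t → y' t = α t) ∧
      ∀ t ∈ Set.Icc 0 (T + τ), HasDerivWithinAt y' (F (y' t)) (Set.Icc 0 (T + τ)) t := by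
  classical
  refine ⟨fun t => if t ≤ T then y t else α t, ?_, ?_, ?_⟩
  · intro t ht
    simp [ht]
  · intro t ht
    by_cases h : t ≤ T
    · have : t = T := le_antisymm h ht
      simp [this, hαT]
    · simp [h]
  intro t ht
  set y' : ℝ → Fin d → ℝ := fun t => if t ≤ T then y t else α t with hy'
  have hleft : ∀ s, s ≤ T → y' s = y s := by
    intro s hs
    simp [hy', hs]
  have hright : ∀ s, T ≤ s → y' s = α s := by
    intro s hs
    by_cases h : s ≤ T
    · have : s = T := le_antisymm h hs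
      simp [hy', this, hαT]
    · simp [hy', h]
  have hunion : Set.Icc 0 (T + τ) = Set.Icc 0 T ∪ Set.Icc T (T + τ) :=
    (Set.Icc_union_Icc_eq_Icc hT (by linarith)).symm
  rw [hunion]
  apply HasDerivWithinAt.union
  · by_cases htT : t ≤ T
    · have h1 := hy t ⟨ht.1, htT⟩
      rw [← hleft t htT] at h1
      apply h1.congr
      · intro s hs
        exact hleft s hs.2
      · exact hleft t htT
    · apply HasFDerivWithinAt.of_notMem_closure
      rw [isClosed_Icc.closure_eq]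
      intro h
      exact htT h.2
  · by_cases htT : T ≤ t
    · have h1 := hα t ⟨htT, ht.2⟩
      rw [← hright t htT] at h1
      apply h1.congr
      · intro s hs
        exact hright s hs.1
      · exact hright t htT
    · apply HasFDerivWithinAt.of_notMem_closure
      rw [isClosed_Icc.closure_eq]
      intro h
      exact htT h.1

/-- Rates in a finite set of positive numbers are bounded away from zero and infinity. -/
lemma exists_eps {R : Finset (Reaction d)} {k : Reaction d → ℝ} (hk : ∀ r ∈ R, 0 < k r) :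
    ∃ ε : ℝ, 0 < ε ∧ ∀ r ∈ R, ε ≤ k r ∧ k r ≤ ε⁻¹ := by
  set S' : ℝ := ∑ r ∈ R, (k r + (k r)⁻¹) with hS
  have hterm : ∀ r ∈ R, 0 ≤ k r + (k r)⁻¹ := by
    intro r hr
    have := hk r hr
    positivity
  have hSnn : 0 ≤ S' := Finset.sum_nonneg hterm
  refine ⟨(1 + S')⁻¹, by positivity, ?_⟩
  intro r hr
  have hkr := hk r hr
  have hle : k r + (k r)⁻¹ ≤ S' := Finset.single_le_sum hterm hr
  have hinvpos : 0 < (k r)⁻¹ := inv_pos.mpr hkr
  constructor
  · rw [inv_le_comm₀ (by positivity) hkr]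
    linarith
  · rw [inv_inv]
    linarith

/-- The global existence and uniqueness theorem, given the a priori bounds. -/
theorem global_solution {R : Finset (Reaction d)} {k : Reaction d → ℝ}
    {x₀ : Fin d → ℝ} (hx₀ : ∀ i, 0 < x₀ i) {M r : ℝ} (hr : 0 < r)
    (hM : ∀ i, x₀ i ≤ M) (hrx : ∀ i, r ≤ x₀ i)
    (Hbound : ∀ (T : ℝ) (y : ℝ → Fin d → ℝ), y 0 = x₀ → ContinuousOn y (Set.Ico 0 T) →
      (∀ t ∈ Set.Ico 0 T, ∀ i, 0 < y t i) →
      (∀ t ∈ Set.Ioo 0 T, HasDerivAt y (massAction R k (y t)) t) →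
      ∀ t ∈ Set.Ico 0 T, (∀ i, y t i ≤ M) ∧ ∀ i, r ≤ y t i) :
    ∃ x : ℝ → Fin d → ℝ, x 0 = x₀ ∧ ContinuousOn x (Set.Ici 0) ∧
      (∀ t, 0 ≤ t → ∀ i, 0 < x t i) ∧
      (∀ t, 0 < t → HasDerivAt x (massAction R k (x t)) t) := by
  classical
  have hF := massAction_contDiff R k
  set F := massAction R k with hFdef
  obtain ⟨τ, hτ, hstep⟩ := local_step (M := M) hF hr
  have key : ∀ n : ℕ, ∃ y : ℝ → Fin d → ℝ, y 0 = x₀ ∧
      (∀ t ∈ Set.Icc 0 (((n : ℝ) + 1) * τ), Pos (y t)) ∧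
      ∀ t ∈ Set.Icc 0 (((n : ℝ) + 1) * τ),
        HasDerivWithinAt y (F (y t)) (Set.Icc 0 (((n : ℝ) + 1) * τ)) t := by
    intro n
    induction n with
    | zero =>
      obtain ⟨α, h0, h1, h2⟩ := hstep x₀ 0 hrx hM
      have hI : Set.Icc (0 : ℝ) (0 + τ) = Set.Icc 0 ((((0 : ℕ) : ℝ) + 1) * τ) := by
        simp
      rw [hI] at h1 h2
      exact ⟨α, h0, h2, h1⟩
    | succ n ih =>
      obtain ⟨y, hy0, hyp, hyd⟩ := ih
      set T : ℝ := ((n : ℝ) + 1) * τ with hT
      have hT0 : 0 < T := by positivity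
      have hTm : T ∈ Set.Icc 0 T := ⟨hT0.le, le_rfl⟩
      have hyc : ContinuousOn y (Set.Icc 0 T) := fun t ht => (hyd t ht).continuousWithinAt
      have hbd := Hbound T y hy0 (hyc.mono Set.Ico_subset_Icc_self)
        (fun t ht => hyp t ⟨ht.1, ht.2.le⟩)
        (fun t ht => (hyd t ⟨ht.1.le, ht.2.le⟩).hasDerivAt (Icc_mem_nhds ht.1 ht.2))
      have hlim : ∀ i, y T i ≤ M ∧ r ≤ y T i := by
        intro i
        have hcw : ContinuousWithinAt (fun s => y s i) (Set.Ico 0 T) T :=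
          ((continuous_apply i).comp_continuousOn hyc T hTm).mono Set.Ico_subset_Icc_self
        have htend := hcw.tendsto
        rw [nhdsWithin_Ico_eq_nhdsLT hT0] at htend
        have hev : ∀ᶠ s in 𝓝[<] T, s ∈ Set.Ico 0 T := Ico_mem_nhdsLT hT0
        constructor
        · apply le_of_tendsto htend
          filter_upwards [hev] with s hs
          exact (hbd s hs).1 i
        · apply ge_of_tendsto htend
          filter_upwards [hev] with s hs
          exact (hbd s hs).2 i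
      obtain ⟨α, hαT, hαd, hαp⟩ := hstep (y T) T (fun i => (hlim i).2) (fun i => (hlim i).1)
      obtain ⟨y', hl, hr', hd⟩ := glue hT0.le hτ.le hαT hyd hαd
      have hnew : (((n + 1 : ℕ) : ℝ) + 1) * τ = T + τ := by
        rw [hT]
        push_cast
        ring
      rw [hnew]
      refine ⟨y', ?_, ?_, hd⟩
      · rw [hl 0 hT0.le]
        exact hy0
      · intro t ht
        by_cases htT : t ≤ T
        · rw [hl t htT]
          exact hyp t ⟨ht.1, htT⟩
        · push Not at htT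
          rw [hr' t htT.le]
          exact hαp t ⟨htT.le, ht.2⟩
  choose y hy0 hyp hyd using key
  -- consistency of the pieces
  have hmem : ∀ n : ℕ, ∀ s, 0 ≤ s → s ≤ ((n : ℝ) + 1) * τ → s ∈ Set.Icc 0 (((n : ℝ) + 1) * τ) :=
    fun n s h1 h2 => ⟨h1, h2⟩
  have hagree : ∀ (n m : ℕ) (s : ℝ), 0 ≤ s → s ≤ ((n : ℝ) + 1) * τ → s ≤ ((m : ℝ) + 1) * τ →
      y n s = y m s := by
    intro n m s hs hn hm
    have hsubn : Set.Icc 0 s ⊆ Set.Icc 0 (((n : ℝ) + 1) * τ) :=
      Set.Icc_subset_Icc_right hn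
    have hsubm : Set.Icc 0 s ⊆ Set.Icc 0 (((m : ℝ) + 1) * τ) :=
      Set.Icc_subset_Icc_right hm
    have hr : ∀ l : ℕ, s ≤ ((l : ℝ) + 1) * τ → ∀ t ∈ Set.Ico 0 s,
        HasDerivWithinAt (y l) (F (y l t)) (Set.Ici t) t := by
      intro l hl t ht
      have h1 := hyd l t ⟨ht.1, le_trans ht.2.le hl⟩
      exact h1.mono_of_mem_nhdsWithin (Icc_mem_nhdsGE_of_mem ⟨ht.1, lt_of_lt_of_le ht.2 hl⟩)
    exact unique_Icc hF
      (fun t ht => ((hyd n t (hsubn ht)).continuousWithinAt).mono hsubn)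
      (fun t ht => ((hyd m t (hsubm ht)).continuousWithinAt).mono hsubm)
      (hr n hn) (hr m hm) (by rw [hy0, hy0]) ⟨hs, le_rfl⟩
  -- the index of a time
  set N : ℝ → ℕ := fun t => ⌈t / τ⌉₊ with hN
  have hNle : ∀ t, t ≤ (N t : ℝ) * τ := by
    intro t
    have := Nat.le_ceil (t / τ)
    rwa [div_le_iff₀ hτ] at this
  have hNlt : ∀ t, t < ((N t : ℝ) + 1) * τ := by
    intro t
    have h1 := hNle t
    nlinarith
  set x : ℝ → Fin d → ℝ := fun t => y (N t) t with hx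
  have hxy : ∀ (n : ℕ) (s : ℝ), 0 ≤ s → s ≤ ((n : ℝ) + 1) * τ → x s = y n s := by
    intro n s hs hn
    exact hagree _ _ s hs (hNlt s).le hn
  refine ⟨x, ?_, ?_, ?_, ?_⟩
  · show y (N 0) 0 = x₀
    exact hy0 _
  · intro t ht
    have ht0 : (0 : ℝ) ≤ t := ht
    have hc1 : ContinuousWithinAt (y (N t)) (Set.Icc 0 (((N t : ℝ) + 1) * τ)) t :=
      (hyd (N t) t ⟨ht0, (hNlt t).le⟩).continuousWithinAt
    have hnhds : Set.Icc 0 (((N t : ℝ) + 1) * τ) ∈ 𝓝[Set.Ici 0] t := by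
      have h1 : Set.Iic (((N t : ℝ) + 1) * τ) ∈ 𝓝 t := Iic_mem_nhds (hNlt t)
      have h2 : Set.Icc 0 (((N t : ℝ) + 1) * τ) = Set.Ici 0 ∩ Set.Iic (((N t : ℝ) + 1) * τ) := by
        ext s
        simp [Set.mem_Icc]
      rw [h2]
      exact inter_mem self_mem_nhdsWithin (mem_nhdsWithin_of_mem_nhds h1)
    have hc2 : ContinuousWithinAt (y (N t)) (Set.Ici 0) t := hc1.mono_of_mem_nhdsWithin hnhds
    apply hc2.congr_of_eventuallyEq
    · filter_upwards [hnhds] with s hs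
      exact hxy (N t) s hs.1 hs.2
    · exact hxy (N t) t ht0 (hNlt t).le
  · intro t ht i
    exact hyp (N t) t ⟨ht, (hNlt t).le⟩ i
  · intro t ht
    have hIcc : Set.Icc 0 (((N t : ℝ) + 1) * τ) ∈ 𝓝 t := Icc_mem_nhds ht (hNlt t)
    have h1 := (hyd (N t) t ⟨ht.le, (hNlt t).le⟩).hasDerivAt hIcc
    have hxt : x t = y (N t) t := hxy (N t) t ht.le (hNlt t).le
    rw [hxt]
    apply h1.congr_of_eventuallyEq
    filter_upwards [hIcc] with s hs
    exact hxy (N t) s hs.1 hs.2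

end Vale.Agent.Lib.P072
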