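import Vale.Agent.Lib.P072.Static
import Vale.Agent.Lib.P072.Global

/-!
Boundedness, persistence and permanence for all weakly reversible mass-action systems, from the
static theorem.
-/

namespace Vale.Agent.Lib.P072

open Finset Filter Topology

variable {d : ℕ}

/-- A function with a subgradient at every positive point is convex there. -/
lemma convexOn_of_subgrad {W : (Fin d → ℝ) → ℝ}
    (h : ∀ x, Pos x → ∃ m : Fin d → ℝ, ∀ x', Pos x' → W x - W x' ≤ dot m x - dot m x') :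
    ConvexOn ℝ posSet W := by
  refine ⟨convex_posSet, ?_⟩
  intro x hx y hy a b ha hb hab
  have hz : Pos (a • x + b • y) := convex_posSet hx hy ha hb hab
  obtain ⟨m, hm⟩ := h _ hz
  have h1 := hm x hx
  have h2 := hm y hy
  have h3 : dot m (a • x + b • y) = a * dot m x + b * dot m y := by
    unfold dot
    rw [Finset.mul_sum, Finset.mul_sum, ← Finset.sum_add_distrib]
    apply Finset.sum_congr rfl
    intro i _
    simp only [Pi.add_apply, Pi.smul_apply, smul_eq_mul]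
    ring
  have h4 := mul_le_mul_of_nonneg_left h1 ha
  have h5 := mul_le_mul_of_nonneg_left h2 hb
  simp only [smul_eq_mul]
  have hb' : b = 1 - a := by linarith
  rw [h3] at h4 h5
  subst hb'
  nlinarith

lemma continuousOn_of_subgrad {W : (Fin d → ℝ) → ℝ}
    (h : ∀ x, Pos x → ∃ m : Fin d → ℝ, ∀ x', Pos x' → W x - W x' ≤ dot m x - dot m x') :
    ContinuousOn W posSet :=
  (convexOn_of_subgrad h).continuousOn isOpen_posSet

/-- The rule extracted from the trichotomy. -/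
lemma rule_of_tri {a b K : ℝ} (hK : 0 ≤ K)
    (h : a = 0 ∨ (K ≤ a ∧ K ≤ b) ∨ a ≤ -K) : 0 < a → K ≤ b := by
  intro ha
  rcases h with h | ⟨_, h⟩ | h
  · linarith
  · exact h
  · linarith

/-- Monotonicity of the static function along a solution. -/
lemma static_mono {R : Finset (Reaction d)} (hWR : WeaklyReversible R) {ε : ℝ} (hε : 0 < ε)
    {W : (Fin d → ℝ) → ℝ} {Dev K : ℝ} (hK0 : 0 ≤ K) (hKexp : (R.card : ℝ) / ε ^ 2 ≤ Real.exp K)
    (hW : ∀ x, Pos x → ∃ m : Fin d → ℝ,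
        (∀ x', Pos x' → W x - W x' ≤ dot m x - dot m x') ∧
        (∀ i, |m i - Real.log (x i)| ≤ Dev) ∧
        ∀ e ∈ diffs R, dot e m = 0 ∨ (K ≤ dot e m ∧ K ≤ lev e x) ∨ dot e m ≤ -K)
    {T : ℝ} {k : ℝ → Reaction d → ℝ} {x : ℝ → Fin d → ℝ}
    (hk : ∀ t, ∀ r ∈ R, ε ≤ k t r ∧ k t r ≤ ε⁻¹)
    (hcont : ContinuousOn x (Set.Ico 0 T))
    (hpos : ∀ t ∈ Set.Ico 0 T, ∀ i, 0 < x t i)
    (hderiv : ∀ t ∈ Set.Ioo 0 T, HasDerivAt x (massAction R (k t) (x t)) t)
    {a b : ℝ} (ha : 0 ≤ a) (hab : a ≤ b) (hb : b < T) : W (x b) ≤ W (x a) := by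
  have hsub : Set.Icc a b ⊆ Set.Ico 0 T := fun s hs =>
    ⟨le_trans ha hs.1, lt_of_le_of_lt hs.2 hb⟩
  have hcW : ContinuousOn W posSet := continuousOn_of_subgrad fun x hx => by
    obtain ⟨m, hm, _⟩ := hW x hx
    exact ⟨m, hm⟩
  have hg : ContinuousOn (fun s => W (x s)) (Set.Icc a b) :=
    hcW.comp (hcont.mono hsub) (fun s hs => hpos s (hsub hs))
  apply monotone_lemma hab (fun s => W (x s)) x hg
  intro s hs
  have hsI : s ∈ Set.Icc a b := ⟨hs.1.le, hs.2⟩
  have hs0 : 0 < s := lt_of_le_of_lt ha hs.1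
  have hsT := hsub hsI
  obtain ⟨m, hm, _, htri⟩ := hW _ (hpos s hsT)
  refine ⟨m, massAction R (k s) (x s), ?_, hderiv s ⟨hs0, hsT.2⟩, ?_⟩
  · intro τ hτ
    exact hm _ (hpos τ (hsub hτ))
  · exact drift_nonpos hWR hε (hk s) (hpos s hsT) hKexp
      (fun e he => rule_of_tri hK0 (htri e he))

/-- The bound on the mass, uniform over initial data of bounded mass. -/
theorem mass_bound_general {R : Finset (Reaction d)} (hWR : WeaklyReversible R) {ε : ℝ}
    (hε : 0 < ε) (ρ : ℝ) :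
    ∃ C : ℝ, ∀ (T : ℝ) (k : ℝ → Reaction d → ℝ) (x : ℝ → Fin d → ℝ),
      (∀ t, ∀ r ∈ R, ε ≤ k t r ∧ k t r ≤ ε⁻¹) →
      ∑ i, x 0 i ≤ ρ →
      ContinuousOn x (Set.Ico 0 T) →
      (∀ t ∈ Set.Ico 0 T, ∀ i, 0 < x t i) →
      (∀ t ∈ Set.Ioo 0 T, HasDerivAt x (massAction R (k t) (x t)) t) →
      ∀ t ∈ Set.Ico 0 T, ∑ i, x t i ≤ C := by
  classical
  rcases Nat.eq_zero_or_pos d with hd0 | hd
  · subst hd0
    exact ⟨0, fun _ _ _ _ _ _ _ _ _ _ => by simp⟩
  obtain ⟨K, hKdef⟩ : ∃ K : ℝ, K = (R.card : ℝ) / ε ^ 2 := ⟨_, rfl⟩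
  have hK0 : 0 ≤ K := by
    rw [hKdef]
    positivity
  have hKexp : (R.card : ℝ) / ε ^ 2 ≤ Real.exp K := by
    have := Real.add_one_le_exp K
    rw [← hKdef]
    linarith
  obtain ⟨W, C, Dev, hC0, hWV, hW⟩ := static (diffs R) K
  obtain ⟨ρ₁, hρ₁⟩ : ∃ ρ₁ : ℝ, ρ₁ = max ρ 1 := ⟨_, rfl⟩
  have hρ₁1 : 1 ≤ ρ₁ := by rw [hρ₁]; exact le_max_right _ _
  have hρρ₁ : ρ ≤ ρ₁ := by rw [hρ₁]; exact le_max_left _ _
  obtain ⟨R₁, _, hR₁⟩ := exists_threshold hd C (ρ₁ * Real.log ρ₁ + C * ρ₁) hC0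
  refine ⟨R₁, ?_⟩
  intro T k x hk hm0 hcont hpos hderiv t ht
  by_contra hcon
  push Not at hcon
  have h0T : (0 : ℝ) ∈ Set.Ico 0 T := ⟨le_rfl, lt_of_le_of_lt ht.1 ht.2⟩
  have hmono := static_mono hWR hε hK0 hKexp hW hk hcont hpos hderiv le_rfl ht.1 ht.2
  have h1 := abs_le.mp (hWV _ (hpos t ht))
  have h2 := abs_le.mp (hWV _ (hpos 0 h0T))
  have h3 := V_le_of_mass_le (hpos 0 h0T) hρ₁1 (le_trans hm0 hρρ₁)
  have h4 := hR₁ _ hcon
  have hmp : 0 < ∑ i, x t i := by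
    have hne : (Finset.univ : Finset (Fin d)).Nonempty := ⟨⟨0, hd⟩, Finset.mem_univ _⟩
    exact Finset.sum_pos (fun j _ => hpos t ht j) hne
  have h5 := V_ge_mass (hpos t ht) hd hmp
  have h6 : C * ∑ i, x 0 i ≤ C * ρ₁ := mul_le_mul_of_nonneg_left (le_trans hm0 hρρ₁) hC0
  linarith [h1.1, h1.2, h2.1, h2.2]

/-! ### Restriction to a subset of the species -/

/-- The extension by zero along an injection. -/
noncomputable def padz {m : ℕ} (φ : Fin m → Fin d) (a : Fin m → ℝ) : Fin d → ℝ :=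
  Function.extend φ a 0

lemma sum_padz {m : ℕ} {φ : Fin m → Fin d} (hφ : Function.Injective φ) (a : Fin m → ℝ)
    (f : Fin d → ℝ) : ∑ i, f i * padz φ a i = ∑ j, f (φ j) * a j := by
  classical
  have h1 : ∑ j, f (φ j) * a j = ∑ i ∈ Finset.univ.image φ, f i * padz φ a i := by
    rw [Finset.sum_image (fun x _ y _ h => hφ h)]
    apply Finset.sum_congr rfl
    intro j _
    unfold padz
    rw [hφ.extend_apply]
  rw [h1]
  symm
  apply Finset.sum_subset (Finset.subset_univ _)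
  intro i _ hi
  have : ∀ j, φ j ≠ i := by
    intro j hj
    exact hi (Finset.mem_image.mpr ⟨j, Finset.mem_univ _, hj⟩)
  unfold padz
  rw [Function.extend_apply' _ _ _ (by
    rintro ⟨j, hj⟩
    exact this j hj)]
  simp

lemma dot_padz_right {m : ℕ} {φ : Fin m → Fin d} (hφ : Function.Injective φ) (a : Fin m → ℝ)
    (f : Fin d → ℝ) : dot f (padz φ a) = dot (fun j => f (φ j)) a :=
  sum_padz hφ a f

lemma dot_padz_left {m : ℕ} {φ : Fin m → Fin d} (hφ : Function.Injective φ) (a : Fin m → ℝ)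
    (f : Fin d → ℝ) : dot (padz φ a) f = dot a (fun j => f (φ j)) := by
  have h1 := sum_padz hφ a f
  unfold dot
  rw [Finset.sum_congr rfl (fun i _ => mul_comm (padz φ a i) (f i)), h1]
  exact Finset.sum_congr rfl (fun j _ => mul_comm _ _)

/-- The upper barrier. -/
lemma barrier_upper {m : ℕ} {u : Fin m → ℝ} (hu : Pos u) {ρ C : ℝ}
    (hC : Real.log ρ ≤ -C) (hle : ∀ j, u j ≤ ρ) {j₀ : Fin m} (h0 : ρ ≤ u j₀) :
    V u + C * ∑ j, u j ≤ -ρ := by
  have hterm : ∀ j, u j * Real.log (u j) - u j + C * u j ≤ - u j := by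
    intro j
    have h1 := Real.log_le_log (hu j) (hle j)
    have h2 := hu j
    nlinarith
  have hsum : V u + C * ∑ j, u j = ∑ j, (u j * Real.log (u j) - u j + C * u j) := by
    unfold V
    rw [Finset.mul_sum, ← Finset.sum_add_distrib]
  rw [hsum, ← Finset.add_sum_erase _ _ (Finset.mem_univ j₀)]
  have h3 : ∑ j ∈ Finset.univ.erase j₀, (u j * Real.log (u j) - u j + C * u j) ≤ 0 := by
    apply Finset.sum_nonpos
    intro j _
    linarith [hterm j, hu j]
  linarith [hterm j₀]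

/-- The lower barrier. -/
lemma barrier_lower {m : ℕ} {v : Fin m → ℝ} (hv : Pos v) {s C : ℝ} (hs : 0 < s) (hs1 : s ≤ 1)
    (hC : 0 ≤ C) (hle : ∀ j, v j ≤ s ^ 2) :
    -((m : ℝ) * ((2 + C) * s)) ≤ V v - C * ∑ j, v j := by
  have hterm : ∀ j, -((2 + C) * s) ≤ v j * Real.log (v j) - v j - C * v j := by
    intro j
    have h1 := f_lower (hv j) (hle j) hs hs1
    have h2 : v j ≤ s := le_trans (hle j) (by nlinarith)
    have h3 : C * v j ≤ C * s := mul_le_mul_of_nonneg_left h2 hC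
    nlinarith
  have hsum : V v - C * ∑ j, v j = ∑ j, (v j * Real.log (v j) - v j - C * v j) := by
    unfold V
    rw [Finset.mul_sum, ← Finset.sum_sub_distrib]
  rw [hsum]
  have h4 : ∑ _j : Fin m, (-((2 + C) * s)) ≤ ∑ j, (v j * Real.log (v j) - v j - C * v j) :=
    Finset.sum_le_sum fun j _ => hterm j
  simpa using h4

/-- Splitting the level along `e`. -/
lemma lev_split_emb {m : ℕ} {φ : Fin m → Fin d} (hφ : Function.Injective φ)
    {I : Finset (Fin d)} (hI : Finset.image φ Finset.univ = I) (e x : Fin d → ℝ) :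
    lev e x = lev (fun j => e (φ j)) (fun j => x (φ j)) + ∑ i ∈ Iᶜ, e i * Real.log (x i) := by
  classical
  unfold lev dot lg
  rw [← Finset.sum_add_sum_compl I (fun i => e i * Real.log (x i))]
  congr 1
  rw [← hI, Finset.sum_image (fun a _ b _ h => hφ h)]

/-- Monotonicity of a static function of a subset of the species, along a solution. -/
lemma restricted_mono {R : Finset (Reaction d)} (hWR : WeaklyReversible R) {ε : ℝ} (hε : 0 < ε)
    {T : ℝ} {k : ℝ → Reaction d → ℝ} {x : ℝ → Fin d → ℝ}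
    (hk : ∀ t, ∀ r ∈ R, ε ≤ k t r ∧ k t r ≤ ε⁻¹)
    (hcont : ContinuousOn x (Set.Ico 0 T))
    (hpos : ∀ t ∈ Set.Ico 0 T, ∀ i, 0 < x t i)
    (hderiv : ∀ t ∈ Set.Ioo 0 T, HasDerivAt x (massAction R (k t) (x t)) t)
    {m : ℕ} {φ : Fin m → Fin d} (hφ : Function.Injective φ)
    {W : (Fin m → ℝ) → ℝ} {Dev K K' : ℝ} {E : Finset (Fin m → ℝ)} (hK' : 0 ≤ K')
    (hKexp : (R.card : ℝ) / ε ^ 2 ≤ Real.exp K)
    (hE : ∀ e ∈ diffs R, (fun j => e (φ j)) ∈ E)
    (hW : ∀ y, Pos y → ∃ n : Fin m → ℝ,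
        (∀ y', Pos y' → W y - W y' ≤ dot n y - dot n y') ∧
        (∀ i, |n i - Real.log (y i)| ≤ Dev) ∧
        ∀ e ∈ E, dot e n = 0 ∨ (K' ≤ dot e n ∧ K' ≤ lev e y) ∨ dot e n ≤ -K')
    {a b : ℝ} (ha : 0 ≤ a) (hab : a ≤ b) (hb : b < T)
    (Hl : ∀ s ∈ Set.Ioc a b, ∀ e ∈ diffs R,
      K' ≤ lev (fun j => e (φ j)) (fun j => x s (φ j)) → K ≤ lev e (x s)) :
    W (fun j => x b (φ j)) ≤ W (fun j => x a (φ j)) := by
  have hsub : Set.Icc a b ⊆ Set.Ico 0 T := fun s hs =>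
    ⟨le_trans ha hs.1, lt_of_le_of_lt hs.2 hb⟩
  have hcW : ContinuousOn W posSet := continuousOn_of_subgrad fun y hy => by
    obtain ⟨n, hn, _⟩ := hW y hy
    exact ⟨n, hn⟩
  have hPos : ∀ s ∈ Set.Icc a b, Pos (fun j => x s (φ j)) := fun s hs j => hpos s (hsub hs) _
  have hcy : ContinuousOn (fun s => (fun j => x s (φ j) : Fin m → ℝ)) (Set.Icc a b) := by
    apply continuousOn_pi.mpr
    intro j
    exact (continuous_apply (φ j)).comp_continuousOn (hcont.mono hsub)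
  have hg : ContinuousOn (fun s => W (fun j => x s (φ j))) (Set.Icc a b) :=
    hcW.comp hcy hPos
  apply monotone_lemma hab (fun s => W (fun j => x s (φ j))) (fun s j => x s (φ j)) hg
  intro s hs
  have hsI : s ∈ Set.Icc a b := ⟨hs.1.le, hs.2⟩
  have hs0 : 0 < s := lt_of_le_of_lt ha hs.1
  have hsT := hsub hsI
  obtain ⟨n, hn, _, htri⟩ := hW _ (hPos s hsI)
  have hd := hderiv s ⟨hs0, hsT.2⟩
  refine ⟨n, fun j => massAction R (k s) (x s) (φ j), ?_, ?_, ?_⟩
  · intro τ hτ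
    exact hn _ (hPos τ hτ)
  · apply hasDerivAt_pi.mpr
    intro j
    exact (hasDerivAt_pi.mp hd) (φ j)
  · rw [← dot_padz_left hφ]
    apply drift_nonpos hWR hε (hk s) (hpos s hsT) hKexp
    intro e he hposd
    rw [dot_padz_right hφ] at hposd
    exact Hl s hs e he (rule_of_tri hK' (htri _ (hE e he)) hposd)

/-- One step of the induction on the number of small coordinates. -/
lemma lower_step_general {R : Finset (Reaction d)} (hWR : WeaklyReversible R) {ε : ℝ}
    (hε : 0 < ε) (R₁ : ℝ) {r₀ : ℝ} (hr₀ : 0 < r₀) (m : ℕ) (hm : 1 ≤ m)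
    {rp : ℝ} (hrp : 0 < rp)
    (Hm : ∀ (T : ℝ) (k : ℝ → Reaction d → ℝ) (x : ℝ → Fin d → ℝ),
      (∀ t, ∀ r ∈ R, ε ≤ k t r ∧ k t r ≤ ε⁻¹) →
      (∀ i, r₀ ≤ x 0 i) →
      ContinuousOn x (Set.Ico 0 T) →
      (∀ t ∈ Set.Ico 0 T, ∀ i, 0 < x t i) →
      (∀ t ∈ Set.Ioo 0 T, HasDerivAt x (massAction R (k t) (x t)) t) →
      (∀ t ∈ Set.Ico 0 T, ∑ i, x t i ≤ R₁) →
      ∀ t ∈ Set.Ico 0 T, (Finset.univ.filter (fun i => x t i < rp)).card < m + 1) :
    ∃ r : ℝ, 0 < r ∧ ∀ (T : ℝ) (k : ℝ → Reaction d → ℝ) (x : ℝ → Fin d → ℝ),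
      (∀ t, ∀ r ∈ R, ε ≤ k t r ∧ k t r ≤ ε⁻¹) →
      (∀ i, r₀ ≤ x 0 i) →
      ContinuousOn x (Set.Ico 0 T) →
      (∀ t ∈ Set.Ico 0 T, ∀ i, 0 < x t i) →
      (∀ t ∈ Set.Ioo 0 T, HasDerivAt x (massAction R (k t) (x t)) t) →
      (∀ t ∈ Set.Ico 0 T, ∑ i, x t i ≤ R₁) →
      ∀ t ∈ Set.Ico 0 T, (Finset.univ.filter (fun i => x t i < r)).card < m := by
  classical
  obtain ⟨B, hB1, hB⟩ := exists_bound_diffs R
  have hBnn : 0 ≤ B := by linarith
  have hdnn : (0 : ℝ) ≤ d := Nat.cast_nonneg d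
  obtain ⟨L, hLdef⟩ : ∃ L : ℝ, L = |Real.log rp| + |Real.log (max R₁ 1)| := ⟨_, rfl⟩
  have hL0 : 0 ≤ L := by
    rw [hLdef]
    positivity
  obtain ⟨K, hKdef⟩ : ∃ K : ℝ, K = (R.card : ℝ) / ε ^ 2 := ⟨_, rfl⟩
  have hK0 : 0 ≤ K := by
    rw [hKdef]
    positivity
  have hKexp : (R.card : ℝ) / ε ^ 2 ≤ Real.exp K := by
    have := Real.add_one_le_exp K
    rw [← hKdef]
    linarith
  obtain ⟨K', hK'def⟩ : ∃ K' : ℝ, K' = K + d * B * L := ⟨_, rfl⟩
  have hK'0 : 0 ≤ K' := by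
    rw [hK'def]
    positivity
  -- the static functions for all subsets of the species
  let φ : (I : Finset (Fin d)) → Fin I.card → Fin d := fun I => I.orderEmbOfFin rfl
  have hφ : ∀ I, Function.Injective (φ I) := fun I => (I.orderEmbOfFin rfl).injective
  have hφI : ∀ I, Finset.image (φ I) Finset.univ = I := fun I =>
    Finset.image_orderEmbOfFin_univ I rfl
  let redF : (I : Finset (Fin d)) → Finset (Fin I.card → ℝ) := fun I =>
    (diffs R).image (fun e j => e (φ I j))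
  have hredF : ∀ I, ∀ e ∈ diffs R, (fun j => e (φ I j)) ∈ redF I := fun I e he =>
    Finset.mem_image_of_mem (fun e j => e (φ I j)) he
  choose W C Dev hC hWV hW using fun I => static (redF I) K'
  obtain ⟨Cs, hCsdef⟩ : ∃ Cs : ℝ, Cs = ∑ I, C I := ⟨_, rfl⟩
  have hCs : ∀ I, C I ≤ Cs := fun I => by
    rw [hCsdef]
    exact Finset.single_le_sum (f := C) (fun J _ => hC J) (Finset.mem_univ I)
  have hCs0 : 0 ≤ Cs := by
    rw [hCsdef]
    exact Finset.sum_nonneg fun J _ => hC J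
  obtain ⟨ρ', hρ'def⟩ : ∃ ρ' : ℝ, ρ' = min (min r₀ rp) (min 1 (Real.exp (-Cs))) := ⟨_, rfl⟩
  have hρ'pos : 0 < ρ' := by
    rw [hρ'def]
    have := Real.exp_pos (-Cs)
    simp only [lt_min_iff]
    exact ⟨⟨hr₀, hrp⟩, one_pos, this⟩
  have hρ'r₀ : ρ' ≤ r₀ := by
    rw [hρ'def]
    exact le_trans (min_le_left _ _) (min_le_left _ _)
  have hρ'rp : ρ' ≤ rp := by
    rw [hρ'def]
    exact le_trans (min_le_left _ _) (min_le_right _ _)
  have hρ'1 : ρ' ≤ 1 := by
    rw [hρ'def]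
    exact le_trans (min_le_right _ _) (min_le_left _ _)
  have hρ'log : Real.log ρ' ≤ -Cs := by
    have h1 : ρ' ≤ Real.exp (-Cs) := by
      rw [hρ'def]
      exact le_trans (min_le_right _ _) (min_le_right _ _)
    have := Real.log_le_log hρ'pos h1
    rwa [Real.log_exp] at this
  have hdenom : 0 < 2 * ((d : ℝ) * (2 + Cs) + 1) := by positivity
  obtain ⟨s, hsdef⟩ : ∃ s : ℝ, s = min 1 (ρ' / (2 * ((d : ℝ) * (2 + Cs) + 1))) := ⟨_, rfl⟩
  have hspos : 0 < s := by
    rw [hsdef]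
    exact lt_min one_pos (div_pos hρ'pos hdenom)
  have hs1 : s ≤ 1 := by
    rw [hsdef]
    exact min_le_left _ _
  have hsmul : s * (2 * ((d : ℝ) * (2 + Cs) + 1)) ≤ ρ' := by
    have : s ≤ ρ' / (2 * ((d : ℝ) * (2 + Cs) + 1)) := by
      rw [hsdef]
      exact min_le_right _ _
    rwa [le_div_iff₀ hdenom] at this
  have hdC : 0 ≤ (d : ℝ) * (2 + Cs) := by positivity
  have hsρ : (d : ℝ) * ((2 + Cs) * s) < ρ' := by
    have h1 : s * (2 * ((d : ℝ) * (2 + Cs) + 1)) = 2 * ((d : ℝ) * (2 + Cs)) * s + 2 * s := by ring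
    have h2 : (d : ℝ) * ((2 + Cs) * s) = (d : ℝ) * (2 + Cs) * s := by ring
    have h3 : 0 ≤ (d : ℝ) * (2 + Cs) * s := by positivity
    nlinarith
  have hs2 : s ^ 2 ≤ s := by nlinarith
  have hsleρ : s ≤ ρ' := by
    have h1 : 0 ≤ s * (2 * ((d : ℝ) * (2 + Cs))) := by positivity
    nlinarith
  refine ⟨s ^ 2, by positivity, ?_⟩
  intro T k x hk hr0 hcont hpos hderiv hmass t ht
  by_contra hcard
  push Not at hcard
  set I := Finset.univ.filter (fun i => x t i < s ^ 2) with hIdef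
  have hInon : I.Nonempty := Finset.card_pos.mp (by omega)
  have hIt : ∀ i ∈ I, x t i < s ^ 2 := fun i hi => (Finset.mem_filter.mp hi).2
  have h0t : Set.Icc 0 t ⊆ Set.Ico 0 T := fun τ hτ => ⟨hτ.1, lt_of_le_of_lt hτ.2 ht.2⟩
  obtain ⟨t', ht', ⟨i₀, hi₀I, hi₀⟩, hle, hafter⟩ := exists_last_time (I := I) (ρ := ρ')
    (hcont.mono h0t) ht.1
    (by
      obtain ⟨i, hi⟩ := hInon
      exact ⟨i, hi, le_trans hρ'r₀ (hr0 i)⟩)
    (fun i hi => lt_of_lt_of_le (hIt i hi) (le_trans hs2 hsleρ))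
  have hsub : ∀ s' ∈ Set.Ioc t' t, s' ∈ Set.Ico 0 T := fun s' hs' =>
    ⟨le_trans ht'.1 hs'.1.le, lt_of_le_of_lt hs'.2 ht.2⟩
  -- the coordinates off I stay large
  have hoff : ∀ s' ∈ Set.Ioc t' t, ∀ l, l ∉ I → rp ≤ x s' l := by
    intro s' hs' l hl
    by_contra hcon
    push Not at hcon
    have hbound := Hm T k x hk hr0 hcont hpos hderiv hmass s' (hsub s' hs')
    have hins : insert l I ⊆ Finset.univ.filter (fun i => x s' i < rp) := by
      intro i hi
      rcases Finset.mem_insert.mp hi with rfl | hi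
      · exact Finset.mem_filter.mpr ⟨Finset.mem_univ _, hcon⟩
      · refine Finset.mem_filter.mpr ⟨Finset.mem_univ _, ?_⟩
        exact lt_of_lt_of_le (hafter s' hs' i hi) hρ'rp
    have hc1 := Finset.card_le_card hins
    rw [Finset.card_insert_of_notMem hl] at hc1
    omega
  have hlogL : ∀ s' ∈ Set.Ioc t' t, ∀ l, l ∉ I → |Real.log (x s' l)| ≤ L := by
    intro s' hs' l hl
    have hr := hoff s' hs' l hl
    have hxp := hpos s' (hsub s' hs') l
    have hxle : x s' l ≤ max R₁ 1 := by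
      have h1 : x s' l ≤ ∑ i, x s' i := Finset.single_le_sum (f := fun i => x s' i)
        (fun i _ => (hpos s' (hsub s' hs') i).le) (Finset.mem_univ l)
      exact le_trans (le_trans h1 (hmass s' (hsub s' hs'))) (le_max_left _ _)
    have h1 := Real.log_le_log hrp hr
    have h2 := Real.log_le_log hxp hxle
    have h3 := le_abs_self (Real.log (max R₁ 1))
    have h4 := neg_abs_le (Real.log rp)
    have h5 := abs_nonneg (Real.log rp)
    have h6 := abs_nonneg (Real.log (max R₁ 1))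
    rw [abs_le]
    constructor <;> linarith
  have Hl : ∀ s' ∈ Set.Ioc t' t, ∀ e ∈ diffs R,
      K' ≤ lev (fun j => e (φ I j)) (fun j => x s' (φ I j)) → K ≤ lev e (x s') := by
    intro s' hs' e he hlev
    rw [lev_split_emb (hφ I) (hφI I) e (x s')]
    have hsum : |∑ i ∈ Iᶜ, e i * Real.log (x s' i)| ≤ d * B * L := by
      calc |∑ i ∈ Iᶜ, e i * Real.log (x s' i)|
          ≤ ∑ i ∈ Iᶜ, |e i * Real.log (x s' i)| := Finset.abs_sum_le_sum_abs _ _
        _ ≤ ∑ _i ∈ Iᶜ, B * L := by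
            apply Finset.sum_le_sum
            intro i hi
            rw [abs_mul]
            exact mul_le_mul (hB e he i) (hlogL s' hs' i (Finset.mem_compl.mp hi))
              (abs_nonneg _) hBnn
        _ = (Iᶜ.card : ℝ) * (B * L) := by simp
        _ ≤ d * (B * L) := by
            apply mul_le_mul_of_nonneg_right _ (by positivity)
            have : Iᶜ.card ≤ d := by
              simpa using Finset.card_le_univ Iᶜ
            exact_mod_cast this
        _ = d * B * L := by ring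
    have := neg_abs_le (∑ i ∈ Iᶜ, e i * Real.log (x s' i))
    linarith
  have hmono := restricted_mono hWR hε hk hcont hpos hderiv (hφ I) hK'0 hKexp (hredF I) (hW I)
    ht'.1 ht'.2.le ht.2 Hl
  have ht'0 : t' ∈ Set.Ico 0 T := ⟨ht'.1, lt_trans ht'.2 ht.2⟩
  -- upper bound at the last time
  obtain ⟨j₀, hj₀⟩ : ∃ j₀, φ I j₀ = i₀ := by
    have : i₀ ∈ Finset.image (φ I) Finset.univ := by
      rw [hφI]
      exact hi₀I
    obtain ⟨j, _, hj⟩ := Finset.mem_image.mp this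
    exact ⟨j, hj⟩
  have hφmem : ∀ j, φ I j ∈ I := fun j => Finset.orderEmbOfFin_mem I rfl j
  have hposy' : Pos (fun j => x t' (φ I j)) := fun j => hpos t' ht'0 _
  have hposy : Pos (fun j => x t (φ I j)) := fun j => hpos t ht _
  have hup := barrier_upper hposy' (ρ := ρ') (C := C I)
    (le_trans hρ'log (by linarith [hCs I])) (fun j => hle _ (hφmem j)) (j₀ := j₀)
    (by
      show ρ' ≤ x t' (φ I j₀)
      rw [hj₀]
      exact hi₀)
  have hup2 := (abs_le.mp (hWV I _ hposy')).2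
  -- lower bound at the final time
  have hlow := barrier_lower hposy hspos hs1 (hC I) (fun j => (hIt _ (hφmem j)).le)
  have hlow2 := (abs_le.mp (hWV I _ hposy)).1
  have hmd : ((I.card : ℕ) : ℝ) * ((2 + C I) * s) ≤ (d : ℝ) * ((2 + Cs) * s) := by
    have h1 : (I.card : ℝ) ≤ d := by
      have : I.card ≤ d := by
        simpa using Finset.card_le_univ I
      exact_mod_cast this
    have h2 : (2 + C I) * s ≤ (2 + Cs) * s :=
      mul_le_mul_of_nonneg_right (by linarith [hCs I]) hspos.le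
    exact mul_le_mul h1 h2 (mul_nonneg (by linarith [hC I]) hspos.le) hdnn
  linarith

/-- The lower bound along solutions whose mass is bounded. -/
theorem lower_bound_general {R : Finset (Reaction d)} (hWR : WeaklyReversible R) {ε : ℝ}
    (hε : 0 < ε) (R₁ : ℝ) {r₀ : ℝ} (hr₀ : 0 < r₀) :
    ∃ r : ℝ, 0 < r ∧ ∀ (T : ℝ) (k : ℝ → Reaction d → ℝ) (x : ℝ → Fin d → ℝ),
      (∀ t, ∀ r ∈ R, ε ≤ k t r ∧ k t r ≤ ε⁻¹) →
      (∀ i, r₀ ≤ x 0 i) →
      ContinuousOn x (Set.Ico 0 T) →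
      (∀ t ∈ Set.Ico 0 T, ∀ i, 0 < x t i) →
      (∀ t ∈ Set.Ioo 0 T, HasDerivAt x (massAction R (k t) (x t)) t) →
      (∀ t ∈ Set.Ico 0 T, ∑ i, x t i ≤ R₁) →
      ∀ t ∈ Set.Ico 0 T, ∀ i, r ≤ x t i := by
  classical
  have key : ∀ j : ℕ, j ≤ d → ∃ r : ℝ, 0 < r ∧ ∀ (T : ℝ) (k : ℝ → Reaction d → ℝ)
      (x : ℝ → Fin d → ℝ),
      (∀ t, ∀ r ∈ R, ε ≤ k t r ∧ k t r ≤ ε⁻¹) →
      (∀ i, r₀ ≤ x 0 i) →
      ContinuousOn x (Set.Ico 0 T) →
      (∀ t ∈ Set.Ico 0 T, ∀ i, 0 < x t i) →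
      (∀ t ∈ Set.Ioo 0 T, HasDerivAt x (massAction R (k t) (x t)) t) →
      (∀ t ∈ Set.Ico 0 T, ∑ i, x t i ≤ R₁) →
      ∀ t ∈ Set.Ico 0 T, (Finset.univ.filter (fun i => x t i < r)).card < d + 1 - j := by
    intro j
    induction j with
    | zero =>
      intro _
      refine ⟨1, one_pos, ?_⟩
      intro T k x _ _ _ _ _ _ t _
      have : (Finset.univ.filter (fun i => x t i < 1)).card ≤ d := by
        simpa using Finset.card_filter_le (Finset.univ : Finset (Fin d)) (fun i => x t i < 1)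
      omega
    | succ j ih =>
      intro hj
      obtain ⟨rp, hrp, Hm⟩ := ih (by omega)
      have hm : 1 ≤ d + 1 - (j + 1) := by omega
      have heq : d + 1 - (j + 1) + 1 = d + 1 - j := by omega
      apply lower_step_general hWR hε R₁ hr₀ (d + 1 - (j + 1)) hm hrp
      rw [heq]
      exact Hm
  obtain ⟨r, hr, H⟩ := key d le_rfl
  refine ⟨r, hr, ?_⟩
  intro T k x hk hr0 hcont hpos hderiv hmass t ht i
  have hcard := H T k x hk hr0 hcont hpos hderiv hmass t ht
  have h0 : (Finset.univ.filter (fun i => x t i < r)).card = 0 := by omega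
  rw [Finset.card_eq_zero] at h0
  by_contra hcon
  push Not at hcon
  have : i ∈ Finset.univ.filter (fun i => x t i < r) :=
    Finset.mem_filter.mpr ⟨Finset.mem_univ _, hcon⟩
  rw [h0] at this
  simp at this

/-- A vector orthogonal to a set is orthogonal to its span. -/
lemma dot_eq_zero_of_mem_span {E : Set (Fin d → ℝ)} {m v : Fin d → ℝ}
    (hm : ∀ e ∈ E, dot e m = 0) (hv : v ∈ Submodule.span ℝ E) : dot v m = 0 := by
  induction hv using Submodule.span_induction with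
  | mem x hx => exact hm x hx
  | zero => simp [dot]
  | add x y _ _ hx hy =>
    have : dot (x + y) m = dot x m + dot y m := by
      unfold dot
      rw [← Finset.sum_add_distrib]
      apply Finset.sum_congr rfl
      intro i _
      simp only [Pi.add_apply]
      ring
    rw [this, hx, hy]
    ring
  | smul a x _ hx =>
    have : dot (a • x) m = a * dot x m := by
      unfold dot
      rw [Finset.mul_sum]
      apply Finset.sum_congr rfl
      intro i _
      simp only [Pi.smul_apply, smul_eq_mul]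
      ring
    rw [this, hx]
    ring

/-- A vector orthogonal to the differences of complexes is orthogonal to the stoichiometric
subspace. -/
lemma dot_eq_zero_of_mem_stoich {R : Finset (Reaction d)} (hWR : WeaklyReversible R)
    {m v : Fin d → ℝ} (hm : ∀ e ∈ diffs R, dot e m = 0) (hv : v ∈ stoichiometricSubspace R) :
    dot v m = 0 :=
  dot_eq_zero_of_mem_span (E := (diffs R : Set (Fin d → ℝ))) hm (stoich_le_span R hWR hv)

/-- The function `gam` is controlled at points where the slope is orthogonal to the subspace. -/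
lemma gam_le_of_flat {c x m : Fin d → ℝ} (hc : Pos c) (hx : Pos x) {A : ℝ}
    (hm : ∀ i, |m i - Real.log (x i)| ≤ A) (hflat : dot (x - c) m = 0) :
    gam c x ≤ A * (∑ i, x i + ∑ i, c i) := by
  have h1 : gam c x = ∑ i, (x i - c i) * (Real.log (x i) - m i) := by
    have h2 : ∑ i, (x i - c i) * m i = 0 := hflat
    unfold gam
    have h3 : ∑ i, (x i - c i) * (Real.log (x i) - m i)
        = ∑ i, (x i - c i) * Real.log (x i) - ∑ i, (x i - c i) * m i := by
      rw [← Finset.sum_sub_distrib]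
      apply Finset.sum_congr rfl
      intro i _
      ring
    rw [h3, h2, sub_zero]
  rw [h1, ← Finset.sum_add_distrib, Finset.mul_sum]
  apply Finset.sum_le_sum
  intro i _
  have h2 : |Real.log (x i) - m i| ≤ A := by
    rw [abs_sub_comm]
    exact hm i
  have hA : 0 ≤ A := le_trans (abs_nonneg _) h2
  have h3 : (x i - c i) * (Real.log (x i) - m i) ≤ |x i - c i| * |Real.log (x i) - m i| := by
    rw [← abs_mul]
    exact le_abs_self _
  have h4 : |x i - c i| ≤ x i + c i := by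
    have := hx i
    have := hc i
    rw [abs_le]
    constructor <;> linarith
  have h5 : |x i - c i| * |Real.log (x i) - m i| ≤ (x i + c i) * A :=
    mul_le_mul h4 h2 (abs_nonneg _) (by linarith [hx i, hc i])
  linarith

/-- The absorbing property: every global solution visits a fixed bounded region away from the
boundary. -/
theorem absorbing_general {R : Finset (Reaction d)} (hWR : WeaklyReversible R) {ε : ℝ}
    (hε : 0 < ε) {c : Fin d → ℝ} (hc : ∀ i, 0 < c i) :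
    ∃ Rs rs : ℝ, 0 < rs ∧ ∀ (k : ℝ → Reaction d → ℝ) (x : ℝ → Fin d → ℝ),
      (∀ t, ∀ r ∈ R, ε ≤ k t r ∧ k t r ≤ ε⁻¹) →
      x 0 - c ∈ stoichiometricSubspace R →
      ContinuousOn x (Set.Ici 0) →
      (∀ t, 0 ≤ t → ∀ i, 0 < x t i) →
      (∀ t, 0 < t → HasDerivAt x (massAction R (k t) (x t)) t) →
      ∃ t₀, 0 ≤ t₀ ∧ ∑ i, x t₀ i ≤ Rs ∧ ∀ i, rs ≤ x t₀ i := by
  classical
  rcases Nat.eq_zero_or_pos d with hd0 | hd
  · subst hd0
    exact ⟨0, 1, one_pos, fun _ _ _ _ _ _ _ => ⟨0, le_rfl, by simp, fun i => i.elim0⟩⟩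
  obtain ⟨K, hKdef⟩ : ∃ K : ℝ, K = (R.card : ℝ) / (ε / 2) ^ 2 + 1 := ⟨_, rfl⟩
  have hK1 : 1 ≤ K := by
    rw [hKdef]
    have : 0 ≤ (R.card : ℝ) / (ε / 2) ^ 2 := by positivity
    linarith
  have hK0 : 0 ≤ K := by linarith
  have hKexp : (R.card : ℝ) / (ε / 2) ^ 2 ≤ Real.exp K := by
    have := Real.add_one_le_exp K
    rw [hKdef] at this ⊢
    linarith
  obtain ⟨W, C, Dev, hC0, hWV, hW⟩ := static (diffs R) K
  obtain ⟨Rs, rs, hrs, hnear⟩ := near_bounds hd hc (A := |Dev|) (abs_nonneg _)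
  refine ⟨Rs, rs, hrs, ?_⟩
  intro k x hk hx0 hcont hpos hderiv
  by_contra hno
  push Not at hno
  have hfar : ∀ s, 0 ≤ s → |Dev| * (∑ i, x s i + ∑ i, c i) < gam c (x s) := by
    intro s hs
    by_contra hcon
    push Not at hcon
    obtain ⟨h1, h2⟩ := hnear (x s) (hpos s hs) hcon
    obtain ⟨i, hi⟩ := hno s hs h1
    exact absurd (h2 i) (not_le.mpr hi)
  -- bounds along this solution
  have hIco : ∀ T, ContinuousOn x (Set.Ico 0 T) := fun T =>
    hcont.mono (fun s hs => hs.1)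
  have hposI : ∀ T, ∀ t ∈ Set.Ico 0 T, ∀ i, 0 < x t i := fun T t ht => hpos t ht.1
  have hderI : ∀ T, ∀ t ∈ Set.Ioo 0 T, HasDerivAt x (massAction R (k t) (x t)) t :=
    fun T t ht => hderiv t ht.1
  obtain ⟨C₁, hC₁⟩ := mass_bound_general hWR hε (∑ i, x 0 i)
  have hmass : ∀ T, ∀ t ∈ Set.Ico 0 T, ∑ i, x t i ≤ C₁ := fun T =>
    hC₁ T k x hk le_rfl (hIco T) (hposI T) (hderI T)
  have hmass' : ∀ t, 0 ≤ t → ∑ i, x t i ≤ C₁ := fun t ht =>
    hmass (t + 1) t ⟨ht, by linarith⟩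
  obtain ⟨r₀, hr₀, hr₀le⟩ := exists_min_coord (hpos 0 le_rfl)
  obtain ⟨r, hr, hrl⟩ := lower_bound_general hWR hε C₁ hr₀
  have hlow : ∀ t, 0 ≤ t → ∀ i, r ≤ x t i := by
    intro t ht i
    exact hrl (t + 1) k x hk hr₀le (hIco _) (hposI _) (hderI _) (hmass _) t
      ⟨ht, by linarith⟩ i
  -- the rate of decrease
  obtain ⟨r', hr'def⟩ : ∃ r' : ℝ, r' = min r 1 := ⟨_, rfl⟩
  have hr'pos : 0 < r' := by
    rw [hr'def]
    exact lt_min hr one_pos
  have hr'1 : r' ≤ 1 := by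
    rw [hr'def]
    exact min_le_right _ _
  have hr'r : r' ≤ r := by
    rw [hr'def]
    exact min_le_left _ _
  obtain ⟨N, hNdef⟩ : ∃ N : ℕ, N = ∑ q ∈ R, ∑ j, q.1 j := ⟨_, rfl⟩
  have hN : ∀ q ∈ R, ∑ j, q.1 j ≤ N := by
    intro q hq
    rw [hNdef]
    exact Finset.single_le_sum (f := fun q : Reaction d => ∑ j, q.1 j)
      (fun _ _ => Nat.zero_le _) hq
  obtain ⟨η, hηdef⟩ : ∃ η : ℝ, η = (ε / 2) * r' ^ N * 1 := ⟨_, rfl⟩
  have hηpos : 0 < η := by
    rw [hηdef]
    positivity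
  have hV : ∀ s, 0 ≤ s → -(d : ℝ) ≤ V (x s) := by
    intro s hs
    have := phi_le_V (hpos s hs) 0
    rwa [phi_zero] at this
  have hC₁0 : 0 ≤ C₁ := by
    have h1 := hmass' 0 le_rfl
    have h2 : 0 ≤ ∑ i, x 0 i := Finset.sum_nonneg fun i _ => (hpos 0 le_rfl i).le
    linarith
  have hW0 := abs_le.mp (hWV _ (hpos 0 le_rfl))
  obtain ⟨τ, hτdef⟩ : ∃ τ : ℝ, τ = (W (x 0) + d + C * C₁) / η + 1 := ⟨_, rfl⟩
  have hWl : -(d : ℝ) - C * C₁ ≤ W (x 0) := by
    have h1 := hV 0 le_rfl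
    have h2 : C * ∑ i, x 0 i ≤ C * C₁ := mul_le_mul_of_nonneg_left (hmass' 0 le_rfl) hC0
    linarith [hW0.1]
  have hτpos : 0 < τ := by
    have : 0 ≤ (W (x 0) + d + C * C₁) / η := div_nonneg (by linarith) hηpos.le
    rw [hτdef]
    linarith
  have hPos : ∀ s ∈ Set.Icc 0 τ, Pos (x s) := fun s hs => hpos s hs.1
  have hcW : ContinuousOn W posSet := continuousOn_of_subgrad fun y hy => by
    obtain ⟨n, hn, _⟩ := hW y hy
    exact ⟨n, hn⟩
  have hgc : ContinuousOn (fun s => W (x s)) (Set.Icc 0 τ) :=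
    hcW.comp (hcont.mono (fun s hs => hs.1)) hPos
  have hdec := monotone_rate hτpos.le (fun s => W (x s)) x (η := η) hgc (by
    intro s hs
    have hs0 : 0 ≤ s := hs.1.le
    have hxS : x s - c ∈ stoichiometricSubspace R := by
      have := Submodule.add_mem _ (sub_mem_stoich (hIco (s + 1)) (hderI (s + 1))
        (t := s) ⟨hs0, by linarith⟩) hx0
      rwa [sub_add_sub_cancel] at this
    obtain ⟨m, hm, hbox, htri⟩ := hW _ (hpos s hs0)
    refine ⟨m, massAction R (k s) (x s), ?_, hderiv s hs.1, ?_⟩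
    · intro τ' hτ'
      exact hm _ (hPos τ' hτ')
    · -- some functional does not vanish on the slope
      have hex : ∃ e ∈ diffs R, 1 ≤ |dot e m| := by
        by_contra hnone
        push Not at hnone
        have hall : ∀ e ∈ diffs R, dot e m = 0 := by
          intro e he
          rcases htri e he with h | ⟨h, _⟩ | h
          · exact h
          · have h1 := hnone e he
            have h2 := le_abs_self (dot e m)
            linarith
          · have h1 := hnone e he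
            have h2 := neg_abs_le (dot e m)
            linarith
        have hflat := dot_eq_zero_of_mem_stoich hWR hall hxS
        have hbox' : ∀ i, |m i - Real.log (x s i)| ≤ |Dev| := fun i =>
          le_trans (hbox i) (le_abs_self _)
        have h3 := gam_le_of_flat hc (hpos s hs0) hbox' hflat
        exact absurd h3 (not_le.mpr (hfar s hs0))
      obtain ⟨e, he, he1⟩ := hex
      rw [hηdef]
      exact drift_strict hWR hε (hk s) (hpos s hs0) hKexp
        (fun e he => rule_of_tri hK0 (htri e he)) (by positivity)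
        (fun q hq => mono_lower hr'pos hr'1 (fun i => le_trans hr'r (hlow s hs0 i)) q.1 (hN q hq))
        he he1)
  have h1 := abs_le.mp (hWV _ (hpos τ hτpos.le))
  have h2 := hV τ hτpos.le
  have h3 : C * ∑ i, x τ i ≤ C * C₁ := mul_le_mul_of_nonneg_left (hmass' τ hτpos.le) hC0
  have h4 : W (x τ) ≤ W (x 0) - η * (τ - 0) := hdec
  have h5 : η * τ = W (x 0) + d + C * C₁ + η := by
    rw [hτdef]
    field_simp
  nlinarith [h1.1]

/-- The compact attractor. -/
theorem attractor_general {R : Finset (Reaction d)} (hWR : WeaklyReversible R) {ε : ℝ}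
    (hε : 0 < ε) {c : Fin d → ℝ} (hc : ∀ i, 0 < c i) :
    ∃ K : Set (Fin d → ℝ), IsCompact K ∧
      (∀ y ∈ K, (∀ i, 0 < y i) ∧ y - c ∈ stoichiometricSubspace R) ∧
      ∀ (k : ℝ → Reaction d → ℝ) (x : ℝ → Fin d → ℝ),
        (∀ t, ∀ r ∈ R, ε ≤ k t r ∧ k t r ≤ ε⁻¹) →
        x 0 - c ∈ stoichiometricSubspace R →
        ContinuousOn x (Set.Ici 0) →
        (∀ t, 0 ≤ t → ∀ i, 0 < x t i) →
        (∀ t, 0 < t → HasDerivAt x (massAction R (k t) (x t)) t) →
        ∃ t₀, ∀ t, t₀ ≤ t → x t ∈ K := by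
  classical
  obtain ⟨Rs, rs, hrs, habsorb⟩ := absorbing_general hWR hε hc
  obtain ⟨R₂, hR₂⟩ := mass_bound_general hWR hε Rs
  obtain ⟨r₂, hr₂, hr₂l⟩ := lower_bound_general hWR hε R₂ hrs
  refine ⟨{y | y - c ∈ stoichiometricSubspace R ∧ ∑ i, y i ≤ R₂ ∧ ∀ i, r₂ ≤ y i}, ?_, ?_, ?_⟩
  · -- compactness
    have hclosedS : IsClosed {y : Fin d → ℝ | y - c ∈ stoichiometricSubspace R} := by
      have h1 : IsClosed ((stoichiometricSubspace R : Submodule ℝ (Fin d → ℝ)) :
          Set (Fin d → ℝ)) := Submodule.closed_of_finiteDimensional _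
      exact h1.preimage (continuous_id.sub continuous_const)
    have hclosedm : IsClosed {y : Fin d → ℝ | ∑ i, y i ≤ R₂} :=
      isClosed_le (continuous_finsetSum _ fun i _ => continuous_apply i) continuous_const
    have hclosedl : IsClosed {y : Fin d → ℝ | ∀ i, r₂ ≤ y i} := by
      simp only [Set.ofPred_forall]
      exact isClosed_iInter fun i => isClosed_le continuous_const (continuous_apply i)
    have hbox : {y : Fin d → ℝ | y - c ∈ stoichiometricSubspace R ∧ ∑ i, y i ≤ R₂ ∧ ∀ i, r₂ ≤ y i}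
        ⊆ Set.Icc (fun _ => r₂) (fun _ => R₂) := by
      rintro y ⟨_, hm, hl⟩
      refine ⟨hl, ?_⟩
      intro i
      have : y i ≤ ∑ j, y j := Finset.single_le_sum (f := y)
        (fun j _ => le_trans hr₂.le (hl j)) (Finset.mem_univ i)
      exact le_trans this hm
    exact isCompact_Icc.of_isClosed_subset
      (hclosedS.inter (hclosedm.inter hclosedl)) hbox
  · rintro y ⟨hS, _, hl⟩
    exact ⟨fun i => lt_of_lt_of_le hr₂ (hl i), hS⟩
  · intro k x hk hx0 hcont hpos hderiv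
    obtain ⟨t₀, ht₀, hm₀, hl₀⟩ := habsorb k x hk hx0 hcont hpos hderiv
    refine ⟨t₀, ?_⟩
    intro t ht
    -- the shifted solution
    set z : ℝ → Fin d → ℝ := fun s => x (s + t₀) with hz
    set k' : ℝ → Reaction d → ℝ := fun s => k (s + t₀) with hk'
    have hz0 : z 0 = x t₀ := by simp [hz]
    have hxS : ∀ s, 0 ≤ s → x s - c ∈ stoichiometricSubspace R := by
      intro s hs
      have := Submodule.add_mem _ (sub_mem_stoich (T := s + 1)
        (hcont.mono (fun τ hτ => hτ.1)) (fun τ hτ => hderiv τ hτ.1) (t := s)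
        ⟨hs, by linarith⟩) hx0
      rwa [sub_add_sub_cancel] at this
    have hkz : ∀ s, ∀ r ∈ R, ε ≤ k' s r ∧ k' s r ≤ ε⁻¹ := fun s => hk (s + t₀)
    have hzc : ∀ T, ContinuousOn z (Set.Ico 0 T) := by
      intro T
      apply hcont.comp (by fun_prop)
      intro s hs
      show 0 ≤ s + t₀
      linarith [hs.1]
    have hzp : ∀ T, ∀ s ∈ Set.Ico 0 T, ∀ i, 0 < z s i := by
      intro T s hs i
      exact hpos _ (by linarith [hs.1]) i
    have hzd : ∀ T, ∀ s ∈ Set.Ioo 0 T, HasDerivAt z (massAction R (k' s) (z s)) s := by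
      intro T s hs
      have h1 := hderiv (s + t₀) (by linarith [hs.1])
      exact h1.comp_add_const s t₀
    have hzm : ∀ T, ∀ s ∈ Set.Ico 0 T, ∑ i, z s i ≤ R₂ := fun T =>
      hR₂ T k' z hkz (by rw [hz0]; exact hm₀) (hzc T) (hzp T) (hzd T)
    have hzl : ∀ T, ∀ s ∈ Set.Ico 0 T, ∀ i, r₂ ≤ z s i := fun T =>
      hr₂l T k' z hkz (fun i => by rw [hz0]; exact hl₀ i) (hzc T) (hzp T) (hzd T) (hzm T)
    have hs0 : t - t₀ ∈ Set.Ico 0 (t - t₀ + 1) := ⟨by linarith, by linarith⟩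
    have hzt : z (t - t₀) = x t := by simp [hz]
    refine ⟨hxS t (le_trans ht₀ ht), ?_, ?_⟩
    · have := hzm _ _ hs0
      rwa [hzt] at this
    · intro i
      have := hzl _ _ hs0 i
      rwa [hzt] at this

/-- Global existence and uniqueness of positive solutions for constant rates. -/
theorem global_general {R : Finset (Reaction d)} (hWR : WeaklyReversible R)
    {k : Reaction d → ℝ} (hkpos : ∀ r ∈ R, 0 < k r) {x₀ : Fin d → ℝ} (hx₀ : ∀ i, 0 < x₀ i) :
    ∃ x : ℝ → Fin d → ℝ, x 0 = x₀ ∧ ContinuousOn x (Set.Ici 0) ∧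
      (∀ t, 0 ≤ t → ∀ i, 0 < x t i) ∧
      (∀ t, 0 < t → HasDerivAt x (massAction R k (x t)) t) ∧
      ∀ (T : ℝ) (z : ℝ → Fin d → ℝ), z 0 = x₀ → ContinuousOn z (Set.Ico 0 T) →
        (∀ t ∈ Set.Ioo 0 T, HasDerivAt z (massAction R k (z t)) t) →
        ∀ t ∈ Set.Ico 0 T, z t = x t := by
  obtain ⟨ε, hε, hk⟩ := exists_eps hkpos
  obtain ⟨C, hC⟩ := mass_bound_general hWR hε (∑ i, x₀ i)
  obtain ⟨r₀, hr₀, hr₀le⟩ := exists_min_coord hx₀
  obtain ⟨r, hr, hrl⟩ := lower_bound_general hWR hε C hr₀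
  have hx₀le : ∀ i, x₀ i ≤ max C (∑ i, x₀ i) := by
    intro i
    have h1 : x₀ i ≤ ∑ i, x₀ i := Finset.single_le_sum (f := x₀) (fun j _ => (hx₀ j).le)
      (Finset.mem_univ i)
    exact le_trans h1 (le_max_right _ _)
  obtain ⟨x, hx0, hxc, hxp, hxd⟩ := global_solution (R := R) (k := k) hx₀
    (M := max C (∑ i, x₀ i)) (r := min r r₀) (lt_min hr hr₀) hx₀le
    (fun i => le_trans (min_le_right _ _) (hr₀le i)) (by
      intro T y hy0 hyc hyp hyd t ht
      have hmass : ∀ t ∈ Set.Ico 0 T, ∑ i, y t i ≤ C :=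
        hC T (fun _ => k) y (fun _ => hk) (by rw [hy0]) hyc hyp hyd
      have hlow := hrl T (fun _ => k) y (fun _ => hk) (fun i => by rw [hy0]; exact hr₀le i)
        hyc hyp hyd hmass t ht
      constructor
      · intro i
        have h1 : y t i ≤ ∑ j, y t j := Finset.single_le_sum (f := fun j => y t j)
          (fun j _ => (hyp t ht j).le) (Finset.mem_univ i)
        exact le_trans (le_trans h1 (hmass t ht)) (le_max_left _ _)
      · intro i
        exact le_trans (min_le_left _ _) (hlow i))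
  refine ⟨x, hx0, hxc, hxp, hxd, ?_⟩
  intro T z hz0 hzc hzd t ht
  exact unique_Ico (massAction_contDiff R k) hzc (hxc.mono (fun s hs => hs.1)) hzd
    (fun s hs => hxd s hs.1) (by rw [hz0, hx0]) ht

end Vale.Agent.Lib.P072
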