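import Mathlib

/-!
A purely combinatorial inequality on strongly connected reaction graphs.
-/

namespace Vale.Agent.Lib.P072

open Finset

variable {α : Type*}

/-- Directed reachability in a finite graph given by its edges. -/
abbrev Reach (R : Finset (α × α)) : α → α → Prop :=
  Relation.ReflTransGen (fun a b => (a, b) ∈ R)

/-- Mutual reachability. -/
def Conn (R : Finset (α × α)) (a b : α) : Prop := Reach R a b ∧ Reach R b a

lemma exists_crossing (R : Finset (α × α)) (U : α → Prop) {a b : α} (h : Reach R a b)
    (ha : U a) (hb : ¬ U b) :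
    ∃ s s', (s, s') ∈ R ∧ U s ∧ ¬ U s' ∧ Reach R a s ∧ Reach R s' b := by
  induction h with
  | refl => exact absurd ha hb
  | @tail c e hac hce ih =>
    by_cases hc : U c
    · exact ⟨c, e, hce, hc, hb, hac, Relation.ReflTransGen.refl⟩
    · obtain ⟨s, s', hs, hUs, hUs', has, hsc⟩ := ih hc
      exact ⟨s, s', hs, hUs, hUs', has, hsc.tail hce⟩

open Classical in
/-- The crossing inequality: the flux into a set dominated in the sense below is at most
the flux out of it. -/
lemma crossing_sum [DecidableEq α] (R : Finset (α × α)) (hWR : ∀ r ∈ R, Reach R r.2 r.1)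
    (m : α → ℝ) (hm : ∀ a, 0 < m a) (k : α × α → ℝ) (ε : ℝ) (hε : 0 < ε)
    (hk : ∀ r ∈ R, ε ≤ k r ∧ k r ≤ ε⁻¹) (K : ℝ) (hK : (R.card : ℝ) / ε ^ 2 ≤ K)
    (U : α → Prop) (hU : ∀ a b, Conn R a b → U a → ¬ U b → K * m b ≤ m a) :
    ∑ r ∈ R, k r * m r.1 *
      ((if U r.2 then (1 : ℝ) else 0) - (if U r.1 then (1 : ℝ) else 0)) ≤ 0 := by
  classical
  set w : α × α → ℝ := fun r => k r * m r.1 with hw
  have hw_nonneg : ∀ r ∈ R, 0 ≤ w r := fun r hr =>
    mul_nonneg (le_trans hε.le (hk r hr).1) (hm _).le
  set up := R.filter (fun r => ¬ U r.1 ∧ U r.2) with hup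
  set down := R.filter (fun r => U r.1 ∧ ¬ U r.2) with hdown
  set D := ∑ r ∈ down, w r with hD
  have hD_nonneg : 0 ≤ D := Finset.sum_nonneg fun r hr =>
    hw_nonneg r (Finset.mem_filter.mp hr).1
  -- the sum splits into up and down parts
  have hsplit : ∑ r ∈ R, k r * m r.1 *
      ((if U r.2 then (1 : ℝ) else 0) - (if U r.1 then (1 : ℝ) else 0))
      = ∑ r ∈ up, w r - D := by
    have h1 : ∀ r ∈ R, k r * m r.1 *
        ((if U r.2 then (1 : ℝ) else 0) - (if U r.1 then (1 : ℝ) else 0))
        = (if ¬ U r.1 ∧ U r.2 then w r else 0) - (if U r.1 ∧ ¬ U r.2 then w r else 0) := by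
      intro r _
      by_cases h1 : U r.1 <;> by_cases h2 : U r.2 <;> simp [h1, h2, hw]
    rw [Finset.sum_congr rfl h1, Finset.sum_sub_distrib, hup, hD, hdown,
      Finset.sum_filter, Finset.sum_filter]
  rw [hsplit]
  -- each up term is at most D / card R
  have hcard_pos_of_up : ∀ r ∈ up, 0 < (R.card : ℝ) := by
    intro r hr
    have : r ∈ R := (Finset.mem_filter.mp hr).1
    exact_mod_cast Finset.card_pos.mpr ⟨r, this⟩
  have hterm : ∀ r ∈ up, w r ≤ D / R.card := by
    intro r hr
    obtain ⟨hrR, hr1, hr2⟩ := Finset.mem_filter.mp hr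
    have hpath := hWR r hrR
    obtain ⟨s, s', hss, hUs, hUs', hr2s, hs'r1⟩ := exists_crossing R U hpath hr2 hr1
    have hedge : (r.1, r.2) ∈ R := by simpa using hrR
    have hconn : Conn R s r.1 := by
      refine ⟨Relation.ReflTransGen.head hss hs'r1, ?_⟩
      exact Relation.ReflTransGen.head hedge hr2s
    have hdom := hU s r.1 hconn hUs hr1
    have hcard := hcard_pos_of_up r hr
    have hmem : (s, s') ∈ down := Finset.mem_filter.mpr ⟨hss, hUs, hUs'⟩
    have hsingle : w (s, s') ≤ D :=
      Finset.single_le_sum (f := w) (fun x hx => hw_nonneg x (Finset.mem_filter.mp hx).1) hmem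
    have hkss := (hk _ hss).1
    have hwss : ε * m s ≤ w (s, s') := by
      simp only [hw]
      exact mul_le_mul_of_nonneg_right hkss (hm _).le
    have hwr : w r ≤ ε⁻¹ * m r.1 := by
      simp only [hw]
      exact mul_le_mul_of_nonneg_right (hk r hrR).2 (hm _).le
    -- combine
    have hKm : (R.card : ℝ) / ε ^ 2 * m r.1 ≤ m s :=
      le_trans (mul_le_mul_of_nonneg_right hK (hm _).le) hdom
    have h3 : ε * ((R.card : ℝ) / ε ^ 2 * m r.1) ≤ D :=
      le_trans (mul_le_mul_of_nonneg_left hKm hε.le) (le_trans hwss hsingle)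
    have h4 : (R.card : ℝ) * (ε⁻¹ * m r.1) ≤ D := by
      have : ε * ((R.card : ℝ) / ε ^ 2 * m r.1) = (R.card : ℝ) * (ε⁻¹ * m r.1) := by
        field_simp
      linarith
    rw [le_div_iff₀ hcard]
    calc w r * R.card ≤ (ε⁻¹ * m r.1) * R.card :=
          mul_le_mul_of_nonneg_right hwr hcard.le
      _ = R.card * (ε⁻¹ * m r.1) := by ring
      _ ≤ D := h4
  have hupsum : ∑ r ∈ up, w r ≤ D := by
    by_cases hne : up.Nonempty
    · obtain ⟨r0, hr0⟩ := hne
      have hc := hcard_pos_of_up r0 hr0
      calc ∑ r ∈ up, w r ≤ ∑ _r ∈ up, D / R.card := Finset.sum_le_sum hterm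
        _ = up.card * (D / R.card) := by simp
        _ ≤ R.card * (D / R.card) := by
            apply mul_le_mul_of_nonneg_right _ (div_nonneg hD_nonneg hc.le)
            exact_mod_cast Finset.card_filter_le _ _
        _ = D := by field_simp
    · rw [Finset.not_nonempty_iff_eq_empty.mp hne]
      simpa using hD_nonneg
  linarith

/-- The level inequality: if along mutually reachable vertices a strictly larger level `h`
forces domination of the weights `m` by the factor `K`, then the level drift of the reaction
fluxes is nonpositive. -/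
lemma level_sum [DecidableEq α] (R : Finset (α × α)) (hWR : ∀ r ∈ R, Reach R r.2 r.1)
    (m : α → ℝ) (hm : ∀ a, 0 < m a) (k : α × α → ℝ) (ε : ℝ) (hε : 0 < ε)
    (hk : ∀ r ∈ R, ε ≤ k r ∧ k r ≤ ε⁻¹) (K : ℝ) (hK : (R.card : ℝ) / ε ^ 2 ≤ K)
    (h : α → ℝ) (hh : ∀ a b, Conn R a b → h b < h a → K * m b ≤ m a) :
    ∑ r ∈ R, k r * m r.1 * (h r.2 - h r.1) ≤ 0 := by
  classical
  set C : Finset α := R.image Prod.fst ∪ R.image Prod.snd with hC
  have hfst : ∀ r ∈ R, r.1 ∈ C := fun r hr =>
    Finset.mem_union_left _ (Finset.mem_image_of_mem _ hr)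
  have hsnd : ∀ r ∈ R, r.2 ∈ C := fun r hr =>
    Finset.mem_union_right _ (Finset.mem_image_of_mem _ hr)
  suffices H : ∀ (N : ℕ) (h : α → ℝ), (C.image h).card ≤ N →
      (∀ a b, Conn R a b → h b < h a → K * m b ≤ m a) →
      ∑ r ∈ R, k r * m r.1 * (h r.2 - h r.1) ≤ 0 from H _ h le_rfl hh
  intro N
  induction N with
  | zero =>
    intro h hcard _
    have hempty : C.image h = ∅ := Finset.card_eq_zero.mp (Nat.le_zero.mp hcard)
    have hC0 : C = ∅ := Finset.image_eq_empty.mp hempty
    have hR0 : R = ∅ := by
      by_contra hne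
      obtain ⟨r, hr⟩ := Finset.nonempty_iff_ne_empty.mpr hne
      have := hfst r hr
      rw [hC0] at this
      simp at this
    simp [hR0]
  | succ N ih =>
    intro h hcard hh
    by_cases hsmall : (C.image h).card ≤ 1
    · -- all levels are equal
      have heq : ∀ r ∈ R, h r.2 = h r.1 := by
        intro r hr
        exact Finset.card_le_one.mp hsmall _ (Finset.mem_image_of_mem h (hsnd r hr)) _
          (Finset.mem_image_of_mem h (hfst r hr))
      apply le_of_eq
      apply Finset.sum_eq_zero
      intro r hr
      rw [heq r hr]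
      ring
    · push Not at hsmall
      set I := C.image h with hI
      have hIne : I.Nonempty := Finset.card_pos.mp (by omega)
      set l1 := I.max' hIne with hl1
      have hl1mem : l1 ∈ I := Finset.max'_mem _ _
      set I' := I.erase l1 with hI'
      have hI'card : I'.card = I.card - 1 := Finset.card_erase_of_mem hl1mem
      have hI'ne : I'.Nonempty := Finset.card_pos.mp (by omega)
      set l2 := I'.max' hI'ne with hl2
      have hl2mem : l2 ∈ I' := Finset.max'_mem _ _
      have hl2I : l2 ∈ I := Finset.mem_of_mem_erase hl2mem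
      have hl2ne : l2 ≠ l1 := Finset.ne_of_mem_erase hl2mem
      have hl2l1 : l2 < l1 := lt_of_le_of_ne (Finset.le_max' _ _ hl2I) hl2ne
      -- dichotomy of levels on C
      have hdich : ∀ y ∈ C, h y = l1 ∨ h y ≤ l2 := by
        intro y hy
        by_cases hy1 : h y = l1
        · exact Or.inl hy1
        · right
          exact Finset.le_max' _ _
            (Finset.mem_erase.mpr ⟨hy1, Finset.mem_image_of_mem h hy⟩)
      set h' : α → ℝ := fun y => min (h y) l2 with hh'def
      -- image of h' is inside I'
      have himg : C.image h' ⊆ I' := by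
        intro v hv
        obtain ⟨y, hy, rfl⟩ := Finset.mem_image.mp hv
        rcases hdich y hy with h1 | h1
        · have : h' y = l2 := by
            simp only [hh'def, h1]
            exact min_eq_right hl2l1.le
          rw [this]
          exact hl2mem
        · have : h' y = h y := by
            simp only [hh'def]
            exact min_eq_left h1
          rw [this]
          refine Finset.mem_erase.mpr ⟨?_, Finset.mem_image_of_mem h hy⟩
          exact ne_of_lt (lt_of_le_of_lt h1 hl2l1)
      have hcard' : (C.image h').card ≤ N := by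
        have := Finset.card_le_card himg
        omega
      have hh' : ∀ a b, Conn R a b → h' b < h' a → K * m b ≤ m a := by
        intro a b hab hlt
        apply hh a b hab
        have h1 : h' a ≤ h a := min_le_left _ _
        have h2 : h' a ≤ l2 := min_le_right _ _
        have h3 : h' b < l2 := lt_of_lt_of_le hlt h2
        have h4 : h b ≤ h' b ∨ l2 ≤ h' b := by
          rcases le_total (h b) l2 with h5 | h5
          · left
            exact le_of_eq (min_eq_left h5).symm
          · right
            exact le_of_eq (min_eq_right h5).symm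
        rcases h4 with h4 | h4
        · linarith
        · linarith
      have hIH := ih h' hcard' hh'
      -- the top level part
      have hcross := crossing_sum R hWR m hm k ε hε hk K hK (fun y => l2 < h y) (by
        intro a b hab hUa hUb
        apply hh a b hab
        push Not at hUb
        exact lt_of_le_of_lt hUb hUa)
      -- decomposition
      have hdec : ∀ y ∈ C, h y = h' y + (l1 - l2) * (if l2 < h y then (1 : ℝ) else 0) := by
        intro y hy
        rcases hdich y hy with h1 | h1
        · have h2 : l2 < h y := by rw [h1]; exact hl2l1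
          have h3 : h' y = l2 := by
            simp only [hh'def]
            rw [h1]
            exact min_eq_right hl2l1.le
          rw [h3, if_pos h2, h1]
          ring
        · have h2 : ¬ l2 < h y := not_lt.mpr h1
          have h3 : h' y = h y := by
            simp only [hh'def]
            exact min_eq_left h1
          rw [h3, if_neg h2]
          ring
      have hsum : ∑ r ∈ R, k r * m r.1 * (h r.2 - h r.1)
          = ∑ r ∈ R, k r * m r.1 * (h' r.2 - h' r.1)
            + (l1 - l2) * ∑ r ∈ R, k r * m r.1 *
              ((if l2 < h r.2 then (1 : ℝ) else 0) - (if l2 < h r.1 then (1 : ℝ) else 0)) := by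
        rw [Finset.mul_sum, ← Finset.sum_add_distrib]
        apply Finset.sum_congr rfl
        intro r hr
        have h1 := hdec r.1 (hfst r hr)
        have h2 := hdec r.2 (hsnd r hr)
        have : h r.2 - h r.1 = (h' r.2 - h' r.1)
            + (l1 - l2) * ((if l2 < h r.2 then (1 : ℝ) else 0)
              - (if l2 < h r.1 then (1 : ℝ) else 0)) := by
          nth_rewrite 1 [h1, h2]
          ring
        rw [this]
        ring
      rw [hsum]
      have hl : 0 ≤ l1 - l2 := sub_nonneg.mpr hl2l1.le
      nlinarith [mul_nonneg hl (neg_nonneg.mpr hcross)]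

end Vale.Agent.Lib.P072
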