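import Vale.Agent.Lib.P072.Structure

/-!
The supremum of the affine minorants over the banded gradients, and a monotonicity lemma along
paths.
-/

namespace Vale.Agent.Lib.P072

open Finset Filter Topology

variable {d : ℕ}

/-- The Lyapunov function: supremum of the affine minorants with allowed gradient. -/
noncomputable def W (E : Finset (Fin d → ℝ)) (δ : ℝ) (x : Fin d → ℝ) : ℝ :=
  sSup ((fun n => phi x n) '' {n | Allowed E δ n})

lemma allowed_zero (E : Finset (Fin d → ℝ)) (δ : ℝ) : Allowed E δ 0 := by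
  intro e _
  left
  unfold dot
  simp

lemma W_set_nonempty (E : Finset (Fin d → ℝ)) (δ : ℝ) (x : Fin d → ℝ) :
    ((fun n => phi x n) '' {n | Allowed E δ n}).Nonempty :=
  ⟨_, ⟨0, allowed_zero E δ, rfl⟩⟩

lemma W_set_bdd (E : Finset (Fin d → ℝ)) (δ : ℝ) {x : Fin d → ℝ} (hx : Pos x) :
    BddAbove ((fun n => phi x n) '' {n | Allowed E δ n}) := by
  refine ⟨V x, ?_⟩
  rintro _ ⟨n, _, rfl⟩
  exact phi_le_V hx n

lemma phi_le_W {E : Finset (Fin d → ℝ)} {δ : ℝ} {x n : Fin d → ℝ} (hx : Pos x)
    (hn : Allowed E δ n) : phi x n ≤ W E δ x :=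
  le_csSup (W_set_bdd E δ hx) ⟨n, hn, rfl⟩

lemma W_le_V {E : Finset (Fin d → ℝ)} {δ : ℝ} {x : Fin d → ℝ} (hx : Pos x) :
    W E δ x ≤ V x := by
  apply csSup_le (W_set_nonempty E δ x)
  rintro _ ⟨n, _, rfl⟩
  exact phi_le_V hx n

lemma W_eq {E : Finset (Fin d → ℝ)} {δ : ℝ} {x n : Fin d → ℝ} (hx : Pos x)
    (hn : Allowed E δ n) (hmax : ∀ n', Allowed E δ n' → phi x n' ≤ phi x n) :
    W E δ x = phi x n := by
  apply le_antisymm
  · apply csSup_le (W_set_nonempty E δ x)
    rintro _ ⟨n', hn', rfl⟩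
    exact hmax n' hn'
  · exact phi_le_W hx hn

/-- The open positive orthant. -/
def posSet : Set (Fin d → ℝ) := {x | Pos x}

lemma isOpen_posSet : IsOpen (posSet : Set (Fin d → ℝ)) := by
  have : (posSet : Set (Fin d → ℝ)) = ⋂ i, {x | 0 < x i} := by
    ext x
    simp [posSet, Pos]
  rw [this]
  apply isOpen_iInter_of_finite
  intro i
  exact isOpen_lt continuous_const (continuous_apply i)

lemma convex_posSet : Convex ℝ (posSet : Set (Fin d → ℝ)) := by
  intro x hx y hy a b ha hb hab i
  simp only [Pi.add_apply, Pi.smul_apply, smul_eq_mul]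
  have hxi := hx i
  have hyi := hy i
  rcases ha.lt_or_eq with ha' | ha'
  · have := mul_pos ha' hxi
    have := mul_nonneg hb hyi.le
    linarith
  · have hb1 : b = 1 := by linarith
    rw [← ha', hb1]
    simpa using hyi

lemma phi_convex_comb (x y n : Fin d → ℝ) {a b : ℝ} (hab : a + b = 1) :
    phi (a • x + b • y) n = a * phi x n + b * phi y n := by
  unfold phi
  rw [Finset.mul_sum, Finset.mul_sum, ← Finset.sum_add_distrib]
  apply Finset.sum_congr rfl
  intro i _
  simp only [Pi.add_apply, Pi.smul_apply, smul_eq_mul]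
  have hb : b = 1 - a := by linarith
  rw [hb]
  ring

lemma W_convexOn (E : Finset (Fin d → ℝ)) (δ : ℝ) : ConvexOn ℝ posSet (W E δ) := by
  refine ⟨convex_posSet, ?_⟩
  intro x hx y hy a b ha hb hab
  apply csSup_le (W_set_nonempty E δ _)
  rintro _ ⟨n, hn, rfl⟩
  simp only [smul_eq_mul]
  rw [phi_convex_comb x y n hab]
  have h1 := phi_le_W hx hn
  have h2 := phi_le_W hy hn
  have h3 := mul_le_mul_of_nonneg_left h1 ha
  have h4 := mul_le_mul_of_nonneg_left h2 hb
  linarith

lemma W_continuousOn (E : Finset (Fin d → ℝ)) (δ : ℝ) : ContinuousOn (W E δ) posSet :=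
  (W_convexOn E δ).continuousOn isOpen_posSet

/-- A function with a supporting affine minorant along a path, whose slope along the velocity
is nonpositive at each time, does not increase. -/
lemma monotone_lemma {a b : ℝ} (hab : a ≤ b) (g : ℝ → ℝ) (y : ℝ → Fin d → ℝ)
    (hg : ContinuousOn g (Set.Icc a b))
    (H : ∀ s ∈ Set.Ioc a b, ∃ (n y' : Fin d → ℝ),
      (∀ τ ∈ Set.Icc a b, g s - g τ ≤ dot n (y s) - dot n (y τ)) ∧
        HasDerivAt y y' s ∧ dot n y' ≤ 0) :
    g b ≤ g a := by
  set f : ℝ → ℝ := fun η => - g (b - η) with hf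
  have hfc : ContinuousOn f (Set.Icc 0 (b - a)) := by
    apply ContinuousOn.neg
    apply hg.comp (by fun_prop)
    intro η hη
    constructor <;> linarith [hη.1, hη.2]
  have hbound : ∀ x ∈ Set.Ico 0 (b - a), ∀ r : ℝ, (0 : ℝ) < r →
      ∃ᶠ z in 𝓝[>] x, slope f x z < r := by
    intro η hη r hr
    have hs : b - η ∈ Set.Ioc a b := by
      constructor <;> linarith [hη.1, hη.2]
    obtain ⟨n, y', hsub, hd, hneg⟩ := H _ hs
    set ψ : ℝ → ℝ := fun z => - dot n (y (b - z)) with hψ
    have hinner : HasDerivAt (fun z : ℝ => b - z) (-1) η := by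
      simpa using (hasDerivAt_id η).const_sub b
    have hpath : ∀ i, HasDerivAt (fun z => y (b - z) i) (y' i * (-1)) η := by
      intro i
      have h1 : HasDerivAt (fun t => y t i) (y' i) (b - η) := (hasDerivAt_pi.mp hd) i
      exact h1.comp η hinner
    have hψd : HasDerivAt ψ (dot n y') η := by
      have h2 : HasDerivAt (fun z => ∑ i, n i * y (b - z) i) (∑ i, n i * (y' i * (-1))) η := by
        apply HasDerivAt.fun_sum
        intro i _
        exact (hpath i).const_mul (n i)
      have h3 := h2.neg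
      have h4 : -∑ i, n i * (y' i * (-1)) = dot n y' := by
        unfold dot
        rw [← Finset.sum_neg_distrib]
        apply Finset.sum_congr rfl
        intro i _
        ring
      rw [h4] at h3
      exact h3
    have htend := hasDerivAt_iff_tendsto_slope.mp hψd
    have htend2 : Tendsto (slope ψ η) (𝓝[>] η) (𝓝 (dot n y')) :=
      htend.mono_left (nhdsWithin_mono _ (fun z hz => ne_of_gt hz))
    have hev1 : ∀ᶠ z in 𝓝[>] η, slope ψ η z < r :=
      htend2.eventually (gt_mem_nhds (lt_of_le_of_lt hneg hr))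
    have hev2 : ∀ᶠ z in 𝓝[>] η, z ∈ Set.Ioc η (b - a) := Ioc_mem_nhdsGT hη.2
    apply Eventually.frequently
    filter_upwards [hev1, hev2] with z hz1 hz2
    refine lt_of_le_of_lt ?_ hz1
    have hτ : b - z ∈ Set.Icc a b := by
      constructor <;> linarith [hz2.1, hz2.2, hη.1]
    have h5 := hsub _ hτ
    have hzpos : 0 < z - η := by linarith [hz2.1]
    unfold slope
    simp only [vsub_eq_sub, smul_eq_mul]
    apply mul_le_mul_of_nonneg_left _ (inv_nonneg.mpr hzpos.le)
    simp only [hf, hψ]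
    linarith
  have hmain := image_le_of_liminf_slope_right_le_deriv_boundary (f := f) (a := 0) (b := b - a)
    hfc (B := fun _ => f 0) (B' := fun _ => 0) le_rfl continuousOn_const
    (fun x _ => hasDerivWithinAt_const x _ _) hbound
    (x := b - a) ⟨by linarith, le_rfl⟩
  simp only [hf, sub_zero, sub_sub_cancel] at hmain
  linarith

end Vale.Agent.Lib.P072
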