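import Vale.Agent.Lib.P072.Network

/-!
Boundedness for stoichiometric subspaces of dimension at most two.
-/

namespace Vale.Agent.Lib.P072

open Finset

variable {d : ℕ}

/-- Cramer's rule, with bounds, in a subspace of dimension at most two. -/
lemma cramer_bound {T : Submodule ℝ (Fin d → ℝ)} (hT : Module.finrank ℝ T ≤ 2)
    {e e' v : Fin d → ℝ} (heT : e ∈ T) (he'T : e' ∈ T) (hv : v ∈ T)
    (hint : IsInt e) (hint' : IsInt e')
    {B ρ : ℝ} (hB : ∀ i, |e i| ≤ B) (hB' : ∀ i, |e' i| ≤ B) (hvρ : ∀ k, |v k| ≤ ρ)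
    (hnp : ¬ Par e e') :
    ∃ a b : ℝ, (∀ k, v k = a * e k + b * e' k) ∧ |a| ≤ 2 * (ρ * B) ∧ |b| ≤ 2 * (ρ * B) := by
  classical
  unfold Par at hnp
  push Not at hnp
  obtain ⟨i, j, hij⟩ := hnp
  set D := e i * e' j - e j * e' i with hD
  have hDne : D ≠ 0 := sub_ne_zero.mpr hij
  have hDabs : 1 ≤ |D| := by
    obtain ⟨a, ha⟩ := hint i
    obtain ⟨b, hb⟩ := hint' j
    obtain ⟨c, hc⟩ := hint j
    obtain ⟨f, hf⟩ := hint' i
    have hz : D = ((a * b - c * f : ℤ) : ℝ) := by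
      rw [hD, ha, hb, hc, hf]
      push_cast
      ring
    rw [hz] at hDne ⊢
    have hz0 : a * b - c * f ≠ 0 := by
      intro h0
      apply hDne
      rw [h0]
      simp
    have := Int.one_le_abs hz0
    have h2 : ((1 : ℤ) : ℝ) ≤ ((|a * b - c * f| : ℤ) : ℝ) := by exact_mod_cast this
    simpa using h2
  -- linear independence
  have hLI : LinearIndependent ℝ ![e, e'] := by
    rw [LinearIndependent.pair_iff]
    intro s t hst
    have h1 : s * e i + t * e' i = 0 := by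
      have := congrFun hst i
      simpa using this
    have h2 : s * e j + t * e' j = 0 := by
      have := congrFun hst j
      simpa using this
    have hs : s * D = 0 := by
      rw [hD]
      linear_combination e' j * h1 - e' i * h2
    have ht : t * D = 0 := by
      rw [hD]
      linear_combination e i * h2 - e j * h1
    exact ⟨(mul_eq_zero.mp hs).resolve_right hDne, (mul_eq_zero.mp ht).resolve_right hDne⟩
  set U := Submodule.span ℝ (Set.range ![e, e']) with hU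
  have hUT : U ≤ T := by
    apply Submodule.span_le.mpr
    rintro _ ⟨k, rfl⟩
    fin_cases k
    · exact heT
    · exact he'T
  have hUfin : Module.finrank ℝ U = 2 := by
    rw [hU, finrank_span_eq_card hLI]
    simp
  have hUeq : U = T := Submodule.eq_of_le_of_finrank_le hUT (by rw [hUfin]; exact hT)
  have hmem : v ∈ U := by
    rw [hUeq]
    exact hv
  obtain ⟨c, hc⟩ := (Submodule.mem_span_range_iff_exists_fun ℝ).mp hmem
  rw [Fin.sum_univ_two] at hc
  simp only [Matrix.cons_val_zero, Matrix.cons_val_one] at hc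
  set a := c 0 with ha
  set b := c 1 with hb
  have hcoord : ∀ k, v k = a * e k + b * e' k := by
    intro k
    have := congrFun hc k
    simpa using this.symm
  have hρnn : 0 ≤ ρ := le_trans (abs_nonneg _) (hvρ i)
  have hBnn : 0 ≤ B := le_trans (abs_nonneg _) (hB i)
  have hprod : ∀ u w : ℝ, |u| ≤ ρ → |w| ≤ B → |u * w| ≤ ρ * B := by
    intro u w hu hw
    rw [abs_mul]
    exact mul_le_mul hu hw (abs_nonneg _) hρnn
  have hdenom : ∀ y : ℝ, |y * D| ≤ 2 * (ρ * B) → |y| ≤ 2 * (ρ * B) := by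
    intro y hy
    rw [abs_mul] at hy
    have := abs_nonneg y
    nlinarith
  have haD : a * D = v i * e' j - v j * e' i := by
    rw [hcoord i, hcoord j, hD]
    ring
  have hbD : b * D = e i * v j - e j * v i := by
    rw [hcoord i, hcoord j, hD]
    ring
  refine ⟨a, b, hcoord, ?_, ?_⟩
  · apply hdenom
    rw [haD]
    calc |v i * e' j - v j * e' i|
        ≤ |v i * e' j| + |v j * e' i| := abs_sub _ _
      _ ≤ ρ * B + ρ * B := add_le_add (hprod _ _ (hvρ i) (hB' j)) (hprod _ _ (hvρ j) (hB' i))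
      _ = 2 * (ρ * B) := by ring
  · apply hdenom
    rw [hbD]
    calc |e i * v j - e j * v i|
        ≤ |e i * v j| + |e j * v i| := abs_sub _ _
      _ ≤ ρ * B + ρ * B := by
          have h1 := hprod _ _ (hvρ j) (hB i)
          have h2 := hprod _ _ (hvρ i) (hB j)
          rw [mul_comm (e i), mul_comm (e j)]
          exact add_le_add h1 h2
      _ = 2 * (ρ * B) := by ring

/-- The pairing of `v = a e + b e'` with a logarithmic gradient flat along `e, e'`. -/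
lemma pair_le {v e e' y : Fin d → ℝ} {a b A Λ : ℝ} (hv : ∀ k, v k = a * e k + b * e' k)
    (ha : |a| ≤ A) (hb : |b| ≤ A) (hl : |lev e y| < Λ) (hl' : |lev e' y| < Λ) :
    ∑ k, v k * Real.log (y k) ≤ 2 * A * Λ := by
  have hpair : ∑ k, v k * Real.log (y k) = a * lev e y + b * lev e' y := by
    unfold lev dot lg
    rw [Finset.mul_sum, Finset.mul_sum, ← Finset.sum_add_distrib]
    apply Finset.sum_congr rfl
    intro k _
    rw [hv k]
    ring
  rw [hpair]
  have hA : 0 ≤ A := le_trans (abs_nonneg _) ha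
  have hΛ : 0 ≤ Λ := le_trans (abs_nonneg _) hl.le
  have h1 : a * lev e y ≤ A * Λ := by
    calc a * lev e y ≤ |a * lev e y| := le_abs_self _
      _ = |a| * |lev e y| := abs_mul _ _
      _ ≤ A * Λ := mul_le_mul ha hl.le (abs_nonneg _) hA
  have h2 : b * lev e' y ≤ A * Λ := by
    calc b * lev e' y ≤ |b * lev e' y| := le_abs_self _
      _ = |b| * |lev e' y| := abs_mul _ _
      _ ≤ A * Λ := mul_le_mul hb hl'.le (abs_nonneg _) hA
  linarith

/-- Coordinatewise control of a difference by the masses. -/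
lemma abs_sub_le_masses {x c : Fin d → ℝ} (hx : Pos x) (hc : Pos c) (k : Fin d) :
    |x k - c k| ≤ ∑ i, x i + ∑ i, c i := by
  have h1 : x k ≤ ∑ i, x i := Finset.single_le_sum (f := x) (fun i _ => (hx i).le)
    (Finset.mem_univ k)
  have h2 : c k ≤ ∑ i, c i := Finset.single_le_sum (f := c) (fun i _ => (hc i).le)
    (Finset.mem_univ k)
  have h3 := hx k
  have h4 := hc k
  rw [abs_le]
  constructor <;> linarith

/-- The function comparing a point with the base point `c`. -/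
noncomputable def gam (c x : Fin d → ℝ) : ℝ := ∑ i, (x i - c i) * Real.log (x i)

/-- Convexity of the entropy, in terms of `gam`. -/
lemma V_sub_le_gam {x c : Fin d → ℝ} (hx : Pos x) (hc : Pos c) : V x - V c ≤ gam c x := by
  have hconv := phi_le_V hc (lg x)
  have hsub := phi_sub x c (lg x)
  rw [phi_lg hx] at hsub
  have h : gam c x = dot (lg x) x - dot (lg x) c := by
    unfold gam dot lg
    rw [← Finset.sum_sub_distrib]
    apply Finset.sum_congr rfl
    intro i _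
    ring
  rw [h]
  linarith

/-- Two flat directions which are not parallel bound `gam`. -/
lemma gam_le_of_not_par {S : Submodule ℝ (Fin d → ℝ)} (hS : Module.finrank ℝ S ≤ 2)
    {c x : Fin d → ℝ} (hc : Pos c) (hx : Pos x) (hxS : x - c ∈ S)
    {e e' : Fin d → ℝ} (heS : e ∈ S) (he'S : e' ∈ S) (hint : IsInt e) (hint' : IsInt e')
    {B Λ : ℝ} (hB : ∀ i, |e i| ≤ B) (hB' : ∀ i, |e' i| ≤ B)
    (hlev : |lev e x| < Λ) (hlev' : |lev e' x| < Λ) (hnp : ¬ Par e e') :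
    gam c x ≤ 4 * B * Λ * (∑ i, x i + ∑ i, c i) := by
  obtain ⟨a, b, hv, ha, hb⟩ := cramer_bound hS heS he'S hxS hint hint' hB hB'
    (fun k => abs_sub_le_masses hx hc k) hnp
  have := pair_le (y := x) (v := x - c) hv ha hb hlev hlev'
  unfold gam
  simp only [Pi.sub_apply] at this
  calc ∑ i, (x i - c i) * Real.log (x i) ≤ _ := this
    _ = _ := by ring

/-- Two non parallel directions in a subspace of dimension at most two span it, so that small
levels along both force a bound on the entropy. -/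
lemma far_parallel {S : Submodule ℝ (Fin d → ℝ)} (hS : Module.finrank ℝ S ≤ 2)
    {x₀ x : Fin d → ℝ} (hx₀ : Pos x₀) (hx : Pos x) (hxS : x - x₀ ∈ S)
    {e e' : Fin d → ℝ} (heS : e ∈ S) (he'S : e' ∈ S) (hint : IsInt e) (hint' : IsInt e')
    {B Λ : ℝ} (hB : ∀ i, |e i| ≤ B) (hB' : ∀ i, |e' i| ≤ B)
    (hlev : |lev e x| < Λ) (hlev' : |lev e' x| < Λ)
    (hfar : V x₀ + 4 * B * Λ * (∑ i, x i + ∑ i, x₀ i) < V x) : Par e e' := by
  by_contra hnot
  have h1 := gam_le_of_not_par hS hx₀ hx hxS heS he'S hint hint' hB hB' hlev hlev' hnot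
  have h2 := V_sub_le_gam hx hx₀
  linarith

/-- The entropy dominates mass times the logarithm of the average coordinate. -/
lemma V_ge_mass {x : Fin d → ℝ} (hx : Pos x) (hd : 0 < d) (hmass : 0 < ∑ i, x i) :
    (∑ i, x i) * Real.log ((∑ i, x i) / d) - ∑ i, x i ≤ V x := by
  set ρ := ∑ i, x i with hρ
  have h1 := phi_le_V hx (fun _ => Real.log (ρ / d))
  have hdpos : (0 : ℝ) < d := by exact_mod_cast hd
  have hρd : 0 < ρ / d := div_pos hmass hdpos
  have h2 : phi x (fun _ => Real.log (ρ / d)) = ρ * Real.log (ρ / d) - ρ := by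
    unfold phi
    simp only [Real.exp_log hρd]
    rw [Finset.sum_sub_distrib, ← Finset.mul_sum]
    simp only [Finset.sum_const, Finset.card_univ, Fintype.card_fin, nsmul_eq_mul]
    rw [mul_comm, ← hρ]
    congr 1
    field_simp
  rw [h2] at h1
  exact h1

/-- On bounded mass the entropy is bounded above. -/
lemma V_le_of_mass_le {x : Fin d → ℝ} (hx : Pos x) {R₀ : ℝ} (hR : 1 ≤ R₀)
    (hmass : ∑ i, x i ≤ R₀) : V x ≤ R₀ * Real.log R₀ := by
  have hlogR : 0 ≤ Real.log R₀ := Real.log_nonneg hR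
  have h1 : V x ≤ ∑ i, x i * Real.log R₀ := by
    unfold V
    apply Finset.sum_le_sum
    intro i _
    have hi : x i ≤ ∑ i, x i := Finset.single_le_sum (f := x) (fun i _ => (hx i).le)
      (Finset.mem_univ i)
    have h2 : Real.log (x i) ≤ Real.log R₀ := Real.log_le_log (hx i) (le_trans hi hmass)
    have h3 := hx i
    nlinarith
  rw [← Finset.sum_mul] at h1
  calc V x ≤ (∑ i, x i) * Real.log R₀ := h1
    _ ≤ R₀ * Real.log R₀ := mul_le_mul_of_nonneg_right hmass hlogR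

lemma exists_bound_diffs (R : Finset (Reaction d)) :
    ∃ B : ℝ, 1 ≤ B ∧ ∀ e ∈ diffs R, ∀ i, |e i| ≤ B := by
  refine ⟨1 + ∑ e ∈ diffs R, ∑ i, |e i|, ?_, ?_⟩
  · have : 0 ≤ ∑ e ∈ diffs R, ∑ i, |e i| :=
      Finset.sum_nonneg fun e _ => Finset.sum_nonneg fun i _ => abs_nonneg _
    linarith
  · intro e he i
    have h1 : |e i| ≤ ∑ i, |e i| := Finset.single_le_sum (f := fun i => |e i|)
      (fun i _ => abs_nonneg _) (Finset.mem_univ i)
    have h2 : ∑ i, |e i| ≤ ∑ e ∈ diffs R, ∑ i, |e i| :=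
      Finset.single_le_sum (f := fun e : Fin d → ℝ => ∑ i, |e i|)
        (fun e _ => Finset.sum_nonneg fun i _ => abs_nonneg _) he
    linarith

/-- Numerical threshold for the entropy growth. -/
lemma exists_threshold (hd : 0 < d) (a b : ℝ) (ha : 0 ≤ a) :
    ∃ R₀ : ℝ, 1 ≤ R₀ ∧ ∀ ρ, R₀ < ρ → a * ρ + b < ρ * Real.log (ρ / d) - ρ := by
  have hdpos : (0 : ℝ) < d := by exact_mod_cast hd
  refine ⟨max (d * Real.exp (a + 2)) (max b 1), le_trans (le_max_right _ _) (le_max_right _ _), ?_⟩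
  intro ρ hρ
  have h1 : d * Real.exp (a + 2) < ρ := lt_of_le_of_lt (le_max_left _ _) hρ
  have h2 : b < ρ := lt_of_le_of_lt (le_trans (le_max_left _ _) (le_max_right _ _)) hρ
  have h3 : 1 < ρ := lt_of_le_of_lt (le_trans (le_max_right _ _) (le_max_right _ _)) hρ
  have hρpos : 0 < ρ := by linarith
  have hlog : a + 2 ≤ Real.log (ρ / d) := by
    rw [Real.le_log_iff_exp_le (div_pos hρpos hdpos), le_div_iff₀ hdpos]
    linarith
  have := mul_le_mul_of_nonneg_left hlog hρpos.le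
  nlinarith

/-- The dynamical argument, given the far out structure of the maximisers. -/
lemma dynamic_bound {R : Finset (Reaction d)} (hWR : WeaklyReversible R) {ε : ℝ} (hε : 0 < ε)
    {x₀ : Fin d → ℝ} (hd : 0 < d)
    {E : Finset (Fin d → ℝ)} {δ K R₀ R₁ : ℝ}
    (hKexp : (R.card : ℝ) / ε ^ 2 ≤ Real.exp K)
    (hEdiffs : diffs R ⊆ E)
    (hR₀1 : 1 ≤ R₀) (hR₀R₁ : R₀ ≤ R₁)
    (hkey : ∀ x : Fin d → ℝ, Pos x → x - x₀ ∈ stoichiometricSubspace R → R₀ < ∑ i, x i →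
      ∃ n, Allowed E δ n ∧ (∀ n', Allowed E δ n' → phi x n' ≤ phi x n) ∧
        (∀ e ∈ E, 0 < dot e n → K ≤ lev e x) ∧
        V x - Real.exp δ * ∑ i, x i ≤ phi x n)
    (hlarge : ∀ ρ, R₁ < ρ → Real.exp δ * ρ + R₀ * Real.log R₀ < ρ * Real.log (ρ / d) - ρ)
    {T : ℝ} {k : ℝ → Reaction d → ℝ} {x : ℝ → Fin d → ℝ}
    (hk : ∀ t, ∀ r ∈ R, ε ≤ k t r ∧ k t r ≤ ε⁻¹)
    (hx0 : x 0 - x₀ ∈ stoichiometricSubspace R) (hmass₀ : ∑ i, x 0 i ≤ R₀)
    (hcont : ContinuousOn x (Set.Ico 0 T))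
    (hpos : ∀ t ∈ Set.Ico 0 T, ∀ i, 0 < x t i)
    (hderiv : ∀ t ∈ Set.Ioo 0 T, HasDerivAt x (massAction R (k t) (x t)) t)
    {t : ℝ} (ht : t ∈ Set.Ico 0 T) : ∑ i, x t i ≤ R₁ := by
  classical
  have hPos : ∀ s ∈ Set.Ico 0 T, Pos (x s) := fun s hs => hpos s hs
  let mass : ℝ → ℝ := fun s => ∑ i, x s i
  have hmasspos : ∀ s ∈ Set.Ico 0 T, 0 < mass s := by
    intro s hs
    have hne : (Finset.univ : Finset (Fin d)).Nonempty := ⟨⟨0, hd⟩, Finset.mem_univ _⟩
    exact Finset.sum_pos (fun j _ => hPos s hs j) hne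
  have hkey' : ∀ s ∈ Set.Ico 0 T, R₀ < mass s →
      ∃ n, Allowed E δ n ∧ (∀ n', Allowed E δ n' → phi (x s) n' ≤ phi (x s) n) ∧
        (∀ e ∈ E, 0 < dot e n → K ≤ lev e (x s)) ∧
        V (x s) - Real.exp δ * ∑ i, x s i ≤ phi (x s) n := by
    intro s hs hl
    have hsm := Submodule.add_mem _ (sub_mem_stoich hcont hderiv hs) hx0
    rw [sub_add_sub_cancel] at hsm
    exact hkey _ (hPos s hs) hsm hl
  by_contra hcon
  push Not at hcon
  have ht1 : R₁ < mass t := hcon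
  have hmass0 : mass 0 ≤ R₀ := hmass₀
  have hIccsub : Set.Icc 0 t ⊆ Set.Ico 0 T := fun s hs => ⟨hs.1, lt_of_le_of_lt hs.2 ht.2⟩
  have hmasscont : ContinuousOn mass (Set.Icc 0 t) := by
    apply continuousOn_finsetSum
    intro j _
    exact (continuous_apply j).comp_continuousOn (hcont.mono hIccsub)
  let Aset := Set.Icc 0 t ∩ mass ⁻¹' Set.Iic R₀
  have hAclosed : IsClosed Aset :=
    hmasscont.preimage_isClosed_of_isClosed isClosed_Icc isClosed_Iic
  have hAne : Aset.Nonempty := ⟨0, ⟨le_rfl, ht.1⟩, hmass0⟩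
  have hAcomp : IsCompact Aset :=
    isCompact_Icc.of_isClosed_subset hAclosed Set.inter_subset_left
  have ht0mem := hAcomp.sSup_mem hAne
  obtain ⟨t₀, ht₀⟩ : ∃ t₀, t₀ = sSup Aset := ⟨_, rfl⟩
  rw [← ht₀] at ht0mem
  have hAbdd : BddAbove Aset := hAcomp.bddAbove
  have ht₀1 : t₀ ≤ t := ht0mem.1.2
  have ht₀0 : 0 ≤ t₀ := ht0mem.1.1
  have hafter : ∀ s ∈ Set.Ioc t₀ t, R₀ < mass s := by
    intro s hs
    by_contra hnot
    push Not at hnot
    have hin : s ∈ Aset := ⟨⟨le_trans ht₀0 hs.1.le, hs.2⟩, hnot⟩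
    have h1 := le_csSup hAbdd hin
    rw [← ht₀] at h1
    exact absurd hs.1 (not_lt.mpr h1)
  have hIcc2 : Set.Icc t₀ t ⊆ Set.Ico 0 T := fun s hs =>
    ⟨le_trans ht₀0 hs.1, lt_of_le_of_lt hs.2 ht.2⟩
  have hgcont : ContinuousOn (fun s => W E δ (x s)) (Set.Icc t₀ t) := by
    apply (W_continuousOn E δ).comp (hcont.mono hIcc2)
    intro s hs
    exact hPos s (hIcc2 hs)
  have hmono := monotone_lemma ht₀1 (fun s => W E δ (x s)) x hgcont (by
    intro s hs
    have hsT : s ∈ Set.Ico 0 T := hIcc2 ⟨hs.1.le, hs.2⟩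
    obtain ⟨n, hn, hmax, hprop, _⟩ := hkey' s hsT (hafter s hs)
    have hs0 : 0 < s := lt_of_le_of_lt ht₀0 hs.1
    refine ⟨n, massAction R (k s) (x s), ?_, hderiv s ⟨hs0, hsT.2⟩, ?_⟩
    · intro τ hτ
      have hτT := hIcc2 hτ
      have h1 := W_eq (hPos s hsT) hn hmax
      have h2 := phi_le_W (hPos τ hτT) hn
      have h3 := phi_sub (x s) (x τ) n
      show W E δ (x s) - W E δ (x τ) ≤ _
      rw [h1]
      linarith
    · exact drift_nonpos hWR hε (hk s) (hPos s hsT) hKexp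
        (fun e he => hprop e (hEdiffs he)))
  -- upper bound at the start time
  have hW0 : W E δ (x t₀) ≤ R₀ * Real.log R₀ :=
    le_trans (W_le_V (hPos t₀ (hIcc2 ⟨le_rfl, ht₀1⟩)))
      (V_le_of_mass_le (hPos t₀ (hIcc2 ⟨le_rfl, ht₀1⟩)) hR₀1 ht0mem.2)
  -- lower bound at the end time
  have htlarge : R₀ < mass t := lt_of_le_of_lt hR₀R₁ ht1
  obtain ⟨n, hn, _, _, hval⟩ := hkey' t ht htlarge
  have hWt := phi_le_W (hPos t ht) hn
  have hms := hmasspos t ht
  have hlow := V_ge_mass (hPos t ht) hd hms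
  have hL := hlarge _ ht1
  have hmono' : W E δ (x t) ≤ W E δ (x t₀) := hmono
  have hval' : V (x t) - Real.exp δ * mass t ≤ phi (x t) n := hval
  have hlow' : mass t * Real.log (mass t / d) - mass t ≤ V (x t) := hlow
  linarith

/-- The far out structure for stoichiometric subspaces of dimension at most two. -/
lemma far_key {R : Finset (Reaction d)}
    (hdim : Module.finrank ℝ (stoichiometricSubspace R) ≤ 2)
    {x₀ : Fin d → ℝ} (hx₀ : ∀ i, 0 < x₀ i) (hd : 0 < d)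
    {B K δ Λ R₀ : ℝ} (hB : ∀ e ∈ diffs R, ∀ i, |e i| ≤ B) (hBnn : 0 ≤ B) (hK0 : 0 ≤ K)
    (hδ : K + d * B * (2 + Real.exp K) ≤ δ) (hδpos : 0 < δ)
    (hΛ : δ + K + 2 * δ * d * B ≤ Λ)
    (hR₀ : ∀ ρ, R₀ < ρ → (4 * B * Λ) * ρ + (V x₀ + 4 * B * Λ * ∑ i, x₀ i)
      < ρ * Real.log (ρ / d) - ρ)
    (hR₀1 : 1 ≤ R₀) :
    ∀ x : Fin d → ℝ, Pos x → x - x₀ ∈ stoichiometricSubspace R → R₀ < ∑ i, x i →
      ∃ n, Allowed (diffs R) δ n ∧ (∀ n', Allowed (diffs R) δ n' → phi x n' ≤ phi x n) ∧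
        (∀ e ∈ diffs R, 0 < dot e n → K ≤ lev e x) ∧
        V x - Real.exp δ * ∑ i, x i ≤ phi x n := by
  intro x hx hsm hl
  obtain ⟨n, h1, h2, h3, h4, _⟩ := key_structure hx (diffs R)
    (fun e he => (diffs_isInt he).intLike) hB hK0 hδ hδpos hBnn hΛ (by
      intro e he e' he' hle hle'
      apply far_parallel hdim hx₀ hx hsm (diffs_mem_stoich he) (diffs_mem_stoich he')
          (diffs_isInt he) (diffs_isInt he') (hB e he) (hB e' he') hle hle'
      have hmpos : 0 < ∑ i, x i := by linarith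
      have h1 := V_ge_mass hx hd hmpos
      have h2 := hR₀ _ hl
      linarith)
  refine ⟨n, h1, h2, h3, ?_⟩
  have hexp := Real.exp_pos δ
  have hsum : 0 ≤ ∑ i, x i := Finset.sum_nonneg fun i _ => (hx i).le
  rcases h4 with h4 | ⟨_, _, j, _, h4⟩
  · have : 0 ≤ Real.exp δ * ∑ i, x i := by positivity
    linarith
  · have hj : x j ≤ ∑ i, x i := Finset.single_le_sum (f := x) (fun i _ => (hx i).le)
      (Finset.mem_univ j)
    have := mul_le_mul_of_nonneg_left hj hexp.le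
    linarith

/-- The bound on the mass, uniform over initial data of bounded mass in the stoichiometric
class of `x₀`. -/
theorem mass_bound_of_finrank_le_two {R : Finset (Reaction d)} (hWR : WeaklyReversible R)
    (hdim : Module.finrank ℝ (stoichiometricSubspace R) ≤ 2) {ε : ℝ} (hε : 0 < ε)
    {x₀ : Fin d → ℝ} (hx₀ : ∀ i, 0 < x₀ i) (ρ : ℝ) :
    ∃ C : ℝ, ∀ (T : ℝ) (k : ℝ → Reaction d → ℝ) (x : ℝ → Fin d → ℝ),
      (∀ t, ∀ r ∈ R, ε ≤ k t r ∧ k t r ≤ ε⁻¹) →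
      x 0 - x₀ ∈ stoichiometricSubspace R → ∑ i, x 0 i ≤ ρ →
      ContinuousOn x (Set.Ico 0 T) →
      (∀ t ∈ Set.Ico 0 T, ∀ i, 0 < x t i) →
      (∀ t ∈ Set.Ioo 0 T, HasDerivAt x (massAction R (k t) (x t)) t) →
      ∀ t ∈ Set.Ico 0 T, ∑ i, x t i ≤ C := by
  classical
  rcases Nat.eq_zero_or_pos d with hd0 | hd
  · subst hd0
    exact ⟨0, fun _ _ _ _ _ _ _ _ _ _ _ => by simp⟩
  obtain ⟨B, hB1, hB⟩ := exists_bound_diffs R
  have hdpos : (0 : ℝ) < d := by exact_mod_cast hd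
  have hBpos : 0 < B := by linarith
  obtain ⟨K, hKdef⟩ : ∃ K : ℝ, K = (R.card : ℝ) / ε ^ 2 := ⟨_, rfl⟩
  have hK0 : 0 ≤ K := by
    rw [hKdef]
    positivity
  have hKexp : (R.card : ℝ) / ε ^ 2 ≤ Real.exp K := by
    have := Real.add_one_le_exp K
    rw [← hKdef]
    linarith
  obtain ⟨δ, hδdef⟩ : ∃ δ : ℝ, δ = K + d * B * (2 + Real.exp K) + 1 := ⟨_, rfl⟩
  have hδ : K + d * B * (2 + Real.exp K) ≤ δ := by linarith
  have hδpos : 0 < δ := by
    have h1 : 0 ≤ (d : ℝ) * B * (2 + Real.exp K) := by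
      have := Real.exp_pos K
      positivity
    linarith
  obtain ⟨Λ, hΛdef⟩ : ∃ Λ : ℝ, Λ = δ + K + 2 * δ * d * B := ⟨_, rfl⟩
  have hΛ : δ + K + 2 * δ * d * B ≤ Λ := hΛdef.ge
  have hΛpos : 0 < Λ := by
    have h1 : 0 ≤ 2 * δ * d * B := by positivity
    linarith
  have hρ₀ : 0 ≤ ∑ i, x₀ i := Finset.sum_nonneg fun i _ => (hx₀ i).le
  obtain ⟨R₀', hR₀1', hR₀'⟩ := exists_threshold hd (4 * B * Λ)
    (V x₀ + 4 * B * Λ * ∑ i, x₀ i) (by positivity)
  obtain ⟨R₀, hR₀def⟩ : ∃ R₀ : ℝ, R₀ = max R₀' ρ := ⟨_, rfl⟩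
  have hR₀1 : 1 ≤ R₀ := by
    rw [hR₀def]
    exact le_trans hR₀1' (le_max_left _ _)
  have hR₀ρ : ρ ≤ R₀ := by
    rw [hR₀def]
    exact le_max_right _ _
  have hR₀ : ∀ ρ, R₀ < ρ → (4 * B * Λ) * ρ + (V x₀ + 4 * B * Λ * ∑ i, x₀ i)
      < ρ * Real.log (ρ / d) - ρ := by
    intro ρ hρ
    apply hR₀'
    rw [hR₀def] at hρ
    exact lt_of_le_of_lt (le_max_left _ _) hρ
  obtain ⟨R₁', _, hR₁'⟩ := exists_threshold hd (Real.exp δ)
    (R₀ * Real.log R₀) (Real.exp_pos δ).le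
  obtain ⟨R₁, hR₁def⟩ : ∃ R₁ : ℝ, R₁ = max R₀ R₁' := ⟨_, rfl⟩
  have hR₀R₁ : R₀ ≤ R₁ := by
    rw [hR₁def]
    exact le_max_left _ _
  have hlarge : ∀ ρ, R₁ < ρ → Real.exp δ * ρ + R₀ * Real.log R₀ < ρ * Real.log (ρ / d) - ρ := by
    intro ρ hρ
    apply hR₁'
    rw [hR₁def] at hρ
    exact lt_of_le_of_lt (le_max_right _ _) hρ
  have hkey := far_key hdim hx₀ hd hB hBpos.le hK0 hδ hδpos hΛ hR₀ hR₀1
  refine ⟨R₁, ?_⟩
  intro T k x hk hx0 hmass hcont hpos hderiv t ht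
  exact dynamic_bound hWR hε hd hKexp (Finset.Subset.refl _) hR₀1 hR₀R₁ hkey hlarge
    hk hx0 (le_trans hmass hR₀ρ) hcont hpos hderiv ht

/-- The main theorem of this file. -/
theorem bounded_of_finrank_le_two {R : Finset (Reaction d)} (hWR : WeaklyReversible R)
    (hdim : Module.finrank ℝ (stoichiometricSubspace R) ≤ 2) {ε : ℝ} (hε : 0 < ε)
    {x₀ : Fin d → ℝ} (hx₀ : ∀ i, 0 < x₀ i) :
    ∃ C : ℝ, ∀ (T : ℝ) (k : ℝ → Reaction d → ℝ) (x : ℝ → Fin d → ℝ),
      (∀ t, ∀ r ∈ R, ε ≤ k t r ∧ k t r ≤ ε⁻¹) →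
      x 0 = x₀ →
      ContinuousOn x (Set.Ico 0 T) →
      (∀ t ∈ Set.Ico 0 T, ∀ i, 0 < x t i) →
      (∀ t ∈ Set.Ioo 0 T, HasDerivAt x (massAction R (k t) (x t)) t) →
      ∀ t ∈ Set.Ico 0 T, ∀ i, x t i ≤ C := by
  obtain ⟨C, hC⟩ := mass_bound_of_finrank_le_two hWR hdim hε hx₀ (∑ i, x₀ i)
  refine ⟨C, ?_⟩
  intro T k x hk hx0 hcont hpos hderiv t ht i
  have hsum := hC T k x hk (by rw [hx0, sub_self]; exact Submodule.zero_mem _)
    (by rw [hx0]) hcont hpos hderiv t ht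
  have hxle : x t i ≤ ∑ j, x t j := Finset.single_le_sum (f := fun j => x t j)
    (fun j _ => (hpos t ht j).le) (Finset.mem_univ i)
  linarith

end Vale.Agent.Lib.P072
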