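import Vale.Agent.Lib.P072.Picard

/-!
Permanence for measurable rates: the statement assembled from the previous parts.
-/

namespace Vale.Agent.Lib.P072

open Finset Filter Topology MeasureTheory

variable {d : ℕ}

/-- A global solution in integrated form is a weak solution on every interval. -/
lemma wsol_all {R : Finset (Reaction d)} {k : ℝ → Reaction d → ℝ} {ε : ℝ}
    {x : ℝ → Fin d → ℝ} (hε : 0 < ε)
    (hkm : ∀ r ∈ R, Measurable fun t => k t r) (hk : ∀ t, ∀ r ∈ R, ε ≤ k t r ∧ k t r ≤ ε⁻¹)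
    (hcont : ContinuousOn x (Set.Ici 0)) (hpos : ∀ t, 0 ≤ t → ∀ i, 0 < x t i)
    (hint : ∀ t, 0 ≤ t → x t = x 0 + ∫ s in (0 : ℝ)..t, massAction R (k s) (x s)) (T : ℝ) :
    WSol R ε T k x := by
  have h1 : WSol R ε (max T 0) k x :=
    wsol_of_integral hε hkm hk (le_max_right _ _) (hcont.mono fun s hs => hs.1)
      (fun t ht => hpos t ht.1) (fun t ht => hint t ht.1)
  exact h1.restrict (le_max_left _ _)

/-- Existence, uniqueness, and differentiability almost everywhere for measurable rates. -/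
theorem exists_unique_meas {R : Finset (Reaction d)} (hWR : WeaklyReversible R) {ε : ℝ}
    (hε : 0 < ε) {k : ℝ → Reaction d → ℝ} (hkm : ∀ r ∈ R, Measurable fun t => k t r)
    (hk : ∀ t, ∀ r ∈ R, ε ≤ k t r ∧ k t r ≤ ε⁻¹) {x₀ : Fin d → ℝ} (hx₀ : ∀ i, 0 < x₀ i) :
    ∃ x : ℝ → Fin d → ℝ, ContinuousOn x (Set.Ici 0) ∧ (∀ t, 0 ≤ t → ∀ i, 0 < x t i) ∧
      (∀ t, 0 ≤ t → x t = x₀ + ∫ s in (0 : ℝ)..t, massAction R (k s) (x s)) ∧
      (∀ᵐ t, 0 < t → HasDerivAt x (massAction R (k t) (x t)) t) ∧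
      ∀ (T : ℝ) (z : ℝ → Fin d → ℝ), 0 ≤ T → ContinuousOn z (Set.Icc 0 T) →
        (∀ t ∈ Set.Icc 0 T, z t = x₀ + ∫ s in (0 : ℝ)..t, massAction R (k s) (z s)) →
        ∀ t ∈ Set.Icc 0 T, z t = x t := by
  obtain ⟨x, hxc, hxp, hxi⟩ := global_meas hWR hε hkm hk hx₀
  have hx0 : x 0 = x₀ := by simpa using hxi 0 le_rfl
  have hxi' : ∀ t, 0 ≤ t → x t = x 0 + ∫ s in (0 : ℝ)..t, massAction R (k s) (x s) := by
    rw [hx0]
    exact hxi
  refine ⟨x, hxc, hxp, hxi, ?_, ?_⟩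
  · have hall : ∀ n : ℕ, ∀ᵐ t, t ∈ Set.Ioo (0 : ℝ) n → HasDerivAt x (massAction R (k t) (x t)) t :=
      fun n => (wsol_all hε hkm hk hxc hxp hxi' n).ode
    filter_upwards [ae_all_iff.mpr hall] with t ht ht0
    obtain ⟨n, hn⟩ := exists_nat_gt t
    exact ht n ⟨ht0, hn⟩
  · intro T z hT hzc hzi t ht
    exact unique_integral hε hkm hk hT hzc (hxc.mono fun s hs => hs.1) hzi
      (fun s hs => hxi s hs.1) t ht

/-- The attractor for measurable rates. -/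
theorem attractor_meas {R : Finset (Reaction d)} (hWR : WeaklyReversible R) {ε : ℝ}
    (hε : 0 < ε) {c : Fin d → ℝ} (hc : ∀ i, 0 < c i) :
    ∃ K : Set (Fin d → ℝ), IsCompact K ∧
      (∀ y ∈ K, (∀ i, 0 < y i) ∧ y - c ∈ stoichiometricSubspace R) ∧
      ∀ (k : ℝ → Reaction d → ℝ) (x : ℝ → Fin d → ℝ),
        (∀ r ∈ R, Measurable fun t => k t r) →
        (∀ t, ∀ r ∈ R, ε ≤ k t r ∧ k t r ≤ ε⁻¹) →
        x 0 - c ∈ stoichiometricSubspace R →
        ContinuousOn x (Set.Ici 0) →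
        (∀ t, 0 ≤ t → ∀ i, 0 < x t i) →
        (∀ t, 0 ≤ t → x t = x 0 + ∫ s in (0 : ℝ)..t, massAction R (k s) (x s)) →
        ∃ t₀, ∀ t, t₀ ≤ t → x t ∈ K := by
  obtain ⟨K, hK, hKc, hKa⟩ := attractor_weak hWR hε hc
  refine ⟨K, hK, hKc, ?_⟩
  intro k x hkm hk hS hcont hpos hint
  exact hKa k x (fun T => wsol_all hε hkm hk hcont hpos hint T) hS

end Vale.Agent.Lib.P072
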