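import Vale.Agent.Lib.P072.Defs
import Vale.Agent.Lib.P072.Lyapunov
import Vale.Agent.Lib.P072.Level

/-!
Network facts: differences of complexes, the stoichiometric subspace, the drift inequality.
-/

namespace Vale.Agent.Lib.P072

open Finset

variable {d : ℕ}

/-- Real version of a complex. -/
def vec (y : Fin d → ℕ) : Fin d → ℝ := fun i => (y i : ℝ)

/-- Integer entries. -/
def IsInt (e : Fin d → ℝ) : Prop := ∀ i, ∃ z : ℤ, e i = z

lemma IsInt.intLike {e : Fin d → ℝ} (h : IsInt e) : IntLike e := by
  intro i hi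
  obtain ⟨z, hz⟩ := h i
  rw [hz] at hi ⊢
  have hz0 : z ≠ 0 := by
    intro h0
    apply hi
    simp [h0]
  have := Int.one_le_abs hz0
  have h2 : ((1 : ℤ) : ℝ) ≤ ((|z| : ℤ) : ℝ) := by exact_mod_cast this
  simpa using h2

lemma isInt_vec_sub (a b : Fin d → ℕ) : IsInt (vec a - vec b) := by
  intro i
  refine ⟨(a i : ℤ) - (b i : ℤ), ?_⟩
  simp [vec]

/-- The complexes of a network. -/
def complexes [DecidableEq (Fin d → ℕ)] (R : Finset (Reaction d)) : Finset (Fin d → ℕ) :=
  R.image Prod.fst ∪ R.image Prod.snd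

open Classical in
/-- Differences of mutually reachable complexes. -/
noncomputable def diffs (R : Finset (Reaction d)) : Finset (Fin d → ℝ) :=
  (((complexes R) ×ˢ (complexes R)).filter (fun p => Conn R p.1 p.2)).image
    (fun p => vec p.1 - vec p.2)

lemma conn_mem {R : Finset (Reaction d)} {a b : Fin d → ℕ} (h : Conn R a b) (hab : a ≠ b) :
    a ∈ complexes R ∧ b ∈ complexes R := by
  constructor
  · rcases Relation.ReflTransGen.cases_head h.1 with h0 | ⟨c, hc, _⟩
    · exact absurd h0 hab
    · exact Finset.mem_union_left _ (Finset.mem_image.mpr ⟨(a, c), hc, rfl⟩)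
  · rcases Relation.ReflTransGen.cases_tail h.1 with h0 | ⟨c, _, hc⟩
    · exact absurd h0.symm hab
    · exact Finset.mem_union_right _ (Finset.mem_image.mpr ⟨(c, b), hc, rfl⟩)

lemma mem_diffs {R : Finset (Reaction d)} {a b : Fin d → ℕ} (h : Conn R a b)
    (hab : a ≠ b) : vec a - vec b ∈ diffs R := by
  classical
  obtain ⟨ha, hb⟩ := conn_mem h hab
  unfold diffs
  refine Finset.mem_image.mpr ⟨(a, b), ?_, rfl⟩
  exact Finset.mem_filter.mpr ⟨Finset.mem_product.mpr ⟨ha, hb⟩, h⟩

lemma reach_sub_mem {R : Finset (Reaction d)} {a b : Fin d → ℕ} (h : Reach R a b) :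
    vec b - vec a ∈ stoichiometricSubspace R := by
  induction h with
  | refl => simp
  | @tail c e _ hce ih =>
    have h1 : vec e - vec c ∈ stoichiometricSubspace R := by
      apply Submodule.subset_span
      refine ⟨(c, e), hce, ?_⟩
      funext i
      simp [reactionVector, vec]
    have h2 := Submodule.add_mem _ ih h1
    have h3 : vec c - vec a + (vec e - vec c) = vec e - vec a := by abel
    rwa [h3] at h2

lemma diffs_mem_stoich {R : Finset (Reaction d)} {e : Fin d → ℝ} (he : e ∈ diffs R) :
    e ∈ stoichiometricSubspace R := by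
  classical
  unfold diffs at he
  obtain ⟨p, hp, rfl⟩ := Finset.mem_image.mp he
  exact reach_sub_mem (Finset.mem_filter.mp hp).2.2

lemma diffs_isInt {R : Finset (Reaction d)} {e : Fin d → ℝ} (he : e ∈ diffs R) : IsInt e := by
  classical
  unfold diffs at he
  obtain ⟨p, _, rfl⟩ := Finset.mem_image.mp he
  exact isInt_vec_sub _ _

lemma massAction_mem_stoich (R : Finset (Reaction d)) (k : Reaction d → ℝ) (x : Fin d → ℝ) :
    massAction R k x ∈ stoichiometricSubspace R := by
  have : massAction R k x = ∑ r ∈ R, (k r * ∏ j, x j ^ r.1 j) • reactionVector r := by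
    funext i
    simp [massAction, Finset.sum_apply]
  rw [this]
  apply Submodule.sum_mem
  intro r hr
  apply Submodule.smul_mem
  exact Submodule.subset_span ⟨r, hr, rfl⟩

/-- The value of a monomial. -/
lemma mono_eq {x : Fin d → ℝ} (hx : Pos x) (y : Fin d → ℕ) :
    ∏ j, x j ^ y j = Real.exp (dot (vec y) (lg x)) := by
  unfold dot
  rw [Real.exp_sum]
  apply Finset.prod_congr rfl
  intro j _
  unfold vec lg
  rw [Real.exp_nat_mul, Real.exp_log (hx j)]

/-- The drift of a gradient field along the mass-action field, from the level inequality. -/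
lemma drift_nonpos {R : Finset (Reaction d)} (hWR : WeaklyReversible R)
    {k : Reaction d → ℝ} {ε : ℝ} (hε : 0 < ε) (hk : ∀ r ∈ R, ε ≤ k r ∧ k r ≤ ε⁻¹)
    {x n : Fin d → ℝ} (hx : Pos x) {K : ℝ} (hK : (R.card : ℝ) / ε ^ 2 ≤ Real.exp K)
    (hn : ∀ e ∈ diffs R, 0 < dot e n → K ≤ lev e x) :
    dot n (massAction R k x) ≤ 0 := by
  have hexpand : dot n (massAction R k x)
      = ∑ r ∈ R, k r * (∏ j, x j ^ r.1 j) * (dot (vec r.2) n - dot (vec r.1) n) := by
    unfold dot massAction
    simp_rw [Finset.mul_sum]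
    rw [Finset.sum_comm]
    apply Finset.sum_congr rfl
    intro r _
    rw [← Finset.sum_sub_distrib, Finset.mul_sum]
    apply Finset.sum_congr rfl
    intro i _
    unfold reactionVector vec
    ring
  rw [hexpand]
  apply level_sum R hWR (fun y => ∏ j, x j ^ y j)
    (fun a => by
      rw [mono_eq hx]
      exact Real.exp_pos _) k ε hε hk (Real.exp K) hK (fun y => dot (vec y) n)
  intro a b hab hlt
  have hne : a ≠ b := by
    rintro rfl
    exact lt_irrefl _ hlt
  have hmem := mem_diffs hab hne
  have hdot : 0 < dot (vec a - vec b) n := by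
    have : dot (vec a - vec b) n = dot (vec a) n - dot (vec b) n := by
      unfold dot
      rw [← Finset.sum_sub_distrib]
      apply Finset.sum_congr rfl
      intro i _
      simp only [Pi.sub_apply]
      ring
    rw [this]
    linarith
  have hle := hn _ hmem hdot
  rw [mono_eq hx, mono_eq hx, ← Real.exp_add]
  apply Real.exp_le_exp.mpr
  have h1 : lev (vec a - vec b) x = dot (vec a) (lg x) - dot (vec b) (lg x) := by
    unfold lev dot
    rw [← Finset.sum_sub_distrib]
    apply Finset.sum_congr rfl
    intro i _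
    simp only [Pi.sub_apply]
    ring
  rw [h1] at hle
  linarith

/-- Solutions stay in their stoichiometric class. -/
lemma sub_mem_stoich {R : Finset (Reaction d)} {k : ℝ → Reaction d → ℝ} {x : ℝ → Fin d → ℝ}
    {T : ℝ} (hc : ContinuousOn x (Set.Ico 0 T))
    (hd : ∀ t ∈ Set.Ioo 0 T, HasDerivAt x (massAction R (k t) (x t)) t)
    {t : ℝ} (ht : t ∈ Set.Ico 0 T) : x t - x 0 ∈ stoichiometricSubspace R := by
  by_contra hnot
  obtain ⟨f, hf, hker⟩ := Submodule.exists_le_ker_of_notMem hnot
  rcases eq_or_lt_of_le ht.1 with h0 | hpos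
  · apply hf
    rw [← h0]
    simp
  · set F := LinearMap.toContinuousLinearMap f with hF
    have hcont : ContinuousOn (fun s => F (x s)) (Set.Icc 0 t) := by
      apply F.continuous.comp_continuousOn
      apply hc.mono
      intro s hs
      exact ⟨hs.1, lt_of_le_of_lt hs.2 ht.2⟩
    have hderiv : ∀ s ∈ Set.Ioo 0 t, HasDerivAt (fun s => F (x s)) (0 : ℝ) s := by
      intro s hs
      have h1 := hd s ⟨hs.1, lt_trans hs.2 ht.2⟩
      have h2 := F.hasFDerivAt.comp_hasDerivAt s h1
      have h3 : F (massAction R (k s) (x s)) = 0 := by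
        have := hker (massAction_mem_stoich R (k s) (x s))
        simpa [hF] using this
      rw [h3] at h2
      exact h2
    obtain ⟨c, _, hc'⟩ := exists_hasDerivAt_eq_slope (fun s => F (x s)) (fun _ => (0 : ℝ)) hpos
      hcont hderiv
    have h4 : F (x t) - F (x 0) = 0 := by
      have htne : t - 0 ≠ 0 := by linarith
      field_simp at hc'
      linarith
    apply hf
    have : f (x t - x 0) = F (x t) - F (x 0) := by
      simp [hF]
    rw [this, h4]

end Vale.Agent.Lib.P072
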