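import Vale.Agent.Lib.P072.Global

/-!
Permanence of weakly reversible mass-action systems with stoichiometric subspace of dimension at
most two.
-/

namespace Vale.Agent.Lib.P072

variable {d : ℕ}

/-- Global existence and uniqueness of positive solutions for constant rates. -/
theorem global_of_finrank_le_two {R : Finset (Reaction d)} (hWR : WeaklyReversible R)
    (hdim : Module.finrank ℝ (stoichiometricSubspace R) ≤ 2)
    {k : Reaction d → ℝ} (hkpos : ∀ r ∈ R, 0 < k r) {x₀ : Fin d → ℝ} (hx₀ : ∀ i, 0 < x₀ i) :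
    ∃ x : ℝ → Fin d → ℝ, x 0 = x₀ ∧ ContinuousOn x (Set.Ici 0) ∧
      (∀ t, 0 ≤ t → ∀ i, 0 < x t i) ∧
      (∀ t, 0 < t → HasDerivAt x (massAction R k (x t)) t) ∧
      ∀ (T : ℝ) (z : ℝ → Fin d → ℝ), z 0 = x₀ → ContinuousOn z (Set.Ico 0 T) →
        (∀ t ∈ Set.Ioo 0 T, HasDerivAt z (massAction R k (z t)) t) →
        ∀ t ∈ Set.Ico 0 T, z t = x t := by
  obtain ⟨ε, hε, hk⟩ := exists_eps hkpos
  obtain ⟨C, hC⟩ := mass_bound_of_finrank_le_two hWR hdim hε hx₀ (∑ i, x₀ i)
  obtain ⟨r₀, hr₀, hr₀le⟩ := exists_min_coord hx₀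
  obtain ⟨r, hr, hrl⟩ := lower_bound_of_finrank_le_two hWR hdim hε hx₀ C hr₀
  have hx₀le : ∀ i, x₀ i ≤ max C (∑ i, x₀ i) := by
    intro i
    have h1 : x₀ i ≤ ∑ i, x₀ i := Finset.single_le_sum (f := x₀) (fun j _ => (hx₀ j).le)
      (Finset.mem_univ i)
    exact le_trans h1 (le_max_right _ _)
  obtain ⟨x, hx0, hxc, hxp, hxd⟩ := global_solution (R := R) (k := k) hx₀
    (M := max C (∑ i, x₀ i)) (r := min r r₀) (lt_min hr hr₀) hx₀le
    (fun i => le_trans (min_le_right _ _) (hr₀le i)) (by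
      intro T y hy0 hyc hyp hyd t ht
      have hS : y 0 - x₀ ∈ stoichiometricSubspace R := by
        rw [hy0, sub_self]
        exact Submodule.zero_mem _
      have hmass : ∀ t ∈ Set.Ico 0 T, ∑ i, y t i ≤ C :=
        hC T (fun _ => k) y (fun _ => hk) hS (by rw [hy0]) hyc hyp hyd
      have hlow := hrl T (fun _ => k) y (fun _ => hk) hS (fun i => by rw [hy0]; exact hr₀le i)
        hyc hyp hyd hmass t ht
      constructor
      · intro i
        have h1 : y t i ≤ ∑ j, y t j := Finset.single_le_sum (f := fun j => y t j)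
          (fun j _ => (hyp t ht j).le) (Finset.mem_univ i)
        exact le_trans (le_trans h1 (hmass t ht)) (le_max_left _ _)
      · intro i
        exact le_trans (min_le_left _ _) (hlow i))
  refine ⟨x, hx0, hxc, hxp, hxd, ?_⟩
  intro T z hz0 hzc hzd t ht
  exact unique_Ico (massAction_contDiff R k) hzc (hxc.mono (fun s hs => hs.1)) hzd
    (fun s hs => hxd s hs.1) (by rw [hz0, hx0]) ht

end Vale.Agent.Lib.P072
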