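import Vale.Agent.Lib.P072.Reduced

/-!
The lower bound for solutions: induction on the number of small coordinates.
-/

namespace Vale.Agent.Lib.P072

open Finset

variable {d : ℕ}

/-- The reduced far out lemma: when all coordinates in `I` are small, two flat reduced
directions are parallel. -/
lemma reduced_par {S : Submodule ℝ (Fin d → ℝ)} (hS : Module.finrank ℝ S ≤ 2)
    {c x : Fin d → ℝ} (hc : Pos c) (hx : Pos x) (hxS : x - c ∈ S)
    {I : Finset (Fin d)} {e₁ e₂ : Fin d → ℝ} (he₁ : e₁ ∈ S) (he₂ : e₂ ∈ S)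
    (hint₁ : IsInt e₁) (hint₂ : IsInt e₂)
    {B Λ ρ c₀ ρ' : ℝ} (hBnn : 0 ≤ B) (hB₁ : ∀ i, |e₁ i| ≤ B) (hB₂ : ∀ i, |e₂ i| ≤ B)
    (hρ : ∑ i, x i + ∑ i, c i ≤ ρ) (hc₀ : ∀ i, c₀ ≤ c i) (hρ'pos : 0 < ρ')
    (hρ'c : 2 * ρ' ≤ c₀) (hρ'1 : ρ' ≤ 1) (hI : I.Nonempty) (hxI : ∀ i ∈ I, x i < ρ')
    (hbig : 4 * B * Λ * ρ < (c₀ / 2) * (-Real.log ρ'))
    (hl₁ : |lev (res I e₁) (hat I x)| < Λ) (hl₂ : |lev (res I e₂) (hat I x)| < Λ) :
    Par (res I e₁) (res I e₂) := by
  classical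
  by_contra hnp
  have hT : Module.finrank ℝ (S.map (resL I)) ≤ 2 :=
    le_trans (Submodule.finrank_map_le _ _) hS
  have hv : ∀ k, |res I (x - c) k| ≤ ρ := by
    intro k
    have h1 := abs_sub_le_masses hx hc k
    have h0 : 0 ≤ ρ := le_trans (le_trans (abs_nonneg _) h1) hρ
    apply abs_res_le I h0
    intro i
    exact le_trans (abs_sub_le_masses hx hc i) hρ
  obtain ⟨a, b, hcoord, ha, hb⟩ := cramer_bound (e := res I e₁) (e' := res I e₂)
    (v := res I (x - c)) hT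
    (Submodule.mem_map_of_mem (f := resL I) he₁) (Submodule.mem_map_of_mem (f := resL I) he₂)
    (Submodule.mem_map_of_mem (f := resL I) hxS) (isInt_res I hint₁) (isInt_res I hint₂)
    (abs_res_le I hBnn hB₁) (abs_res_le I hBnn hB₂) hv hnp
  have hpair := pair_le (y := hat I x) hcoord ha hb hl₁ hl₂
  rw [sum_res_log] at hpair
  have hlogρ : Real.log ρ' ≤ 0 := Real.log_nonpos hρ'pos.le hρ'1
  have hterm : ∀ i ∈ I, (c₀ / 2) * (-Real.log ρ') ≤ (x - c) i * Real.log (x i) := by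
    intro i hi
    have hxi := hxI i hi
    have hxpos := hx i
    have h1 : Real.log (x i) ≤ Real.log ρ' := Real.log_le_log hxpos hxi.le
    have h2 : c₀ / 2 ≤ c i - x i := by
      have := hc₀ i
      linarith
    have h3 : (c₀ / 2) * (-Real.log ρ') ≤ (c i - x i) * (-Real.log (x i)) :=
      mul_le_mul h2 (by linarith) (by linarith) (by linarith)
    simp only [Pi.sub_apply]
    nlinarith
  have hc₀pos : 0 < c₀ := by linarith
  have hnn : ∀ i ∈ I, 0 ≤ (x - c) i * Real.log (x i) := by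
    intro i hi
    refine le_trans ?_ (hterm i hi)
    apply mul_nonneg (by linarith) (by linarith)
  obtain ⟨i₀, hi₀⟩ := hI
  have hsingle := Finset.single_le_sum hnn hi₀
  have h5 := hterm i₀ hi₀
  have : 2 * (2 * (ρ * B)) * Λ = 4 * B * Λ * ρ := by ring
  linarith

/-- One step of the induction on the number of small coordinates. -/
lemma lower_step {R : Finset (Reaction d)} (hWR : WeaklyReversible R)
    (hdim : Module.finrank ℝ (stoichiometricSubspace R) ≤ 2) {ε : ℝ} (hε : 0 < ε)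
    {c : Fin d → ℝ} (hc : ∀ i, 0 < c i) (R₁ : ℝ) {r₀ : ℝ} (hr₀ : 0 < r₀) (m : ℕ) (hm : 1 ≤ m)
    {rp : ℝ} (hrp : 0 < rp)
    (Hm : ∀ (T : ℝ) (k : ℝ → Reaction d → ℝ) (x : ℝ → Fin d → ℝ),
      (∀ t, ∀ r ∈ R, ε ≤ k t r ∧ k t r ≤ ε⁻¹) →
      x 0 - c ∈ stoichiometricSubspace R → (∀ i, r₀ ≤ x 0 i) →
      ContinuousOn x (Set.Ico 0 T) →
      (∀ t ∈ Set.Ico 0 T, ∀ i, 0 < x t i) →
      (∀ t ∈ Set.Ioo 0 T, HasDerivAt x (massAction R (k t) (x t)) t) →
      (∀ t ∈ Set.Ico 0 T, ∑ i, x t i ≤ R₁) →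
      ∀ t ∈ Set.Ico 0 T, (Finset.univ.filter (fun i => x t i < rp)).card < m + 1) :
    ∃ r : ℝ, 0 < r ∧ ∀ (T : ℝ) (k : ℝ → Reaction d → ℝ) (x : ℝ → Fin d → ℝ),
      (∀ t, ∀ r ∈ R, ε ≤ k t r ∧ k t r ≤ ε⁻¹) →
      x 0 - c ∈ stoichiometricSubspace R → (∀ i, r₀ ≤ x 0 i) →
      ContinuousOn x (Set.Ico 0 T) →
      (∀ t ∈ Set.Ico 0 T, ∀ i, 0 < x t i) →
      (∀ t ∈ Set.Ioo 0 T, HasDerivAt x (massAction R (k t) (x t)) t) →
      (∀ t ∈ Set.Ico 0 T, ∑ i, x t i ≤ R₁) →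
      ∀ t ∈ Set.Ico 0 T, (Finset.univ.filter (fun i => x t i < r)).card < m := by
  classical
  obtain ⟨B, hB1, hB⟩ := exists_bound_diffs R
  have hBnn : 0 ≤ B := by linarith
  obtain ⟨c₀, hc₀, hc₀le⟩ := exists_min_coord hc
  have hdnn : (0 : ℝ) ≤ d := Nat.cast_nonneg d
  obtain ⟨L, hLdef⟩ : ∃ L : ℝ, L = |Real.log rp| + |Real.log (max R₁ 1)| := ⟨_, rfl⟩
  have hL0 : 0 ≤ L := by
    rw [hLdef]
    positivity
  obtain ⟨K, hKdef⟩ : ∃ K : ℝ, K = (R.card : ℝ) / ε ^ 2 := ⟨_, rfl⟩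
  have hK0 : 0 ≤ K := by
    rw [hKdef]
    positivity
  have hKexp : (R.card : ℝ) / ε ^ 2 ≤ Real.exp K := by
    have := Real.add_one_le_exp K
    rw [← hKdef]
    linarith
  obtain ⟨K', hK'def⟩ : ∃ K' : ℝ, K' = K + d * B * L := ⟨_, rfl⟩
  have hK'0 : 0 ≤ K' := by
    rw [hK'def]
    positivity
  obtain ⟨δ, hδdef⟩ : ∃ δ : ℝ, δ = K' + d * B * (2 + Real.exp K') + 1 := ⟨_, rfl⟩
  have hδ : K' + d * B * (2 + Real.exp K') ≤ δ := by linarith
  have hδpos : 0 < δ := by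
    have h1 : 0 ≤ (d : ℝ) * B * (2 + Real.exp K') := by
      have := Real.exp_pos K'
      positivity
    linarith
  obtain ⟨Λ, hΛdef⟩ : ∃ Λ : ℝ, Λ = δ + K' + 2 * δ * d * B := ⟨_, rfl⟩
  have hΛ : δ + K' + 2 * δ * d * B ≤ Λ := hΛdef.ge
  have hΛpos : 0 < Λ := by
    have h1 : 0 ≤ 2 * δ * d * B := by positivity
    linarith
  obtain ⟨ρ, hρdef⟩ : ∃ ρ : ℝ, ρ = max R₁ 1 + ∑ i, c i := ⟨_, rfl⟩
  have hρpos : 0 ≤ ρ := by
    have h1 : 1 ≤ max R₁ 1 := le_max_right _ _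
    have h2 : 0 ≤ ∑ i, c i := Finset.sum_nonneg fun i _ => (hc i).le
    rw [hρdef]
    linarith
  obtain ⟨ρ', hρ'def⟩ : ∃ ρ' : ℝ, ρ' = min (min r₀ rp) (min (c₀ / 2) (min 1
      (Real.exp (-(2 / c₀) * (4 * B * Λ * ρ + 1))))) := ⟨_, rfl⟩
  have hρ'pos : 0 < ρ' := by
    rw [hρ'def]
    have := Real.exp_pos (-(2 / c₀) * (4 * B * Λ * ρ + 1))
    simp only [lt_min_iff]
    exact ⟨⟨hr₀, hrp⟩, by linarith, one_pos, this⟩
  have hρ'r₀ : ρ' ≤ r₀ := by
    rw [hρ'def]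
    exact le_trans (min_le_left _ _) (min_le_left _ _)
  have hρ'rp : ρ' ≤ rp := by
    rw [hρ'def]
    exact le_trans (min_le_left _ _) (min_le_right _ _)
  have hρ'c : 2 * ρ' ≤ c₀ := by
    have : ρ' ≤ c₀ / 2 := by
      rw [hρ'def]
      exact le_trans (min_le_right _ _) (min_le_left _ _)
    linarith
  have hρ'1 : ρ' ≤ 1 := by
    rw [hρ'def]
    exact le_trans (min_le_right _ _) (le_trans (min_le_right _ _) (min_le_left _ _))
  have hρ'e : ρ' ≤ Real.exp (-(2 / c₀) * (4 * B * Λ * ρ + 1)) := by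
    rw [hρ'def]
    exact le_trans (min_le_right _ _) (le_trans (min_le_right _ _) (min_le_right _ _))
  have hbig : 4 * B * Λ * ρ < (c₀ / 2) * (-Real.log ρ') := by
    have h1 : Real.log ρ' ≤ -(2 / c₀) * (4 * B * Λ * ρ + 1) := by
      have := Real.log_le_log hρ'pos hρ'e
      rwa [Real.log_exp] at this
    have h2 : (c₀ / 2) * ((2 / c₀) * (4 * B * Λ * ρ + 1)) ≤ (c₀ / 2) * (-Real.log ρ') := by
      apply mul_le_mul_of_nonneg_left _ (by linarith)
      linarith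
    have h3 : (c₀ / 2) * ((2 / c₀) * (4 * B * Λ * ρ + 1)) = 4 * B * Λ * ρ + 1 := by
      field_simp
    linarith
  have hexpδ := Real.exp_pos δ
  have hdenom : 0 < 2 * (2 * (d : ℝ) + Real.exp δ + 1) := by positivity
  obtain ⟨s, hsdef⟩ : ∃ s : ℝ, s = min 1 (ρ' / (2 * (2 * (d : ℝ) + Real.exp δ + 1))) := ⟨_, rfl⟩
  have hspos : 0 < s := by
    rw [hsdef]
    exact lt_min one_pos (div_pos hρ'pos hdenom)
  have hs1 : s ≤ 1 := by
    rw [hsdef]
    exact min_le_left _ _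
  have hsmul : s * (2 * (2 * (d : ℝ) + Real.exp δ + 1)) ≤ ρ' := by
    have : s ≤ ρ' / (2 * (2 * (d : ℝ) + Real.exp δ + 1)) := by
      rw [hsdef]
      exact min_le_right _ _
    rwa [le_div_iff₀ hdenom] at this
  have hsρ : s * (2 * d + Real.exp δ) < ρ' := by
    have : 0 < s * (2 * (2 * (d : ℝ) + Real.exp δ + 1)) - s * (2 * d + Real.exp δ) := by
      have h1 : s * (2 * (2 * (d : ℝ) + Real.exp δ + 1)) - s * (2 * d + Real.exp δ)
          = s * (2 * d + Real.exp δ + 2) := by ring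
      rw [h1]
      positivity
    linarith
  have hs2 : s ^ 2 ≤ s := by nlinarith
  have hsleρ : s ≤ ρ' := by
    have h1 : s * 1 ≤ s * (2 * (2 * (d : ℝ) + Real.exp δ + 1)) := by
      apply mul_le_mul_of_nonneg_left _ hspos.le
      nlinarith
    linarith
  refine ⟨s ^ 2, by positivity, ?_⟩
  intro T k x hk hx0 hr0 hcont hpos hderiv hmass t ht
  by_contra hcard
  push Not at hcard
  set I := Finset.univ.filter (fun i => x t i < s ^ 2) with hIdef
  have hInon : I.Nonempty := Finset.card_pos.mp (by omega)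
  have hIt : ∀ i ∈ I, x t i < s ^ 2 := fun i hi => (Finset.mem_filter.mp hi).2
  have h0t : Set.Icc 0 t ⊆ Set.Ico 0 T := fun τ hτ => ⟨hτ.1, lt_of_le_of_lt hτ.2 ht.2⟩
  obtain ⟨t', ht', ⟨i₀, hi₀I, hi₀⟩, hle, hafter⟩ := exists_last_time (I := I) (ρ := ρ')
    (hcont.mono h0t) ht.1
    (by
      obtain ⟨i, hi⟩ := hInon
      exact ⟨i, hi, le_trans hρ'r₀ (hr0 i)⟩)
    (fun i hi => lt_of_lt_of_le (hIt i hi) (le_trans hs2 hsleρ))
  have hsub : ∀ s' ∈ Set.Ioc t' t, s' ∈ Set.Ico 0 T := fun s' hs' =>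
    ⟨le_trans ht'.1 hs'.1.le, lt_of_le_of_lt hs'.2 ht.2⟩
  -- the coordinates off I stay large
  have hoff : ∀ s' ∈ Set.Ioc t' t, ∀ l, l ∉ I → rp ≤ x s' l := by
    intro s' hs' l hl
    by_contra hcon
    push Not at hcon
    have hbound := Hm T k x hk hx0 hr0 hcont hpos hderiv hmass s' (hsub s' hs')
    have hins : insert l I ⊆ Finset.univ.filter (fun i => x s' i < rp) := by
      intro i hi
      rcases Finset.mem_insert.mp hi with rfl | hi
      · exact Finset.mem_filter.mpr ⟨Finset.mem_univ _, hcon⟩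
      · refine Finset.mem_filter.mpr ⟨Finset.mem_univ _, ?_⟩
        exact lt_of_lt_of_le (hafter s' hs' i hi) hρ'rp
    have hc1 := Finset.card_le_card hins
    rw [Finset.card_insert_of_notMem hl] at hc1
    omega
  have hlogL : ∀ s' ∈ Set.Ioc t' t, ∀ l, l ∉ I → |Real.log (x s' l)| ≤ L := by
    intro s' hs' l hl
    have hr := hoff s' hs' l hl
    have hxp := hpos s' (hsub s' hs') l
    have hxle : x s' l ≤ max R₁ 1 := by
      have h1 : x s' l ≤ ∑ i, x s' i := Finset.single_le_sum (f := fun i => x s' i)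
        (fun i _ => (hpos s' (hsub s' hs') i).le) (Finset.mem_univ l)
      exact le_trans (le_trans h1 (hmass s' (hsub s' hs'))) (le_max_left _ _)
    have h1 := Real.log_le_log hrp hr
    have h2 := Real.log_le_log hxp hxle
    have h3 := le_abs_self (Real.log (max R₁ 1))
    have h4 := neg_abs_le (Real.log rp)
    have h5 := abs_nonneg (Real.log rp)
    have h6 := abs_nonneg (Real.log (max R₁ 1))
    rw [abs_le]
    constructor <;> linarith
  have Hl : ∀ s' ∈ Set.Ioc t' t, ∀ e ∈ diffs R, K' ≤ lev (res I e) (hat I (x s')) →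
      K ≤ lev e (x s') := by
    intro s' hs' e he hlev
    rw [lev_split I e (x s')]
    have hsum : |∑ i ∈ Iᶜ, e i * Real.log (x s' i)| ≤ d * B * L := by
      calc |∑ i ∈ Iᶜ, e i * Real.log (x s' i)|
          ≤ ∑ i ∈ Iᶜ, |e i * Real.log (x s' i)| := Finset.abs_sum_le_sum_abs _ _
        _ ≤ ∑ _i ∈ Iᶜ, B * L := by
            apply Finset.sum_le_sum
            intro i hi
            rw [abs_mul]
            exact mul_le_mul (hB e he i) (hlogL s' hs' i (Finset.mem_compl.mp hi))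
              (abs_nonneg _) hBnn
        _ = (Iᶜ.card : ℝ) * (B * L) := by simp
        _ ≤ d * (B * L) := by
            apply mul_le_mul_of_nonneg_right _ (by positivity)
            have : Iᶜ.card ≤ d := by
              simpa using Finset.card_le_univ Iᶜ
            exact_mod_cast this
        _ = d * B * L := by ring
    have := neg_abs_le (∑ i ∈ Iᶜ, e i * Real.log (x s' i))
    linarith
  -- the maximisers
  have hkey : ∀ s' ∈ Set.Ioc t' t, ∃ n, Allowed (redE R I) δ n ∧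
      (∀ n', Allowed (redE R I) δ n' → phi (hat I (x s')) n' ≤ phi (hat I (x s')) n) ∧
      (∀ e ∈ redE R I, 0 < dot e n → K' ≤ lev e (hat I (x s'))) ∧
      (V (hat I (x s')) ≤ phi (hat I (x s')) n ∨
        ∃ e ∈ redE R I, ∃ j, e j ≠ 0 ∧
          V (hat I (x s')) - Real.exp δ * hat I (x s') j ≤ phi (hat I (x s')) n) := by
    intro s' hs'
    have hEint : ∀ e ∈ redE R I, IntLike e := by
      intro e he
      obtain ⟨e₁, he₁, rfl⟩ := mem_redE.mp he
      exact (isInt_res I (diffs_isInt he₁)).intLike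
    have hEB : ∀ e ∈ redE R I, ∀ i, |e i| ≤ B := by
      intro e he i
      obtain ⟨e₁, he₁, rfl⟩ := mem_redE.mp he
      exact abs_res_le I hBnn (hB e₁ he₁) i
    obtain ⟨n, h1, h2, h3, h4, _⟩ := key_structure (pos_hat (hpos s' (hsub s' hs')))
      (redE R I) hEint hEB hK'0 hδ hδpos hBnn hΛ (by
        intro e he e' he' hl hl'
        obtain ⟨e₁, he₁, rfl⟩ := mem_redE.mp he
        obtain ⟨e₂, he₂, rfl⟩ := mem_redE.mp he'
        have hxS : x s' - c ∈ stoichiometricSubspace R := by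
          have := Submodule.add_mem _ (sub_mem_stoich hcont hderiv (hsub s' hs')) hx0
          rwa [sub_add_sub_cancel] at this
        refine reduced_par hdim hc (hpos s' (hsub s' hs')) hxS (diffs_mem_stoich he₁)
          (diffs_mem_stoich he₂) (diffs_isInt he₁) (diffs_isInt he₂) hBnn (hB e₁ he₁)
          (hB e₂ he₂) ?_ hc₀le hρ'pos hρ'c hρ'1 hInon (hafter s' hs') hbig hl hl'
        rw [hρdef]
        exact add_le_add (le_trans (hmass s' (hsub s' hs')) (le_max_left _ _)) le_rfl)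
    exact ⟨n, h1, h2, h3, h4⟩
  have hmono := reduced_mono hWR hε hk hcont hpos hderiv (I := I) hKexp ht'.1 ht'.2.le ht.2
    (fun s' hs' => by
      obtain ⟨n, h1, h2, h3, _⟩ := hkey s' hs'
      exact ⟨n, h1, h2, h3⟩)
    Hl
  -- upper bound at the last time
  have ht'0 : t' ∈ Set.Ico 0 T := ⟨ht'.1, lt_trans ht'.2 ht.2⟩
  have hup : W (redE R I) δ (hat I (x t')) ≤ -ρ' - (Iᶜ.card : ℝ) := by
    have h1 := W_le_V (E := redE R I) (δ := δ) (pos_hat (I := I) (hpos t' ht'0))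
    rw [V_hat] at h1
    have h2 : ∑ i ∈ I, (x t' i * Real.log (x t' i) - x t' i) ≤ -ρ' := by
      rw [← Finset.add_sum_erase I _ hi₀I]
      have h3 : ∑ i ∈ I.erase i₀, (x t' i * Real.log (x t' i) - x t' i) ≤ 0 := by
        apply Finset.sum_nonpos
        intro i hi
        have hiI := Finset.mem_of_mem_erase hi
        have hp := hpos t' ht'0 i
        have := f_upper hp (le_trans (hle i hiI) hρ'1)
        linarith
      have h4 := f_upper (hpos t' ht'0 i₀) (le_trans (hle i₀ hi₀I) hρ'1)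
      linarith
    linarith
  -- lower bound at the final time
  have htmem : t ∈ Set.Ioc t' t := ⟨ht'.2, le_rfl⟩
  obtain ⟨n, hn, _, _, hval⟩ := hkey t htmem
  have hWt := phi_le_W (pos_hat (I := I) (hpos t ht)) hn
  have hVlow : -(2 * (d : ℝ) * s) - (Iᶜ.card : ℝ) ≤ V (hat I (x t)) := by
    rw [V_hat]
    have h1 : ∑ _i ∈ I, (-(2 * s)) ≤ ∑ i ∈ I, (x t i * Real.log (x t i) - x t i) := by
      apply Finset.sum_le_sum
      intro i hi
      exact f_lower (hpos t ht i) (hIt i hi).le hspos hs1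
    have h2 : ∑ _i ∈ I, (-(2 * s)) = (I.card : ℝ) * (-(2 * s)) := by simp
    have h3 : (I.card : ℝ) ≤ d := by
      have : I.card ≤ d := by
        simpa using Finset.card_le_univ I
      exact_mod_cast this
    have h4 : (I.card : ℝ) * (2 * s) ≤ d * (2 * s) :=
      mul_le_mul_of_nonneg_right h3 (by positivity)
    linarith
  have hexps : 0 ≤ Real.exp δ * s := by positivity
  rcases hval with hval | ⟨e, he, j, hej, hval⟩
  · have h1 : s * (2 * d + Real.exp δ) = 2 * d * s + Real.exp δ * s := by ring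
    linarith
  · obtain ⟨e₁, _, rfl⟩ := mem_redE.mp he
    have hjI : j ∈ I := by
      by_contra hj
      apply hej
      simp [res, hj]
    have hhat : hat I (x t) j = x t j := by
      simp [hat, hjI]
    rw [hhat] at hval
    have hxj : x t j ≤ s := le_trans (hIt j hjI).le hs2
    have h2 : Real.exp δ * x t j ≤ Real.exp δ * s :=
      mul_le_mul_of_nonneg_left hxj hexpδ.le
    have h1 : s * (2 * d + Real.exp δ) = 2 * d * s + Real.exp δ * s := by ring
    linarith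

/-- The lower bound along solutions whose mass is bounded. -/
theorem lower_bound_of_finrank_le_two {R : Finset (Reaction d)} (hWR : WeaklyReversible R)
    (hdim : Module.finrank ℝ (stoichiometricSubspace R) ≤ 2) {ε : ℝ} (hε : 0 < ε)
    {c : Fin d → ℝ} (hc : ∀ i, 0 < c i) (R₁ : ℝ) {r₀ : ℝ} (hr₀ : 0 < r₀) :
    ∃ r : ℝ, 0 < r ∧ ∀ (T : ℝ) (k : ℝ → Reaction d → ℝ) (x : ℝ → Fin d → ℝ),
      (∀ t, ∀ r ∈ R, ε ≤ k t r ∧ k t r ≤ ε⁻¹) →
      x 0 - c ∈ stoichiometricSubspace R → (∀ i, r₀ ≤ x 0 i) →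
      ContinuousOn x (Set.Ico 0 T) →
      (∀ t ∈ Set.Ico 0 T, ∀ i, 0 < x t i) →
      (∀ t ∈ Set.Ioo 0 T, HasDerivAt x (massAction R (k t) (x t)) t) →
      (∀ t ∈ Set.Ico 0 T, ∑ i, x t i ≤ R₁) →
      ∀ t ∈ Set.Ico 0 T, ∀ i, r ≤ x t i := by
  classical
  have key : ∀ j : ℕ, j ≤ d → ∃ r : ℝ, 0 < r ∧ ∀ (T : ℝ) (k : ℝ → Reaction d → ℝ)
      (x : ℝ → Fin d → ℝ),
      (∀ t, ∀ r ∈ R, ε ≤ k t r ∧ k t r ≤ ε⁻¹) →
      x 0 - c ∈ stoichiometricSubspace R → (∀ i, r₀ ≤ x 0 i) →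
      ContinuousOn x (Set.Ico 0 T) →
      (∀ t ∈ Set.Ico 0 T, ∀ i, 0 < x t i) →
      (∀ t ∈ Set.Ioo 0 T, HasDerivAt x (massAction R (k t) (x t)) t) →
      (∀ t ∈ Set.Ico 0 T, ∑ i, x t i ≤ R₁) →
      ∀ t ∈ Set.Ico 0 T, (Finset.univ.filter (fun i => x t i < r)).card < d + 1 - j := by
    intro j
    induction j with
    | zero =>
      intro _
      refine ⟨1, one_pos, ?_⟩
      intro T k x _ _ _ _ _ _ _ t _
      have : (Finset.univ.filter (fun i => x t i < 1)).card ≤ d := by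
        simpa using Finset.card_filter_le (Finset.univ : Finset (Fin d)) (fun i => x t i < 1)
      omega
    | succ j ih =>
      intro hj
      obtain ⟨rp, hrp, Hm⟩ := ih (by omega)
      have hm : 1 ≤ d + 1 - (j + 1) := by omega
      have heq : d + 1 - (j + 1) + 1 = d + 1 - j := by omega
      apply lower_step hWR hdim hε hc R₁ hr₀ (d + 1 - (j + 1)) hm hrp
      rw [heq]
      exact Hm
  obtain ⟨r, hr, H⟩ := key d le_rfl
  refine ⟨r, hr, ?_⟩
  intro T k x hk hx0 hr0 hcont hpos hderiv hmass t ht i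
  have hcard := H T k x hk hx0 hr0 hcont hpos hderiv hmass t ht
  have h0 : (Finset.univ.filter (fun i => x t i < r)).card = 0 := by omega
  rw [Finset.card_eq_zero] at h0
  by_contra hcon
  push Not at hcon
  have : i ∈ Finset.univ.filter (fun i => x t i < r) :=
    Finset.mem_filter.mpr ⟨Finset.mem_univ _, hcon⟩
  rw [h0] at this
  simp at this

end Vale.Agent.Lib.P072
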