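import Vale.Agent.Lib.P072.Carath

/-!
Local existence for vector fields measurable in time, by the contraction principle, and global
existence for weakly reversible systems with measurable rates.
-/

namespace Vale.Agent.Lib.P072

open Finset Filter Topology MeasureTheory Metric
open scoped NNReal

variable {d : ℕ}

/-- Local existence for a globally Lipschitz bounded field that is measurable in time. -/
lemma picard_local {G : ℝ → (Fin d → ℝ) → (Fin d → ℝ)} {a b : ℝ} (hab : a ≤ b) (x₁ : Fin d → ℝ)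
    {Lip : ℝ≥0} {Bd : ℝ}
    (hLip : ∀ s, LipschitzWith Lip (G s)) (hBd : ∀ s z, ‖G s z‖ ≤ Bd)
    (hm : ∀ α : ℝ → Fin d → ℝ, Continuous α →
      AEStronglyMeasurable (fun s => G s (α s)) (volume.restrict (Set.Ioc a b)))
    (hsmall : (Lip : ℝ) * (b - a) ≤ 1 / 2) :
    ∃ α : ℝ → Fin d → ℝ, ContinuousOn α (Set.Icc a b) ∧
      ∀ t ∈ Set.Icc a b, α t = x₁ + ∫ s in a..t, G s (α s) := by
  classical
  have hext : ∀ α : C(Set.Icc a b, Fin d → ℝ), Continuous (Set.IccExtend hab α) :=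
    fun α => α.continuous.Icc_extend'
  have hint : ∀ α : C(Set.Icc a b, Fin d → ℝ),
      IntegrableOn (fun s => G s (Set.IccExtend hab α s)) (Set.Ioc a b) := by
    intro α
    exact Integrable.of_bound (hm _ (hext α)) Bd (Eventually.of_forall fun s => hBd s _)
  have hcont : ∀ α : C(Set.Icc a b, Fin d → ℝ),
      Continuous fun t : Set.Icc a b => x₁ + ∫ s in a..(t : ℝ), G s (Set.IccExtend hab α s) := by
    intro α
    apply continuous_const.add
    have h1 := intervalIntegral.continuousOn_primitive_interval (μ := volume)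
      (f := fun s => G s (Set.IccExtend hab α s)) (a := a) (b := b) (by
        rw [Set.uIcc_of_le hab, integrableOn_Icc_iff_integrableOn_Ioc]
        exact hint α)
    rw [Set.uIcc_of_le hab] at h1
    exact h1.comp_continuous continuous_subtype_val (fun t => t.2)
  let Φ : C(Set.Icc a b, Fin d → ℝ) → C(Set.Icc a b, Fin d → ℝ) := fun α =>
    ⟨fun t => x₁ + ∫ s in a..(t : ℝ), G s (Set.IccExtend hab α s), hcont α⟩
  have hΦ : LipschitzWith (1 / 2 : ℝ≥0) Φ := by
    apply LipschitzWith.of_dist_le_mul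
    intro α β
    have hnn : (0 : ℝ) ≤ ((1 / 2 : ℝ≥0) : ℝ) * dist α β := by positivity
    apply (ContinuousMap.dist_le hnn).mpr
    intro t
    have ht := t.2
    have hiα : IntervalIntegrable (fun s => G s (Set.IccExtend hab α s)) volume a t := by
      rw [intervalIntegrable_iff_integrableOn_Ioc_of_le ht.1]
      exact (hint α).mono_set (Set.Ioc_subset_Ioc_right ht.2)
    have hiβ : IntervalIntegrable (fun s => G s (Set.IccExtend hab β s)) volume a t := by
      rw [intervalIntegrable_iff_integrableOn_Ioc_of_le ht.1]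
      exact (hint β).mono_set (Set.Ioc_subset_Ioc_right ht.2)
    show dist (x₁ + ∫ s in a..(t : ℝ), G s (Set.IccExtend hab α s))
      (x₁ + ∫ s in a..(t : ℝ), G s (Set.IccExtend hab β s)) ≤ _
    rw [dist_add_left, dist_eq_norm, ← intervalIntegral.integral_sub hiα hiβ]
    have h1 := intervalIntegral.norm_integral_le_of_norm_le_const (a := a) (b := t)
      (f := fun s => G s (Set.IccExtend hab α s) - G s (Set.IccExtend hab β s))
      (C := (Lip : ℝ) * dist α β) (by
        intro s _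
        rw [← dist_eq_norm]
        refine le_trans ((hLip s).dist_le_mul _ _) ?_
        apply mul_le_mul_of_nonneg_left _ (NNReal.coe_nonneg _)
        exact ContinuousMap.dist_apply_le_dist _)
    refine le_trans h1 ?_
    have h2 : |(t : ℝ) - a| = t - a := abs_of_nonneg (by linarith [ht.1])
    rw [h2]
    have h3 : (Lip : ℝ) * ((t : ℝ) - a) ≤ 1 / 2 := by
      refine le_trans ?_ hsmall
      apply mul_le_mul_of_nonneg_left _ (NNReal.coe_nonneg _)
      linarith [ht.2]
    have h4 : (0 : ℝ) ≤ dist α β := dist_nonneg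
    have h5 : ((1 / 2 : ℝ≥0) : ℝ) = 1 / 2 := by norm_num
    rw [h5]
    calc (Lip : ℝ) * dist α β * ((t : ℝ) - a) = ((Lip : ℝ) * ((t : ℝ) - a)) * dist α β := by ring
      _ ≤ 1 / 2 * dist α β := mul_le_mul_of_nonneg_right h3 h4
  have hC : ContractingWith (1 / 2 : ℝ≥0) Φ := ⟨by norm_num, hΦ⟩
  let fp := hC.fixedPoint Φ
  have hfp : Φ fp = fp := hC.fixedPoint_isFixedPt
  refine ⟨Set.IccExtend hab fp, (hext fp).continuousOn, ?_⟩
  intro t ht
  have h1 : Set.IccExtend hab fp t = fp ⟨t, ht⟩ := Set.IccExtend_of_mem _ _ ht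
  have h2 : (Φ fp) ⟨t, ht⟩ = fp ⟨t, ht⟩ := by rw [hfp]
  rw [h1, ← h2]
  rfl

/-- The coordinatewise clamp to a box around a point. -/
noncomputable def clamp (x₁ : Fin d → ℝ) (ρ : ℝ) (z : Fin d → ℝ) : Fin d → ℝ :=
  fun i => max (x₁ i - ρ) (min (x₁ i + ρ) (z i))

lemma clamp_lipschitz (x₁ : Fin d → ℝ) (ρ : ℝ) : LipschitzWith 1 (clamp x₁ ρ) := by
  apply LipschitzWith.of_dist_le_mul
  intro z z'
  rw [NNReal.coe_one, one_mul, dist_pi_le_iff dist_nonneg]
  intro i
  have h1 : LipschitzWith 1 (fun u : ℝ => max (x₁ i - ρ) (min (x₁ i + ρ) u)) :=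
    (LipschitzWith.id.const_min _).const_max _
  have h2 := h1.dist_le_mul (z i) (z' i)
  rw [NNReal.coe_one, one_mul] at h2
  exact le_trans h2 (dist_le_pi_dist z z' i)

lemma clamp_continuous (x₁ : Fin d → ℝ) (ρ : ℝ) : Continuous (clamp x₁ ρ) :=
  (clamp_lipschitz x₁ ρ).continuous

lemma clamp_mem {x₁ : Fin d → ℝ} {ρ : ℝ} (hρ : 0 ≤ ρ) (z : Fin d → ℝ) (i : Fin d) :
    x₁ i - ρ ≤ clamp x₁ ρ z i ∧ clamp x₁ ρ z i ≤ x₁ i + ρ := by
  unfold clamp
  refine ⟨le_max_left _ _, max_le (by linarith) (min_le_left _ _)⟩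

lemma clamp_of_norm_le {x₁ z : Fin d → ℝ} {ρ : ℝ} (h : ‖z - x₁‖ ≤ ρ) : clamp x₁ ρ z = z := by
  funext i
  have h1 : |z i - x₁ i| ≤ ρ := by
    have := norm_le_pi_norm (z - x₁) i
    simp only [Pi.sub_apply, Real.norm_eq_abs] at this
    exact le_trans this h
  have h2 := abs_le.mp h1
  unfold clamp
  rw [min_eq_right (by linarith), max_eq_right (by linarith)]

/-- Local existence with measurable rates, with a time step depending only on the box. -/
lemma local_step_meas (R : Finset (Reaction d)) {ε : ℝ} (hε : 0 < ε) {r M : ℝ} (hr : 0 < r) :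
    ∃ τ : ℝ, 0 < τ ∧ ∀ (k : ℝ → Reaction d → ℝ), (∀ r ∈ R, Measurable fun t => k t r) →
      (∀ t, ∀ r ∈ R, ε ≤ k t r ∧ k t r ≤ ε⁻¹) → ∀ (x₁ : Fin d → ℝ) (a : ℝ),
      (∀ i, r ≤ x₁ i) → (∀ i, x₁ i ≤ M) →
      ∃ α : ℝ → Fin d → ℝ, ContinuousOn α (Set.Icc a (a + τ)) ∧
        (∀ t ∈ Set.Icc a (a + τ), ∀ i, 0 < α t i) ∧
        ∀ t ∈ Set.Icc a (a + τ), α t = x₁ + ∫ s in a..t, massAction R (k s) (α s) := by
  have hρ : 0 < r / 2 := by positivity
  let Q : Set (Fin d → ℝ) := Set.Icc (fun _ => r / 2) (fun _ => M + r / 2)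
  have hQ : IsCompact Q := isCompact_Icc
  obtain ⟨Bd, hBd0, hBd⟩ := field_bound R hε hQ
  obtain ⟨Lip, hLip⟩ := field_lipschitz R hε hQ
  have hL0 : (0 : ℝ) ≤ Lip := NNReal.coe_nonneg _
  let τ : ℝ := min (1 / (2 * ((Lip : ℝ) + 1))) ((r / 2) / (Bd + 1))
  have hτ : 0 < τ := lt_min (by positivity) (by positivity)
  have hτ1 : (Lip : ℝ) * τ ≤ 1 / 2 := by
    have h1 : τ ≤ 1 / (2 * ((Lip : ℝ) + 1)) := min_le_left _ _
    have h2 : (Lip : ℝ) * τ ≤ ((Lip : ℝ) + 1) * τ := by nlinarith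
    have h3 : ((Lip : ℝ) + 1) * τ ≤ ((Lip : ℝ) + 1) * (1 / (2 * ((Lip : ℝ) + 1))) :=
      mul_le_mul_of_nonneg_left h1 (by positivity)
    have h4 : ((Lip : ℝ) + 1) * (1 / (2 * ((Lip : ℝ) + 1))) = 1 / 2 := by
      field_simp
    linarith
  have hτ2 : Bd * τ ≤ r / 2 := by
    have h1 : τ ≤ (r / 2) / (Bd + 1) := min_le_right _ _
    have h2 : Bd * τ ≤ (Bd + 1) * τ := by nlinarith
    have h3 : (Bd + 1) * τ ≤ (Bd + 1) * ((r / 2) / (Bd + 1)) :=
      mul_le_mul_of_nonneg_left h1 (by positivity)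
    have h4 : (Bd + 1) * ((r / 2) / (Bd + 1)) = r / 2 := by
      field_simp
    linarith
  refine ⟨τ, hτ, ?_⟩
  intro k hkm hk x₁ a hrx hMx
  have hclampQ : ∀ z, clamp x₁ (r / 2) z ∈ Q := by
    intro z
    constructor
    · intro i
      have := (clamp_mem (x₁ := x₁) hρ.le z i).1
      have h1 := hrx i
      show r / 2 ≤ _
      linarith
    · intro i
      have := (clamp_mem (x₁ := x₁) hρ.le z i).2
      have h1 := hMx i
      show _ ≤ M + r / 2
      linarith
  let G : ℝ → (Fin d → ℝ) → (Fin d → ℝ) := fun s z => massAction R (k s) (clamp x₁ (r / 2) z)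
  have hGL : ∀ s, LipschitzWith Lip (G s) := by
    intro s
    apply LipschitzWith.of_dist_le_mul
    intro z z'
    refine le_trans ((hLip (k s) (hk s)).dist_le_mul _ (hclampQ z) _ (hclampQ z')) ?_
    apply mul_le_mul_of_nonneg_left _ hL0
    have := (clamp_lipschitz x₁ (r / 2)).dist_le_mul z z'
    rwa [NNReal.coe_one, one_mul] at this
  have hGB : ∀ s z, ‖G s z‖ ≤ Bd := fun s z => hBd (k s) (hk s) _ (hclampQ z)
  have hGm : ∀ α : ℝ → Fin d → ℝ, Continuous α →
      AEStronglyMeasurable (fun s => G s (α s)) (volume.restrict (Set.Ioc a (a + τ))) := by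
    intro α hα
    exact field_aem hkm measurableSet_Ioc ((clamp_continuous x₁ (r / 2)).comp hα).continuousOn
  obtain ⟨α, hαc, hαi⟩ := picard_local (a := a) (b := a + τ) (by linarith) x₁ hGL hGB hGm (by
    have : a + τ - a = τ := by ring
    rwa [this])
  have hdist : ∀ t ∈ Set.Icc a (a + τ), ‖α t - x₁‖ ≤ r / 2 := by
    intro t ht
    rw [hαi t ht, add_sub_cancel_left]
    have h1 := intervalIntegral.norm_integral_le_of_norm_le_const (a := a) (b := t)
      (f := fun s => G s (α s)) (C := Bd) (fun s _ => hGB s _)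
    refine le_trans h1 ?_
    rw [abs_of_nonneg (by linarith [ht.1])]
    refine le_trans (mul_le_mul_of_nonneg_left ?_ hBd0) hτ2
    linarith [ht.2]
  have hcl : ∀ t ∈ Set.Icc a (a + τ), clamp x₁ (r / 2) (α t) = α t :=
    fun t ht => clamp_of_norm_le (hdist t ht)
  refine ⟨α, hαc, ?_, ?_⟩
  · intro t ht i
    have h1 := (hclampQ (α t)).1 i
    rw [hcl t ht] at h1
    have h2 : r / 2 ≤ α t i := h1
    linarith
  · intro t ht
    have h1 := hαi t ht
    rw [h1]
    congr 1
    apply intervalIntegral.integral_congr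
    intro s hs
    rw [Set.uIcc_of_le ht.1] at hs
    show massAction R (k s) (clamp x₁ (r / 2) (α s)) = massAction R (k s) (α s)
    rw [hcl s ⟨hs.1, le_trans hs.2 ht.2⟩]

/-- Gluing two pieces of integrated solutions. -/
lemma glue_integral {R : Finset (Reaction d)} {k : ℝ → Reaction d → ℝ} {ε : ℝ} (hε : 0 < ε)
    (hkm : ∀ r ∈ R, Measurable fun t => k t r) (hk : ∀ t, ∀ r ∈ R, ε ≤ k t r ∧ k t r ≤ ε⁻¹)
    {y α : ℝ → Fin d → ℝ} {T τ : ℝ} {x₀ : Fin d → ℝ} (hT : 0 ≤ T) (hτ : 0 ≤ τ)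
    (hyc : ContinuousOn y (Set.Icc 0 T)) (hαc : ContinuousOn α (Set.Icc T (T + τ)))
    (hyi : ∀ t ∈ Set.Icc 0 T, y t = x₀ + ∫ s in (0 : ℝ)..t, massAction R (k s) (y s))
    (hαi : ∀ t ∈ Set.Icc T (T + τ), α t = y T + ∫ s in T..t, massAction R (k s) (α s)) :
    ∃ y' : ℝ → Fin d → ℝ, (∀ t, t ≤ T → y' t = y t) ∧ (∀ t, T ≤ t → t ≤ T + τ → y' t = α t) ∧
      ContinuousOn y' (Set.Icc 0 (T + τ)) ∧
      ∀ t ∈ Set.Icc 0 (T + τ), y' t = x₀ + ∫ s in (0 : ℝ)..t, massAction R (k s) (y' s) := by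
  classical
  have hαT : α T = y T := by
    have := hαi T ⟨le_rfl, by linarith⟩
    simpa using this
  refine ⟨fun t => if t ≤ T then y t else α t, ?_, ?_, ?_, ?_⟩ <;>
    set y' : ℝ → Fin d → ℝ := fun t => if t ≤ T then y t else α t with hy'
  · intro t ht
    simp [hy', ht]
  · intro t ht _
    by_cases h : t ≤ T
    · have : t = T := le_antisymm h ht
      simp [hy', this, hαT]
    · simp [hy', h]
  · have hleft : ∀ s, s ≤ T → y' s = y s := by
      intro s hs
      simp [hy', hs]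
    have hright : ∀ s, T ≤ s → y' s = α s := by
      intro s hs
      by_cases h : s ≤ T
      · have : s = T := le_antisymm h hs
        simp [hy', this, hαT]
      · simp [hy', h]
    have hunion : Set.Icc 0 (T + τ) = Set.Icc 0 T ∪ Set.Icc T (T + τ) :=
      (Set.Icc_union_Icc_eq_Icc hT (by linarith)).symm
    rw [hunion]
    apply ContinuousOn.union_of_isClosed _ _ isClosed_Icc isClosed_Icc
    · exact hyc.congr (fun s hs => hleft s hs.2)
    · exact hαc.congr (fun s hs => hright s hs.1)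
  · have hleft : ∀ s, s ≤ T → y' s = y s := by
      intro s hs
      simp [hy', hs]
    have hright : ∀ s, T ≤ s → y' s = α s := by
      intro s hs
      by_cases h : s ≤ T
      · have : s = T := le_antisymm h hs
        simp [hy', this, hαT]
      · simp [hy', h]
    have hcont : ContinuousOn y' (Set.Icc 0 T) := hyc.congr (fun s hs => hleft s hs.2)
    have hcont2 : ContinuousOn y' (Set.Icc T (T + τ)) := hαc.congr (fun s hs => hright s hs.1)
    intro t ht
    by_cases htT : t ≤ T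
    · rw [hleft t htT, hyi t ⟨ht.1, htT⟩]
      congr 1
      apply intervalIntegral.integral_congr
      intro s hs
      rw [Set.uIcc_of_le ht.1] at hs
      show massAction R (k s) (y s) = massAction R (k s) (y' s)
      rw [hleft s (le_trans hs.2 htT)]
    · push Not at htT
      rw [hright t htT.le, hαi t ⟨htT.le, ht.2⟩, hyi T ⟨hT, le_rfl⟩, add_assoc]
      congr 1
      have hI1 := field_int (R := R) hε hkm hk hT hcont
      have hI2 := field_int (R := R) hε hkm hk htT.le (hcont2.mono (Set.Icc_subset_Icc_right ht.2))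
      rw [← intervalIntegral.integral_add_adjacent_intervals hI1 hI2]
      congr 1
      · apply intervalIntegral.integral_congr
        intro s hs
        rw [Set.uIcc_of_le hT] at hs
        show massAction R (k s) (y s) = massAction R (k s) (y' s)
        rw [hleft s hs.2]
      · apply intervalIntegral.integral_congr
        intro s hs
        rw [Set.uIcc_of_le htT.le] at hs
        show massAction R (k s) (α s) = massAction R (k s) (y' s)
        rw [hright s hs.1]

/-- Global existence for measurable rates. -/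
theorem global_meas {R : Finset (Reaction d)} (hWR : WeaklyReversible R) {ε : ℝ} (hε : 0 < ε)
    {k : ℝ → Reaction d → ℝ} (hkm : ∀ r ∈ R, Measurable fun t => k t r)
    (hk : ∀ t, ∀ r ∈ R, ε ≤ k t r ∧ k t r ≤ ε⁻¹) {x₀ : Fin d → ℝ} (hx₀ : ∀ i, 0 < x₀ i) :
    ∃ x : ℝ → Fin d → ℝ, ContinuousOn x (Set.Ici 0) ∧ (∀ t, 0 ≤ t → ∀ i, 0 < x t i) ∧
      ∀ t, 0 ≤ t → x t = x₀ + ∫ s in (0 : ℝ)..t, massAction R (k s) (x s) := by
  classical
  obtain ⟨C, hC⟩ := mass_bound_weak hWR hε (∑ i, x₀ i)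
  obtain ⟨r₀, hr₀, hr₀le⟩ := exists_min_coord hx₀
  obtain ⟨r₁, hr₁, hr₁l⟩ := lower_bound_weak hWR hε C hr₀
  set M : ℝ := max C (∑ i, x₀ i) with hM
  set r : ℝ := min r₁ r₀ with hr
  have hrpos : 0 < r := lt_min hr₁ hr₀
  obtain ⟨τ, hτ, hstep⟩ := local_step_meas (M := M) R hε hrpos
  have hx₀le : ∀ i, x₀ i ≤ M := by
    intro i
    have h1 : x₀ i ≤ ∑ i, x₀ i := Finset.single_le_sum (f := x₀) (fun j _ => (hx₀ j).le)
      (Finset.mem_univ i)
    exact le_trans h1 (le_max_right _ _)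
  have key : ∀ n : ℕ, ∃ y : ℝ → Fin d → ℝ,
      ContinuousOn y (Set.Icc 0 (((n : ℝ) + 1) * τ)) ∧
      (∀ t ∈ Set.Icc 0 (((n : ℝ) + 1) * τ), ∀ i, 0 < y t i) ∧
      ∀ t ∈ Set.Icc 0 (((n : ℝ) + 1) * τ),
        y t = x₀ + ∫ s in (0 : ℝ)..t, massAction R (k s) (y s) := by
    intro n
    induction n with
    | zero =>
      obtain ⟨α, h1, h2, h3⟩ := hstep k hkm hk x₀ 0 (fun i => le_trans (min_le_right _ _) (hr₀le i))
        hx₀le
      have hI : Set.Icc (0 : ℝ) (0 + τ) = Set.Icc 0 ((((0 : ℕ) : ℝ) + 1) * τ) := by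
        simp
      rw [hI] at h1 h2 h3
      exact ⟨α, h1, h2, h3⟩
    | succ n ih =>
      obtain ⟨y, hyc, hyp, hyi⟩ := ih
      set T : ℝ := ((n : ℝ) + 1) * τ with hT
      have hT0 : 0 < T := by positivity
      have hy0 : y 0 = x₀ := by
        have := hyi 0 ⟨le_rfl, hT0.le⟩
        simpa using this
      have hyi' : ∀ t ∈ Set.Icc 0 T, y t = y 0 + ∫ s in (0 : ℝ)..t, massAction R (k s) (y s) := by
        rw [hy0]
        exact hyi
      have hW : WSol R ε T k y := wsol_of_integral hε hkm hk hT0.le hyc hyp hyi'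
      have hmass := hC T k y hW (by rw [hy0])
      have hlow := hr₁l T k y hW (fun i => by rw [hy0]; exact hr₀le i) hmass
      have hbd : ∀ t ∈ Set.Ico 0 T, (∀ i, y t i ≤ M) ∧ ∀ i, r ≤ y t i := by
        intro t ht
        constructor
        · intro i
          have h1 : y t i ≤ ∑ j, y t j := Finset.single_le_sum (f := fun j => y t j)
            (fun j _ => (hyp t ⟨ht.1, ht.2.le⟩ j).le) (Finset.mem_univ i)
          exact le_trans (le_trans h1 (hmass t ht)) (le_max_left _ _)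
        · intro i
          exact le_trans (min_le_left _ _) (hlow t ht i)
      have hTm : T ∈ Set.Icc 0 T := ⟨hT0.le, le_rfl⟩
      have hlim : ∀ i, y T i ≤ M ∧ r ≤ y T i := by
        intro i
        have hcw : ContinuousWithinAt (fun s => y s i) (Set.Ico 0 T) T :=
          ((continuous_apply i).comp_continuousOn hyc T hTm).mono Set.Ico_subset_Icc_self
        have htend := hcw.tendsto
        rw [nhdsWithin_Ico_eq_nhdsLT hT0] at htend
        have hev : ∀ᶠ s in 𝓝[<] T, s ∈ Set.Ico 0 T := Ico_mem_nhdsLT hT0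
        constructor
        · apply le_of_tendsto htend
          filter_upwards [hev] with s hs
          exact (hbd s hs).1 i
        · apply ge_of_tendsto htend
          filter_upwards [hev] with s hs
          exact (hbd s hs).2 i
      obtain ⟨α, hαc, hαp, hαi⟩ := hstep k hkm hk (y T) T (fun i => (hlim i).2)
        (fun i => (hlim i).1)
      obtain ⟨y', hl, hr', hc', hi'⟩ := glue_integral hε hkm hk hT0.le hτ.le hyc hαc hyi hαi
      have hnew : (((n + 1 : ℕ) : ℝ) + 1) * τ = T + τ := by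
        rw [hT]
        push_cast
        ring
      rw [hnew]
      refine ⟨y', hc', ?_, hi'⟩
      intro t ht
      by_cases htT : t ≤ T
      · rw [hl t htT]
        exact hyp t ⟨ht.1, htT⟩
      · push Not at htT
        rw [hr' t htT.le ht.2]
        exact hαp t ⟨htT.le, ht.2⟩
  choose y hyc hyp hyi using key
  have hagree : ∀ (n m : ℕ) (s : ℝ), 0 ≤ s → s ≤ ((n : ℝ) + 1) * τ → s ≤ ((m : ℝ) + 1) * τ →
      y n s = y m s := by
    intro n m s hs hn hm
    have hsubn : Set.Icc 0 s ⊆ Set.Icc 0 (((n : ℝ) + 1) * τ) :=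
      Set.Icc_subset_Icc_right hn
    have hsubm : Set.Icc 0 s ⊆ Set.Icc 0 (((m : ℝ) + 1) * τ) :=
      Set.Icc_subset_Icc_right hm
    exact unique_integral hε hkm hk hs ((hyc n).mono hsubn) ((hyc m).mono hsubm)
      (fun t ht => hyi n t (hsubn ht)) (fun t ht => hyi m t (hsubm ht)) s ⟨hs, le_rfl⟩
  set N : ℝ → ℕ := fun t => ⌈t / τ⌉₊ with hN
  have hNle : ∀ t, t ≤ (N t : ℝ) * τ := by
    intro t
    have := Nat.le_ceil (t / τ)
    rwa [div_le_iff₀ hτ] at this
  have hNlt : ∀ t, t < ((N t : ℝ) + 1) * τ := by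
    intro t
    have h1 := hNle t
    nlinarith
  set x : ℝ → Fin d → ℝ := fun t => y (N t) t with hx
  have hxy : ∀ (n : ℕ) (s : ℝ), 0 ≤ s → s ≤ ((n : ℝ) + 1) * τ → x s = y n s := by
    intro n s hs hn
    exact hagree _ _ s hs (hNlt s).le hn
  refine ⟨x, ?_, ?_, ?_⟩
  · intro t ht
    have ht0 : (0 : ℝ) ≤ t := ht
    have hc1 : ContinuousWithinAt (y (N t)) (Set.Icc 0 (((N t : ℝ) + 1) * τ)) t :=
      hyc (N t) t ⟨ht0, (hNlt t).le⟩
    have hnhds : Set.Icc 0 (((N t : ℝ) + 1) * τ) ∈ 𝓝[Set.Ici 0] t := by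
      have h1 : Set.Iic (((N t : ℝ) + 1) * τ) ∈ 𝓝 t := Iic_mem_nhds (hNlt t)
      have h2 : Set.Icc 0 (((N t : ℝ) + 1) * τ) = Set.Ici 0 ∩ Set.Iic (((N t : ℝ) + 1) * τ) := by
        ext s
        simp [Set.mem_Icc]
      rw [h2]
      exact inter_mem self_mem_nhdsWithin (mem_nhdsWithin_of_mem_nhds h1)
    have hc2 : ContinuousWithinAt (y (N t)) (Set.Ici 0) t := hc1.mono_of_mem_nhdsWithin hnhds
    apply hc2.congr_of_eventuallyEq
    · filter_upwards [hnhds] with s hs
      exact hxy (N t) s hs.1 hs.2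
    · exact hxy (N t) t ht0 (hNlt t).le
  · intro t ht i
    exact hyp (N t) t ⟨ht, (hNlt t).le⟩ i
  · intro t ht
    have h1 := hyi (N t) t ⟨ht, (hNlt t).le⟩
    have h2 : x t = y (N t) t := rfl
    rw [h2, h1]
    congr 1
    apply intervalIntegral.integral_congr
    intro s hs
    rw [Set.uIcc_of_le ht] at hs
    show massAction R (k s) (y (N t) s) = massAction R (k s) (x s)
    rw [hxy (N t) s hs.1 (le_trans hs.2 (hNlt t).le)]

end Vale.Agent.Lib.P072
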