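import Mathlib

/-!
One dimensional analysis for a monotone slope function `p`: the function `Th p` whose derivative
is `s ↦ p (log s)`, its conjugate `Tr p`, and the Fenchel gap `Dl p`.
-/

namespace Vale.Agent.Lib.P072

open MeasureTheory intervalIntegral Set

/-- Standing hypotheses on a slope function. -/
structure Prof (p : ℝ → ℝ) (ρ : ℝ) : Prop where
  mono : Monotone p
  upper : ∀ t, p t ≤ t + ρ
  lower : ∀ U, ∃ R, ∀ t ≤ U, t - R ≤ p t

/-- Deviation of the slope from the logarithm. -/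
noncomputable def dev (p : ℝ → ℝ) (σ : ℝ) : ℝ := p (Real.log σ) - Real.log σ

/-- The integrated deviation. -/
noncomputable def Err (p : ℝ → ℝ) (s : ℝ) : ℝ := ∫ σ in (0 : ℝ)..s, dev p σ

/-- The entropy density. -/
noncomputable def Fn (s : ℝ) : ℝ := s * Real.log s - s

/-- The primitive of the slope. -/
noncomputable def Th (p : ℝ → ℝ) (s : ℝ) : ℝ := Fn s + Err p s

/-- The conjugate of `Th p`, at values fixed by `p`. -/
noncomputable def Tr (p : ℝ → ℝ) (ν : ℝ) : ℝ := Real.exp ν - Err p (Real.exp ν)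

/-- The Fenchel gap. -/
noncomputable def Dl (p : ℝ → ℝ) (ν s : ℝ) : ℝ := Th p s - ν * s + Tr p ν

variable {p : ℝ → ℝ} {ρ : ℝ}

lemma dev_measurable (hm : Monotone p) : Measurable (dev p) :=
  (hm.measurable.comp Real.measurable_log).sub Real.measurable_log

lemma dev_int0 (h : Prof p ρ) {b : ℝ} (hb : 0 ≤ b) : IntervalIntegrable (dev p) volume 0 b := by
  obtain ⟨R, hR⟩ := h.lower (Real.log b)
  rw [intervalIntegrable_iff_integrableOn_Ioc_of_le hb]
  apply Measure.integrableOn_of_bounded (M := max |R| |ρ|) (by simp)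
    (dev_measurable h.mono).aestronglyMeasurable
  rw [ae_restrict_iff' measurableSet_Ioc]
  refine Filter.Eventually.of_forall fun σ hσ => ?_
  have h1 : Real.log σ ≤ Real.log b := Real.log_le_log hσ.1 hσ.2
  have h2 := hR _ h1
  have h3 := h.upper (Real.log σ)
  have h4 := le_abs_self R
  have h5 := le_abs_self ρ
  have h6 := le_max_left |R| |ρ|
  have h7 := le_max_right |R| |ρ|
  rw [Real.norm_eq_abs, abs_le]
  unfold dev
  constructor <;> linarith

lemma dev_int (h : Prof p ρ) {a b : ℝ} (ha : 0 ≤ a) (hb : 0 ≤ b) :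
    IntervalIntegrable (dev p) volume a b :=
  (dev_int0 h ha).symm.trans (dev_int0 h hb)

lemma slope_int (h : Prof p ρ) {a b : ℝ} (ha : 0 ≤ a) (hb : 0 ≤ b) :
    IntervalIntegrable (fun σ => p (Real.log σ)) volume a b := by
  have h1 := (dev_int h ha hb).add (intervalIntegrable_log' (a := a) (b := b))
  refine h1.congr ?_
  intro σ _
  simp [dev]

lemma slope_sub_int (h : Prof p ρ) {a b : ℝ} (ν : ℝ) (ha : 0 ≤ a) (hb : 0 ≤ b) :
    IntervalIntegrable (fun σ => p (Real.log σ) - ν) volume a b :=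
  (slope_int h ha hb).sub intervalIntegrable_const

lemma Err_sub (h : Prof p ρ) {a b : ℝ} (ha : 0 ≤ a) (hb : 0 ≤ b) :
    ∫ σ in a..b, dev p σ = Err p b - Err p a :=
  (integral_interval_sub_left (dev_int0 h hb) (dev_int0 h ha)).symm

/-- Increment of `Th` along an interval. -/
lemma Th_sub (h : Prof p ρ) {a s : ℝ} (ha : 0 ≤ a) (hs : 0 ≤ s) (ν : ℝ) :
    ∫ σ in a..s, (p (Real.log σ) - ν) = Th p s - Th p a - ν * (s - a) := by
  have h1 : ∫ σ in a..s, (p (Real.log σ) - ν) = ∫ σ in a..s, (dev p σ + (Real.log σ - ν)) := by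
    apply integral_congr
    intro σ _
    simp [dev]
  rw [h1, integral_add (dev_int h ha hs) (intervalIntegrable_log'.sub intervalIntegrable_const),
    integral_sub intervalIntegrable_log' intervalIntegrable_const, integral_log, intervalIntegral.integral_const,
    Err_sub h ha hs]
  simp only [smul_eq_mul, Th, Fn]
  ring

lemma Dl_eq (h : Prof p ρ) (ν : ℝ) {s : ℝ} (hs : 0 ≤ s) :
    Dl p ν s = ∫ σ in (Real.exp ν)..s, (p (Real.log σ) - ν) := by
  rw [Th_sub h (Real.exp_pos ν).le hs]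
  simp only [Dl, Th, Tr, Fn, Real.log_exp]
  ring

/-- The lower bound for the integrand on an interval. -/
lemma int_ge {a b ν c : ℝ} (h : Prof p ρ) (ha : 0 ≤ a) (hab : a ≤ b)
    (hc : ∀ σ ∈ Icc a b, c ≤ p (Real.log σ) - ν) :
    c * (b - a) ≤ ∫ σ in a..b, (p (Real.log σ) - ν) := by
  have h1 := integral_mono_on (μ := volume) hab (intervalIntegrable_const (c := c))
    (slope_sub_int h ν ha (le_trans ha hab)) hc
  rw [intervalIntegral.integral_const, smul_eq_mul] at h1
  linarith

/-- The upper bound for the integrand on an interval. -/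
lemma int_le {a b ν c : ℝ} (h : Prof p ρ) (ha : 0 ≤ a) (hab : a ≤ b)
    (hc : ∀ σ ∈ Icc a b, p (Real.log σ) - ν ≤ c) :
    ∫ σ in a..b, (p (Real.log σ) - ν) ≤ c * (b - a) := by
  have h1 := integral_mono_on (μ := volume) hab (slope_sub_int h ν ha (le_trans ha hab))
    (intervalIntegrable_const (c := c)) hc
  rw [intervalIntegral.integral_const, smul_eq_mul] at h1
  linarith

lemma log_ge_of_exp_le {t σ : ℝ} (h : Real.exp t ≤ σ) : t ≤ Real.log σ := by
  have := Real.log_le_log (Real.exp_pos t) h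
  rwa [Real.log_exp] at this

lemma log_le_of_le_exp {t σ : ℝ} (h0 : 0 < σ) (h : σ ≤ Real.exp t) : Real.log σ ≤ t := by
  have := Real.log_le_log h0 h
  rwa [Real.log_exp] at this

/-- Gap estimate on the right of the contact point. -/
lemma Dl_ge_right (h : Prof p ρ) {ν κ t₁ s : ℝ} (hν : p ν = ν) (ht : ν ≤ t₁)
    (hp : ν + κ ≤ p t₁) (hs : Real.exp t₁ ≤ s) : κ * (s - Real.exp t₁) ≤ Dl p ν s := by
  have ha := Real.exp_pos ν
  have hb := Real.exp_pos t₁
  have hab : Real.exp ν ≤ Real.exp t₁ := Real.exp_le_exp.mpr ht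
  rw [Dl_eq h ν (le_trans hb.le hs),
    ← integral_add_adjacent_intervals (slope_sub_int h ν ha.le hb.le)
      (slope_sub_int h ν hb.le (le_trans hb.le hs))]
  have h1 : 0 * (Real.exp t₁ - Real.exp ν) ≤ ∫ σ in (Real.exp ν)..(Real.exp t₁),
      (p (Real.log σ) - ν) := by
    apply int_ge h ha.le hab
    intro σ hσ
    have := h.mono (log_ge_of_exp_le hσ.1)
    linarith
  have h2 : κ * (s - Real.exp t₁) ≤ ∫ σ in (Real.exp t₁)..s, (p (Real.log σ) - ν) := by
    apply int_ge h hb.le hs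
    intro σ hσ
    have := h.mono (log_ge_of_exp_le hσ.1)
    linarith
  linarith

/-- Gap estimate on the left of the contact point. -/
lemma Dl_ge_left (h : Prof p ρ) {ν κ t₁ s : ℝ} (hν : p ν = ν) (ht : t₁ ≤ ν)
    (hp : p t₁ ≤ ν - κ) (hs0 : 0 < s) (hs : s ≤ Real.exp t₁) :
    κ * (Real.exp t₁ - s) ≤ Dl p ν s := by
  have ha := Real.exp_pos ν
  have hb := Real.exp_pos t₁
  have hba : Real.exp t₁ ≤ Real.exp ν := Real.exp_le_exp.mpr ht
  rw [Dl_eq h ν hs0.le, integral_symm,
    ← integral_add_adjacent_intervals (slope_sub_int h ν hs0.le hb.le)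
      (slope_sub_int h ν hb.le ha.le)]
  have h1 : ∫ σ in s..(Real.exp t₁), (p (Real.log σ) - ν) ≤ (-κ) * (Real.exp t₁ - s) := by
    apply int_le h hs0.le hs
    intro σ hσ
    have h0 : 0 < σ := lt_of_lt_of_le hs0 hσ.1
    have := h.mono (log_le_of_le_exp h0 hσ.2)
    linarith
  have h2 : ∫ σ in (Real.exp t₁)..(Real.exp ν), (p (Real.log σ) - ν)
      ≤ 0 * (Real.exp ν - Real.exp t₁) := by
    apply int_le h hb.le hba
    intro σ hσ
    have h0 : 0 < σ := lt_of_lt_of_le hb hσ.1
    have := h.mono (log_le_of_le_exp h0 hσ.2)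
    linarith
  linarith

/-- The Fenchel inequality. -/
lemma Dl_nonneg (h : Prof p ρ) {ν s : ℝ} (hν : p ν = ν) (hs : 0 < s) : 0 ≤ Dl p ν s := by
  rcases le_total (Real.exp ν) s with h1 | h1
  · have := Dl_ge_right (κ := 0) h hν le_rfl (by rw [hν]; linarith) h1
    linarith
  · have := Dl_ge_left (κ := 0) h hν le_rfl (by rw [hν]; linarith) hs h1
    linarith

/-- Equality in the Fenchel inequality. -/
lemma Dl_eq_zero (h : Prof p ρ) {ν s : ℝ} (hν : p ν = ν) (hs : 0 < s)
    (hq : p (Real.log s) = ν) : Dl p ν s = 0 := by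
  have ha := Real.exp_pos ν
  rw [Dl_eq h ν hs.le]
  have : ∫ σ in (Real.exp ν)..s, (p (Real.log σ) - ν) = ∫ _σ in (Real.exp ν)..s, (0 : ℝ) := by
    apply integral_congr
    intro σ hσ
    have hσ0 : 0 < σ := by
      rcases Set.mem_uIcc.mp hσ with h1 | h1
      · exact lt_of_lt_of_le ha h1.1
      · exact lt_of_lt_of_le hs h1.1
    have h2 : p (Real.log σ) = ν := by
      rcases Set.mem_uIcc.mp hσ with h1 | h1
      · have h3 := h.mono (log_ge_of_exp_le h1.1)
        have h4 := h.mono (Real.log_le_log hσ0 h1.2)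
        linarith
      · have h3 := h.mono (Real.log_le_log hs h1.1)
        have h4 := h.mono (log_le_of_le_exp hσ0 h1.2)
        linarith
    simp [h2]
  rw [this]
  simp

lemma Err_le (h : Prof p ρ) {s : ℝ} (hs : 0 ≤ s) : Err p s ≤ ρ * s := by
  have h1 := integral_mono_on (μ := volume) hs (dev_int0 h hs)
    (intervalIntegrable_const (c := ρ)) (fun σ _ => by
      have := h.upper (Real.log σ)
      unfold dev
      linarith)
  rw [intervalIntegral.integral_const, smul_eq_mul] at h1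
  unfold Err
  linarith

lemma Err_ge (h : Prof p ρ) {s R : ℝ} (hs : 0 < s) (hR : ∀ t ≤ Real.log s, t - R ≤ p t) :
    -R * s ≤ Err p s := by
  have h1 := integral_mono_on_of_le_Ioo (μ := volume) hs.le
    (intervalIntegrable_const (c := -R)) (dev_int0 h hs.le) (fun σ hσ => by
      have h2 := hR _ (Real.log_le_log hσ.1 hσ.2.le)
      unfold dev
      linarith)
  rw [intervalIntegral.integral_const, smul_eq_mul] at h1
  unfold Err
  linarith

/-- Nonnegativity of the conjugate at fixed points. -/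
lemma Tr_nonneg (h : Prof p ρ) {ν : ℝ} (hν : p ν = ν) : 0 ≤ Tr p ν := by
  have ha := Real.exp_pos ν
  have h1 := integral_mono_on_of_le_Ioo (μ := volume) ha.le (dev_int0 h ha.le)
    (intervalIntegrable_const (c := ν).sub (intervalIntegrable_log' (a := 0) (b := Real.exp ν)))
    (fun σ hσ => by
      have h2 := h.mono (log_le_of_le_exp hσ.1 hσ.2.le)
      rw [hν] at h2
      unfold dev
      linarith)
  rw [integral_sub intervalIntegrable_const intervalIntegrable_log', intervalIntegral.integral_const, integral_log,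
    smul_eq_mul, Real.log_exp] at h1
  unfold Tr Err
  simp only [sub_zero, zero_mul, add_zero] at h1
  nlinarith

/-- The conjugate at the top of a plateau extending to infinity. -/
lemma Tr_top_le (h : Prof p ρ) {τ : ℝ} (hτ : ∀ t, τ - ρ ≤ t → p t = τ)
    (hl : ∀ t ≤ τ - ρ, t - ρ ≤ p t) (hρ : 0 ≤ ρ) :
    Tr p τ ≤ Real.exp (τ - ρ) * (2 * ρ + 1) := by
  have ha := Real.exp_pos (τ - ρ)
  have hb := Real.exp_pos τ
  have hab : Real.exp (τ - ρ) ≤ Real.exp τ := Real.exp_le_exp.mpr (by linarith)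
  have h1 : -ρ * Real.exp (τ - ρ) ≤ Err p (Real.exp (τ - ρ)) := by
    apply Err_ge h ha
    rw [Real.log_exp]
    exact hl
  have h2 := Err_sub h ha.le hb.le
  have h3 : ∫ σ in (Real.exp (τ - ρ))..(Real.exp τ), dev p σ
      = ∫ σ in (Real.exp (τ - ρ))..(Real.exp τ), (τ - Real.log σ) := by
    apply integral_congr
    intro σ hσ
    rw [Set.uIcc_of_le hab] at hσ
    have := hτ _ (log_ge_of_exp_le hσ.1)
    simp only [dev, this]
  rw [h3, integral_sub intervalIntegrable_const intervalIntegrable_log', intervalIntegral.integral_const,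
    integral_log, smul_eq_mul, Real.log_exp, Real.log_exp] at h2
  unfold Tr
  nlinarith

/-- Localization below from a gap of the slope. -/
lemma loc_lower_of_gap (h : Prof p ρ) {ν w s : ℝ} (hν : p ν = ν) (hw : 0 ≤ w)
    (hgap : p (ν - w - 1 / 2) ≤ ν - 1 / 2) (hs : 0 < s) (hD : Dl p ν s ≤ (1 / 10) * s) :
    ν - w - 1 ≤ Real.log s := by
  by_contra hcon
  push Not at hcon
  have h1 : s ≤ Real.exp (ν - w - 1 / 2) := by
    rw [← Real.exp_log hs]
    exact Real.exp_le_exp.mpr (by linarith)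
  have h2 := Dl_ge_left (κ := 1 / 2) h hν (t₁ := ν - w - 1 / 2) (by linarith)
    (by linarith) hs h1
  have h3 : s * (3 / 2) ≤ Real.exp (ν - w - 1 / 2) := by
    have h4 := Real.add_one_le_exp (ν - w - 1 / 2 - Real.log s)
    have h5 : Real.exp (ν - w - 1 / 2) = s * Real.exp (ν - w - 1 / 2 - Real.log s) := by
      rw [Real.exp_sub (ν - w - 1 / 2) (Real.log s), Real.exp_log hs]
      field_simp
    rw [h5]
    apply mul_le_mul_of_nonneg_left _ hs.le
    linarith
  linarith

/-- Localization above from a gap of the slope. -/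
lemma loc_upper_of_gap (h : Prof p ρ) {ν w s : ℝ} (hν : p ν = ν) (hw : 0 ≤ w)
    (hgap : ν + 1 / 2 ≤ p (ν + w + 1 / 2)) (hs : 0 < s) (hD : Dl p ν s ≤ (1 / 10) * s) :
    Real.log s ≤ ν + w + 1 := by
  by_contra hcon
  push Not at hcon
  have h1 : Real.exp (ν + w + 1 / 2) ≤ s := by
    rw [← Real.exp_log hs]
    exact Real.exp_le_exp.mpr (by linarith)
  have h2 := Dl_ge_right (κ := 1 / 2) h hν (t₁ := ν + w + 1 / 2) (by linarith)
    (by linarith) h1
  have h3 : Real.exp (ν + w + 1 / 2) * (3 / 2) ≤ s := by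
    have h4 := Real.add_one_le_exp (Real.log s - (ν + w + 1 / 2))
    have h5 : s = Real.exp (ν + w + 1 / 2) * Real.exp (Real.log s - (ν + w + 1 / 2)) := by
      rw [← Real.exp_add]
      rw [show ν + w + 1 / 2 + (Real.log s - (ν + w + 1 / 2)) = Real.log s by ring,
        Real.exp_log hs]
    have h6 := Real.exp_pos (ν + w + 1 / 2)
    have h7 : 3 / 2 ≤ Real.exp (Real.log s - (ν + w + 1 / 2)) := by linarith
    nlinarith
  have h8 := Real.exp_pos (ν + w + 1 / 2)
  linarith

/-- Crude bound from the Fenchel gap. -/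
lemma cl_of_gap (h : Prof p ρ) {ν w s ε : ℝ} (hν : p ν = ν) (hw : 0 ≤ w)
    (hgap : p (ν - w - 1 / 2) ≤ ν - 1 / 2) (hs : 0 < s) (hε : 0 ≤ ε) (hD : Dl p ν s ≤ ε) :
    Real.exp (ν - w - 1 / 2) ≤ s + 2 * ε := by
  rcases le_total (Real.exp (ν - w - 1 / 2)) s with h1 | h1
  · linarith
  · have h2 := Dl_ge_left (κ := 1 / 2) h hν (t₁ := ν - w - 1 / 2) (by linarith)
      (by linarith) hs h1
    linarith

end Vale.Agent.Lib.P072
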