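import Vale.Agent.Lib.P072.Main

/-!
Reduced coordinates on a set `I` of species, and the lower bound for solutions.
-/

namespace Vale.Agent.Lib.P072

open Finset Filter Topology

variable {d : ℕ}

/-- Restriction of a vector to the species in `I`. -/
def res (I : Finset (Fin d)) (e : Fin d → ℝ) : Fin d → ℝ := fun i => if i ∈ I then e i else 0

/-- Reduced point: the coordinates off `I` are replaced by `1`. -/
def hat (I : Finset (Fin d)) (x : Fin d → ℝ) : Fin d → ℝ := fun i => if i ∈ I then x i else 1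

/-- Restriction as a linear map. -/
def resL (I : Finset (Fin d)) : (Fin d → ℝ) →ₗ[ℝ] (Fin d → ℝ) where
  toFun := res I
  map_add' := by
    intro a b
    funext i
    by_cases h : i ∈ I <;> simp [res, h]
  map_smul' := by
    intro c a
    funext i
    by_cases h : i ∈ I <;> simp [res, h]

lemma pos_hat {I : Finset (Fin d)} {x : Fin d → ℝ} (hx : Pos x) : Pos (hat I x) := by
  intro i
  unfold hat
  by_cases h : i ∈ I
  · simpa [h] using hx i
  · simp [h]

lemma dot_res (I : Finset (Fin d)) (e n : Fin d → ℝ) : dot (res I e) n = dot e (res I n) := by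
  unfold dot res
  apply Finset.sum_congr rfl
  intro i _
  by_cases h : i ∈ I <;> simp [h]

lemma isInt_res (I : Finset (Fin d)) {e : Fin d → ℝ} (he : IsInt e) : IsInt (res I e) := by
  intro i
  unfold res
  by_cases h : i ∈ I
  · simpa [h] using he i
  · exact ⟨0, by simp [h]⟩

lemma abs_res_le (I : Finset (Fin d)) {e : Fin d → ℝ} {B : ℝ} (hBnn : 0 ≤ B)
    (he : ∀ i, |e i| ≤ B) (i : Fin d) : |res I e i| ≤ B := by
  unfold res
  by_cases h : i ∈ I
  · simpa [h] using he i
  · simpa [h] using hBnn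

/-- Splitting the level along `e` into the reduced level and the remainder. -/
lemma lev_split (I : Finset (Fin d)) (e x : Fin d → ℝ) :
    lev e x = lev (res I e) (hat I x) + ∑ i ∈ Iᶜ, e i * Real.log (x i) := by
  unfold lev dot lg res hat
  rw [← Finset.sum_add_sum_compl I (fun i => e i * Real.log (x i))]
  congr 1
  rw [← Finset.sum_add_sum_compl I (fun i => (if i ∈ I then e i else 0) *
    Real.log (if i ∈ I then x i else 1))]
  have h2 : ∑ i ∈ Iᶜ, (if i ∈ I then e i else 0) * Real.log (if i ∈ I then x i else 1) = 0 := by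
    apply Finset.sum_eq_zero
    intro i hi
    have : i ∉ I := Finset.mem_compl.mp hi
    simp [this]
  rw [h2, add_zero]
  apply Finset.sum_congr rfl
  intro i hi
  simp [hi]

/-- The pairing of a restricted vector with the reduced logarithm. -/
lemma sum_res_log (I : Finset (Fin d)) (v x : Fin d → ℝ) :
    ∑ k, res I v k * Real.log (hat I x k) = ∑ i ∈ I, v i * Real.log (x i) := by
  unfold res hat
  rw [← Finset.sum_add_sum_compl I (fun k => (if k ∈ I then v k else 0) *
    Real.log (if k ∈ I then x k else 1))]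
  have h2 : ∑ k ∈ Iᶜ, (if k ∈ I then v k else 0) * Real.log (if k ∈ I then x k else 1) = 0 := by
    apply Finset.sum_eq_zero
    intro i hi
    have : i ∉ I := Finset.mem_compl.mp hi
    simp [this]
  rw [h2, add_zero]
  apply Finset.sum_congr rfl
  intro i hi
  simp [hi]

/-- The entropy of a reduced point. -/
lemma V_hat (I : Finset (Fin d)) (x : Fin d → ℝ) :
    V (hat I x) = ∑ i ∈ I, (x i * Real.log (x i) - x i) - (Iᶜ.card : ℝ) := by
  unfold V hat
  rw [← Finset.sum_add_sum_compl I (fun i => (if i ∈ I then x i else 1) *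
    Real.log (if i ∈ I then x i else 1) - (if i ∈ I then x i else 1))]
  have h2 : ∑ i ∈ Iᶜ, ((if i ∈ I then x i else 1) * Real.log (if i ∈ I then x i else 1)
      - (if i ∈ I then x i else 1)) = - (Iᶜ.card : ℝ) := by
    rw [Finset.sum_congr rfl (g := fun _ => (-1 : ℝ))]
    · simp
    · intro i hi
      have : i ∉ I := Finset.mem_compl.mp hi
      simp [this]
  rw [h2, sub_eq_add_neg]
  congr 1
  apply Finset.sum_congr rfl
  intro i hi
  simp [hi]

/-- The elementary lower bound for `u log u - u` near zero. -/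
lemma f_lower {u s : ℝ} (hu : 0 < u) (hus : u ≤ s ^ 2) (hs : 0 < s) (hs1 : s ≤ 1) :
    -(2 * s) ≤ u * Real.log u - u := by
  set w := Real.sqrt u with hw
  have hw0 : 0 < w := Real.sqrt_pos.mpr hu
  have hws : w ≤ s := by
    rw [hw]
    exact Real.sqrt_le_iff.mpr ⟨hs.le, hus⟩
  have hw2 : w ^ 2 = u := Real.sq_sqrt hu.le
  have hlogw : Real.log u = 2 * Real.log w := by
    rw [← hw2, Real.log_pow]
    simp
  have h1 : -Real.log w ≤ 1 / w - 1 := by
    have := Real.log_le_sub_one_of_pos (div_pos one_pos hw0)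
    rw [Real.log_div one_ne_zero hw0.ne', Real.log_one] at this
    linarith
  have h2 : w ^ 2 * (-Real.log w) ≤ w ^ 2 * (1 / w - 1) :=
    mul_le_mul_of_nonneg_left h1 (by positivity)
  have h3 : w ^ 2 * (1 / w - 1) = w - w ^ 2 := by
    field_simp
  rw [hlogw, ← hw2]
  nlinarith

/-- The elementary upper bounds for `u log u - u` on `(0,1]`. -/
lemma f_upper {u : ℝ} (hu : 0 < u) (hu1 : u ≤ 1) : u * Real.log u - u ≤ -u := by
  have : Real.log u ≤ 0 := Real.log_nonpos hu.le hu1
  nlinarith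

/-- The last time some coordinate in `I` is above `ρ`. -/
lemma exists_last_time {a b : ℝ} {I : Finset (Fin d)}
    {y : ℝ → Fin d → ℝ} (hy : ContinuousOn y (Set.Icc a b)) {ρ : ℝ}
    (hab : a ≤ b) (h0 : ∃ i ∈ I, ρ ≤ y a i) (h1 : ∀ i ∈ I, y b i < ρ) :
    ∃ t', t' ∈ Set.Ico a b ∧ (∃ i ∈ I, ρ ≤ y t' i) ∧ (∀ i ∈ I, y t' i ≤ ρ) ∧
      ∀ s ∈ Set.Ioc t' b, ∀ i ∈ I, y s i < ρ := by
  classical
  have hyi : ∀ i, ContinuousOn (fun s => y s i) (Set.Icc a b) := fun i =>
    (continuous_apply i).comp_continuousOn hy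
  set A : Set ℝ := ⋃ i ∈ I, (Set.Icc a b ∩ (fun s => y s i) ⁻¹' Set.Ici ρ) with hA
  have hAclosed : IsClosed A := by
    apply isClosed_biUnion_finset
    intro i _
    exact (hyi i).preimage_isClosed_of_isClosed isClosed_Icc isClosed_Ici
  have hmem : ∀ s, s ∈ A ↔ (s ∈ Set.Icc a b ∧ ∃ i ∈ I, ρ ≤ y s i) := by
    intro s
    simp only [hA, Set.mem_iUnion, Set.mem_inter_iff, Set.mem_preimage, Set.mem_Ici, exists_prop]
    constructor
    · rintro ⟨i, hi, hs, hρ⟩
      exact ⟨hs, i, hi, hρ⟩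
    · rintro ⟨hs, i, hi, hρ⟩
      exact ⟨i, hi, hs, hρ⟩
  have hAne : A.Nonempty := ⟨a, (hmem a).mpr ⟨⟨le_rfl, hab⟩, h0⟩⟩
  have hAsub : A ⊆ Set.Icc a b := fun s hs => ((hmem s).mp hs).1
  have hAcomp : IsCompact A := isCompact_Icc.of_isClosed_subset hAclosed hAsub
  have ht' := hAcomp.sSup_mem hAne
  obtain ⟨t', ht'def⟩ : ∃ t', t' = sSup A := ⟨_, rfl⟩
  rw [← ht'def] at ht'
  have hbdd : BddAbove A := hAcomp.bddAbove
  obtain ⟨⟨hat', htb'⟩, hex⟩ := (hmem t').mp ht'
  have htb : t' < b := by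
    apply lt_of_le_of_ne htb'
    rintro rfl
    obtain ⟨i, hi, hρ⟩ := hex
    exact absurd hρ (not_le.mpr (h1 i hi))
  have hafter : ∀ s ∈ Set.Ioc t' b, ∀ i ∈ I, y s i < ρ := by
    intro s hs i hi
    by_contra hcon
    push Not at hcon
    have hsA : s ∈ A := (hmem s).mpr ⟨⟨le_trans hat' hs.1.le, hs.2⟩, i, hi, hcon⟩
    have := le_csSup hbdd hsA
    rw [← ht'def] at this
    exact absurd hs.1 (not_lt.mpr this)
  refine ⟨t', ⟨hat', htb⟩, hex, ?_, hafter⟩
  intro i hi
  have hcw : ContinuousWithinAt (fun s => y s i) (Set.Ioc t' b) t' :=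
    (hyi i t' ⟨hat', htb'⟩).mono (fun s hs => ⟨le_trans hat' hs.1.le, hs.2⟩)
  have htend := hcw.tendsto
  rw [nhdsWithin_Ioc_eq_nhdsGT htb] at htend
  apply le_of_tendsto htend
  have : ∀ᶠ s in 𝓝[>] t', s ∈ Set.Ioc t' b := Ioc_mem_nhdsGT htb
  filter_upwards [this] with s hs
  exact (hafter s hs i hi).le

lemma exists_min_coord {c : Fin d → ℝ} (hc : ∀ i, 0 < c i) : ∃ c₀ : ℝ, 0 < c₀ ∧ ∀ i, c₀ ≤ c i := by
  rcases isEmpty_or_nonempty (Fin d) with h | h
  · exact ⟨1, one_pos, fun i => (h.false i).elim⟩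
  · obtain ⟨i, _, hi⟩ := Finset.exists_min_image Finset.univ c Finset.univ_nonempty
    exact ⟨c i, hc i, fun j => hi j (Finset.mem_univ j)⟩

/-- Path derivative of the reduced point. -/
lemma hasDerivAt_hat (I : Finset (Fin d)) {x : ℝ → Fin d → ℝ} {f : Fin d → ℝ} {s : ℝ}
    (hx : HasDerivAt x f s) : HasDerivAt (fun τ => hat I (x τ)) (res I f) s := by
  rw [hasDerivAt_pi]
  intro i
  have hi := (hasDerivAt_pi.mp hx) i
  unfold hat res
  by_cases h : i ∈ I
  · simpa [h] using hi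
  · simpa [h] using hasDerivAt_const s (1 : ℝ)

lemma continuous_hat (I : Finset (Fin d)) : Continuous (hat I) := by
  apply continuous_pi
  intro i
  unfold hat
  by_cases h : i ∈ I
  · simpa [h] using continuous_apply i
  · simpa [h] using continuous_const

/-- The reduced difference set. -/
noncomputable def redE (R : Finset (Reaction d)) (I : Finset (Fin d)) : Finset (Fin d → ℝ) := by
  classical
  exact (diffs R).image (res I)

lemma mem_redE {R : Finset (Reaction d)} {I : Finset (Fin d)} {e : Fin d → ℝ} :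
    e ∈ redE R I ↔ ∃ e₁ ∈ diffs R, res I e₁ = e := by
  classical
  unfold redE
  simp only [Finset.mem_image]

/-- Monotonicity of the reduced barrier along solutions. -/
lemma reduced_mono {R : Finset (Reaction d)} (hWR : WeaklyReversible R) {ε : ℝ} (hε : 0 < ε)
    {T : ℝ} {k : ℝ → Reaction d → ℝ} {x : ℝ → Fin d → ℝ}
    (hk : ∀ t, ∀ r ∈ R, ε ≤ k t r ∧ k t r ≤ ε⁻¹)
    (hcont : ContinuousOn x (Set.Ico 0 T))
    (hpos : ∀ t ∈ Set.Ico 0 T, ∀ i, 0 < x t i)
    (hderiv : ∀ t ∈ Set.Ioo 0 T, HasDerivAt x (massAction R (k t) (x t)) t)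
    {I : Finset (Fin d)} {K K' δ : ℝ} (hKexp : (R.card : ℝ) / ε ^ 2 ≤ Real.exp K)
    {a b : ℝ} (ha0 : 0 ≤ a) (hab : a ≤ b) (hbT : b < T)
    (H : ∀ s ∈ Set.Ioc a b, ∃ n, Allowed (redE R I) δ n ∧
      (∀ n', Allowed (redE R I) δ n' → phi (hat I (x s)) n' ≤ phi (hat I (x s)) n) ∧
      (∀ e ∈ redE R I, 0 < dot e n → K' ≤ lev e (hat I (x s))))
    (Hl : ∀ s ∈ Set.Ioc a b, ∀ e ∈ diffs R, K' ≤ lev (res I e) (hat I (x s)) → K ≤ lev e (x s)) :
    W (redE R I) δ (hat I (x b)) ≤ W (redE R I) δ (hat I (x a)) := by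
  have hsub : Set.Icc a b ⊆ Set.Ico 0 T := fun s hs =>
    ⟨le_trans ha0 hs.1, lt_of_le_of_lt hs.2 hbT⟩
  have hPos : ∀ s ∈ Set.Icc a b, Pos (hat I (x s)) := fun s hs => pos_hat (hpos s (hsub hs))
  have hgc : ContinuousOn (fun s => W (redE R I) δ (hat I (x s))) (Set.Icc a b) := by
    apply (W_continuousOn (redE R I) δ).comp
    · exact (continuous_hat I).comp_continuousOn (hcont.mono hsub)
    · intro s hs
      exact hPos s hs
  apply monotone_lemma hab (fun s => W (redE R I) δ (hat I (x s))) (fun s => hat I (x s)) hgc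
  intro s hs
  have hsI : s ∈ Set.Icc a b := ⟨hs.1.le, hs.2⟩
  obtain ⟨n, hn, hmax, hprop⟩ := H s hs
  have hs0 : 0 < s := lt_of_le_of_lt ha0 hs.1
  have hsT : s < T := lt_of_le_of_lt hs.2 hbT
  refine ⟨n, res I (massAction R (k s) (x s)), ?_,
    hasDerivAt_hat I (hderiv s ⟨hs0, hsT⟩), ?_⟩
  · intro τ hτ
    have h1 := W_eq (hPos s hsI) hn hmax
    have h2 := phi_le_W (hPos τ hτ) hn
    have h3 := phi_sub (hat I (x s)) (hat I (x τ)) n
    show W (redE R I) δ (hat I (x s)) - W (redE R I) δ (hat I (x τ)) ≤ _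
    rw [h1]
    linarith
  · have hdr : dot n (res I (massAction R (k s) (x s)))
        = dot (res I n) (massAction R (k s) (x s)) := by
      unfold dot res
      apply Finset.sum_congr rfl
      intro i _
      by_cases h : i ∈ I <;> simp [h]
    rw [hdr]
    apply drift_nonpos hWR hε (hk s) (hpos s (hsub hsI)) hKexp
    intro e he hpose
    rw [← dot_res] at hpose
    exact Hl s hs e he (hprop _ (mem_redE.mpr ⟨e, he, rfl⟩) hpose)

end Vale.Agent.Lib.P072
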