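import Vale.Agent.Lib.P072.Profile

/-!
The slope function attached to a finite set of walls with a top wall: plateaus of radius `ρ`
around the walls, identity elsewhere, and constant above the start of the top plateau.
-/

namespace Vale.Agent.Lib.P072

open Classical in
/-- The slope function with walls `Z`, top `τ` and radius `ρ`. -/
noncomputable def slopeT (Z : Finset ℝ) (τ ρ : ℝ) (t : ℝ) : ℝ :=
  if τ - ρ ≤ t then τ else if h : ∃ z ∈ Z, |t - z| ≤ ρ then h.choose else t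

/-- The admissible values of the slope. -/
def Slot (Z : Finset ℝ) (τ ρ ν : ℝ) : Prop := ν ≤ τ ∧ (ν ∈ Z ∨ ∀ z ∈ Z, ρ < |ν - z|)

/-- Well separated walls with the top among them. -/
structure Walls (Z : Finset ℝ) (τ ρ : ℝ) : Prop where
  top : τ ∈ Z
  rad : 1 ≤ ρ
  sep : ∀ z ∈ Z, ∀ z' ∈ Z, z ≠ z' → 3 * ρ ≤ |z - z'|

open Classical in
/-- The extra width at a value of the slope. -/
noncomputable def wd (Z : Finset ℝ) (ρ ν : ℝ) : ℝ := if ν ∈ Z then ρ else 0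

variable {Z : Finset ℝ} {τ ρ : ℝ}

lemma slopeT_cases (Z : Finset ℝ) (τ ρ t : ℝ) :
    (τ - ρ ≤ t ∧ slopeT Z τ ρ t = τ) ∨
    (t < τ - ρ ∧ ∃ z ∈ Z, |t - z| ≤ ρ ∧ slopeT Z τ ρ t = z) ∨
    (t < τ - ρ ∧ (∀ z ∈ Z, ρ < |t - z|) ∧ slopeT Z τ ρ t = t) := by
  classical
  unfold slopeT
  by_cases h1 : τ - ρ ≤ t
  · left
    simp [h1]
  · right
    push Not at h1
    by_cases h2 : ∃ z ∈ Z, |t - z| ≤ ρ
    · left
      refine ⟨h1, h2.choose, h2.choose_spec.1, h2.choose_spec.2, ?_⟩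
      simp [not_le.mpr h1, h2]
    · right
      refine ⟨h1, ?_, ?_⟩
      · push Not at h2
        exact h2
      · simp [not_le.mpr h1, h2]

lemma Walls.rho_pos (h : Walls Z τ ρ) : 0 < ρ := by linarith [h.rad]

/-- Two walls within `2 ρ + something` coincide. -/
lemma Walls.eq_of_close (h : Walls Z τ ρ) {z z' : ℝ} (hz : z ∈ Z) (hz' : z' ∈ Z)
    (hc : |z - z'| < 3 * ρ) : z = z' := by
  by_contra hne
  have := h.sep z hz z' hz' hne
  linarith

lemma Walls.le_top (h : Walls Z τ ρ) {t z : ℝ} (hz : z ∈ Z) (ht : t < τ - ρ) (hzt : |t - z| ≤ ρ) :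
    z + 3 * ρ ≤ τ := by
  have h1 := abs_le.mp hzt
  have h2 := h.rho_pos
  have hne : z ≠ τ := by
    rintro rfl
    linarith [h1.1]
  have h3 := h.sep z hz τ h.top hne
  rcases le_abs.mp h3 with h4 | h4 <;> linarith [h1.1, h1.2]

lemma slopeT_mono (h : Walls Z τ ρ) : Monotone (slopeT Z τ ρ) := by
  have hρ := h.rho_pos
  intro s t hst
  rcases hst.lt_or_eq with hlt | rfl
  swap
  · exact le_rfl
  rcases slopeT_cases Z τ ρ s with ⟨h1, h2⟩ | ⟨h1, z, hz, h2, h3⟩ | ⟨h1, h2, h3⟩ <;>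
  rcases slopeT_cases Z τ ρ t with ⟨h4, h5⟩ | ⟨h4, z', hz', h5, h6⟩ | ⟨h4, h5, h6⟩
  · rw [h2, h5]
  · linarith
  · linarith
  · rw [h3, h5]
    linarith [h.le_top hz h1 h2]
  · rw [h3, h6]
    by_contra hcon
    push Not at hcon
    have h7 := abs_le.mp h2
    have h8 := abs_le.mp h5
    have hne : z ≠ z' := by
      rintro rfl
      exact lt_irrefl _ hcon
    have h9 := h.sep z hz z' hz' hne
    rw [abs_of_pos (by linarith)] at h9
    linarith [h7.1, h7.2, h8.1, h8.2]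
  · rw [h3, h6]
    have h7 := abs_le.mp h2
    rcases lt_abs.mp (h5 z hz) with h8 | h8 <;> linarith [h7.1, h7.2]
  · rw [h3, h5]
    linarith
  · rw [h3, h6]
    have h7 := abs_le.mp h5
    rcases lt_abs.mp (h2 z' hz') with h8 | h8 <;> linarith [h7.1, h7.2]
  · rw [h3, h6]
    exact hlt.le

lemma slopeT_upper (h : Walls Z τ ρ) (t : ℝ) : slopeT Z τ ρ t ≤ t + ρ := by
  rcases slopeT_cases Z τ ρ t with ⟨h1, h2⟩ | ⟨h1, z, hz, h2, h3⟩ | ⟨h1, h2, h3⟩
  · rw [h2]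
    linarith
  · rw [h3]
    linarith [(abs_le.mp h2).1]
  · rw [h3]
    linarith [h.rho_pos]

/-- Lower bound for the slope up to `U`. -/
lemma slopeT_lower (h : Walls Z τ ρ) {R U t : ℝ} (hR1 : ρ ≤ R) (hR2 : U - τ ≤ R) (ht : t ≤ U) :
    t - R ≤ slopeT Z τ ρ t := by
  rcases slopeT_cases Z τ ρ t with ⟨h1, h2⟩ | ⟨h1, z, hz, h2, h3⟩ | ⟨h1, h2, h3⟩
  · rw [h2]
    linarith
  · rw [h3]
    linarith [(abs_le.mp h2).2]
  · rw [h3]
    linarith [h.rho_pos]

lemma slopeT_prof (h : Walls Z τ ρ) : Prof (slopeT Z τ ρ) ρ where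
  mono := slopeT_mono h
  upper := slopeT_upper h
  lower := fun U => ⟨max ρ (U - τ), fun _ ht =>
    slopeT_lower h (le_max_left _ _) (le_max_right _ _) ht⟩

lemma slopeT_top (_h : Walls Z τ ρ) {t : ℝ} (ht : τ - ρ ≤ t) : slopeT Z τ ρ t = τ := by
  rcases slopeT_cases Z τ ρ t with ⟨_, h2⟩ | ⟨h1, _⟩ | ⟨h1, _⟩
  · exact h2
  · linarith
  · linarith

lemma slopeT_low (h : Walls Z τ ρ) {t : ℝ} (ht : t ≤ τ - ρ) : t - ρ ≤ slopeT Z τ ρ t :=
  slopeT_lower h le_rfl (by linarith [h.rho_pos]) ht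

/-- Admissible values are fixed. -/
lemma slopeT_fix (h : Walls Z τ ρ) {ν : ℝ} (hν : Slot Z τ ρ ν) : slopeT Z τ ρ ν = ν := by
  have hρ := h.rho_pos
  obtain ⟨hle, hν⟩ := hν
  rcases eq_or_lt_of_le hle with rfl | hlt
  · exact slopeT_top h (by linarith)
  have hlow : ν < τ - ρ := by
    rcases hν with hν | hν
    · have hne : ν ≠ τ := hlt.ne
      have h3 := h.sep ν hν τ h.top hne
      rcases le_abs.mp h3 with h4 | h4 <;> linarith
    · have h3 := hν τ h.top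
      rcases lt_abs.mp h3 with h4 | h4 <;> linarith
  rcases slopeT_cases Z τ ρ ν with ⟨h1, _⟩ | ⟨_, z, hz, h2, h3⟩ | ⟨_, _, h3⟩
  · linarith
  · rw [h3]
    rcases hν with hν | hν
    · refine h.eq_of_close hz hν ?_
      rw [abs_sub_comm]
      linarith
    · exact absurd h2 (not_le.mpr (hν z hz))
  · exact h3

/-- The slope takes admissible values. -/
lemma slopeT_slot (h : Walls Z τ ρ) (t : ℝ) : Slot Z τ ρ (slopeT Z τ ρ t) := by
  rcases slopeT_cases Z τ ρ t with ⟨h1, h2⟩ | ⟨h1, z, hz, h2, h3⟩ | ⟨h1, h2, h3⟩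
  · rw [h2]
    exact ⟨le_rfl, Or.inl h.top⟩
  · rw [h3]
    have := h.le_top hz h1 h2
    exact ⟨by linarith [h.rho_pos], Or.inl hz⟩
  · rw [h3]
    exact ⟨by linarith [h.rho_pos], Or.inr h2⟩

lemma wd_nonneg (h : Walls Z τ ρ) (ν : ℝ) : 0 ≤ wd Z ρ ν := by
  unfold wd
  split_ifs
  · exact h.rho_pos.le
  · exact le_rfl

lemma wd_of_mem {ν : ℝ} (hν : ν ∈ Z) : wd Z ρ ν = ρ := by
  simp [wd, hν]

lemma wd_of_not_mem {ν : ℝ} (hν : ν ∉ Z) : wd Z ρ ν = 0 := by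
  simp [wd, hν]

/-- Values other than the top lie below the top plateau. -/
lemma Slot.add_wd_le (h : Walls Z τ ρ) {ν : ℝ} (hν : Slot Z τ ρ ν) (hne : ν ≠ τ) :
    ν + wd Z ρ ν ≤ τ - ρ := by
  obtain ⟨hle, hν⟩ := hν
  have hρ := h.rho_pos
  have hlt : ν < τ := lt_of_le_of_ne hle hne
  by_cases hm : ν ∈ Z
  · rw [wd_of_mem hm]
    have h3 := h.sep ν hm τ h.top hne
    rcases le_abs.mp h3 with h4 | h4 <;> linarith
  · rw [wd_of_not_mem hm]
    rcases hν with hν | hν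
    · exact absurd hν hm
    · have h3 := hν τ h.top
      rcases lt_abs.mp h3 with h4 | h4 <;> linarith

/-- The slope has a gap above any admissible value other than the top. -/
lemma gap_right (h : Walls Z τ ρ) {ν : ℝ} (hν : Slot Z τ ρ ν) (hne : ν ≠ τ) :
    ν + 1 / 2 ≤ slopeT Z τ ρ (ν + wd Z ρ ν + 1 / 2) := by
  have hρ := h.rho_pos
  have hρ1 := h.rad
  have hb := Slot.add_wd_le h hν hne
  have hw := wd_nonneg h ν
  rcases slopeT_cases Z τ ρ (ν + wd Z ρ ν + 1 / 2) with ⟨h1, h2⟩ | ⟨h1, z, hz, h2, h3⟩ | ⟨h1, h2, h3⟩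
  · rw [h2]
    linarith
  · rw [h3]
    have h4 := abs_le.mp h2
    by_cases hm : ν ∈ Z
    · rw [wd_of_mem hm] at h4
      by_cases hzν : z = ν
      · rw [hzν] at h4
        linarith [h4.2]
      · have h5 := h.sep z hz ν hm hzν
        rcases le_abs.mp h5 with h6 | h6 <;> linarith [h4.1, h4.2]
    · rw [wd_of_not_mem hm] at h4
      rcases hν.2 with hν' | hν'
      · exact absurd hν' hm
      · have h5 := hν' z hz
        rcases lt_abs.mp h5 with h6 | h6 <;> linarith [h4.1, h4.2]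
  · rw [h3]
    linarith

/-- The slope has a gap below any admissible value. -/
lemma gap_left (h : Walls Z τ ρ) {ν : ℝ} (hν : Slot Z τ ρ ν) :
    slopeT Z τ ρ (ν - wd Z ρ ν - 1 / 2) ≤ ν - 1 / 2 := by
  have hρ := h.rho_pos
  have hρ1 := h.rad
  have hw := wd_nonneg h ν
  rcases slopeT_cases Z τ ρ (ν - wd Z ρ ν - 1 / 2) with ⟨h1, h2⟩ | ⟨h1, z, hz, h2, h3⟩ | ⟨h1, h2, h3⟩
  · exfalso
    by_cases hne : ν = τ
    · rw [wd_of_mem (hne ▸ h.top)] at h1
      linarith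
    · have hb := Slot.add_wd_le h hν hne
      linarith
  · rw [h3]
    have h4 := abs_le.mp h2
    by_cases hm : ν ∈ Z
    · rw [wd_of_mem hm] at h4
      by_cases hzν : z = ν
      · rw [hzν] at h4
        linarith [h4.1]
      · have h5 := h.sep z hz ν hm hzν
        rcases le_abs.mp h5 with h6 | h6 <;> linarith [h4.1, h4.2]
    · rw [wd_of_not_mem hm] at h4
      rcases hν.2 with hν' | hν'
      · exact absurd hν' hm
      · have h5 := hν' z hz
        rcases lt_abs.mp h5 with h6 | h6 <;> linarith [h4.1, h4.2]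
  · rw [h3]
    linarith

/-- The top is an admissible value. -/
lemma slot_top (h : Walls Z τ ρ) : Slot Z τ ρ τ := ⟨le_rfl, Or.inl h.top⟩

/-- The slope function without top: a single plateau around zero. -/
noncomputable def slope0 (ρ t : ℝ) : ℝ := if |t| ≤ ρ then 0 else t

/-- The admissible values of `slope0`. -/
def Slot0 (ρ ν : ℝ) : Prop := ν = 0 ∨ ρ < |ν|

lemma slope0_cases (ρ t : ℝ) :
    (|t| ≤ ρ ∧ slope0 ρ t = 0) ∨ (ρ < |t| ∧ slope0 ρ t = t) := by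
  unfold slope0
  by_cases h : |t| ≤ ρ
  · left
    simp [h]
  · right
    push Not at h
    simp [not_le.mpr h, h]

lemma slope0_mono (hρ : 0 ≤ ρ) : Monotone (slope0 ρ) := by
  intro s t hst
  rcases slope0_cases ρ s with ⟨h1, h2⟩ | ⟨h1, h2⟩ <;>
  rcases slope0_cases ρ t with ⟨h3, h4⟩ | ⟨h3, h4⟩
  · rw [h2, h4]
  · rw [h2, h4]
    have h5 := abs_le.mp h1
    rcases lt_abs.mp h3 with h6 | h6 <;> linarith [h5.1, h5.2]
  · rw [h2, h4]
    have h5 := abs_le.mp h3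
    rcases lt_abs.mp h1 with h6 | h6 <;> linarith [h5.1, h5.2]
  · rw [h2, h4]
    exact hst

lemma slope0_upper (hρ : 0 ≤ ρ) (t : ℝ) : slope0 ρ t ≤ t + ρ := by
  rcases slope0_cases ρ t with ⟨h1, h2⟩ | ⟨_, h2⟩
  · rw [h2]
    linarith [(abs_le.mp h1).1]
  · rw [h2]
    linarith

lemma slope0_lower (hρ : 0 ≤ ρ) (t : ℝ) : t - ρ ≤ slope0 ρ t := by
  rcases slope0_cases ρ t with ⟨h1, h2⟩ | ⟨_, h2⟩
  · rw [h2]
    linarith [(abs_le.mp h1).2]
  · rw [h2]
    linarith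

lemma slope0_prof (hρ : 0 ≤ ρ) : Prof (slope0 ρ) ρ where
  mono := slope0_mono hρ
  upper := slope0_upper hρ
  lower := fun _ => ⟨ρ, fun t _ => slope0_lower hρ t⟩

lemma slope0_fix (hρ : 0 ≤ ρ) {ν : ℝ} (hν : Slot0 ρ ν) : slope0 ρ ν = ν := by
  rcases hν with rfl | hν
  · simp [slope0, hρ]
  · simp [slope0, not_le.mpr hν]

lemma slope0_slot (t : ℝ) : Slot0 ρ (slope0 ρ t) := by
  rcases slope0_cases ρ t with ⟨_, h2⟩ | ⟨h1, h2⟩
  · rw [h2]
    exact Or.inl rfl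
  · rw [h2]
    exact Or.inr h1

/-- The extra width for `slope0`. -/
noncomputable def wd0 (ρ ν : ℝ) : ℝ := if ν = 0 then ρ else 0

lemma wd0_nonneg (hρ : 0 ≤ ρ) (ν : ℝ) : 0 ≤ wd0 ρ ν := by
  unfold wd0
  split_ifs
  · exact hρ
  · exact le_rfl

lemma gap0_right (hρ : 1 ≤ ρ) {ν : ℝ} (hν : Slot0 ρ ν) :
    ν + 1 / 2 ≤ slope0 ρ (ν + wd0 ρ ν + 1 / 2) := by
  rcases hν with rfl | hν
  · rcases slope0_cases ρ (0 + wd0 ρ 0 + 1 / 2) with ⟨h1, _⟩ | ⟨_, h2⟩
    · exfalso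
      have h3 := (abs_le.mp h1).2
      simp only [wd0, if_true] at h3
      linarith
    · rw [h2]
      simp only [wd0, if_true]
      linarith
  · have hne : ν ≠ 0 := by
      rintro rfl
      simp only [abs_zero] at hν
      linarith
    simp only [wd0, hne, if_false]
    rcases slope0_cases ρ (ν + 0 + 1 / 2) with ⟨h1, h2⟩ | ⟨_, h2⟩
    · rw [h2]
      have h3 := abs_le.mp h1
      rcases lt_abs.mp hν with h4 | h4 <;> linarith [h3.1, h3.2]
    · rw [h2]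
      linarith

lemma gap0_left (hρ : 1 ≤ ρ) {ν : ℝ} (hν : Slot0 ρ ν) :
    slope0 ρ (ν - wd0 ρ ν - 1 / 2) ≤ ν - 1 / 2 := by
  rcases hν with rfl | hν
  · rcases slope0_cases ρ (0 - wd0 ρ 0 - 1 / 2) with ⟨h1, _⟩ | ⟨_, h2⟩
    · exfalso
      have h3 := (abs_le.mp h1).1
      simp only [wd0, if_true] at h3
      linarith
    · rw [h2]
      simp only [wd0, if_true]
      linarith
  · have hne : ν ≠ 0 := by
      rintro rfl
      simp only [abs_zero] at hν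
      linarith
    simp only [wd0, hne, if_false]
    rcases slope0_cases ρ (ν - 0 - 1 / 2) with ⟨h1, h2⟩ | ⟨_, h2⟩
    · rw [h2]
      have h3 := abs_le.mp h1
      rcases lt_abs.mp hν with h4 | h4 <;> linarith [h3.1, h3.2]
    · rw [h2]
      linarith

end Vale.Agent.Lib.P072
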