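import Vale.Agent.Lib.P072.Tower
import Vale.Agent.Lib.P072.Entropy

/-!
The static theorem: for every finite set of functionals there is a convex function, within a
multiple of the mass from the entropy, with a subgradient at every point that is close to the
logarithm, and whose pairing with each functional vanishes or is large with the sign of the
pairing of the functional with the logarithm.
-/

namespace Vale.Agent.Lib.P072

open Finset

variable {k : ℕ}

/-- Extension of a vector on `Fin (k + 1)` to the natural numbers. -/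
def vext (v : Fin (k + 1) → ℝ) : ℕ → ℝ := fun j => if h : j < k + 1 then v ⟨j, h⟩ else 0

lemma vext_coe (v : Fin (k + 1) → ℝ) (j : Fin (k + 1)) : vext v (j : ℕ) = v j := by
  unfold vext
  rw [dif_pos j.2]

lemma vext_of_lt (v : Fin (k + 1) → ℝ) {j : ℕ} (h : j < k + 1) : vext v j = v ⟨j, h⟩ := by
  simp [vext, h]

lemma dotk_vext (n : ℕ → ℝ) (v : Fin (k + 1) → ℝ) :
    dotk k n (vext v) = ∑ j : Fin (k + 1), n j * v j := by
  unfold dotk
  rw [Finset.sum_range]
  apply Finset.sum_congr rfl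
  intro j _
  rw [vext_coe]

lemma dotk_vext_left (n : ℕ → ℝ) (v : Fin (k + 1) → ℝ) :
    dotk k (vext v) n = ∑ j : Fin (k + 1), v j * n j := by
  unfold dotk
  rw [Finset.sum_range]
  apply Finset.sum_congr rfl
  intro j _
  rw [vext_coe]

lemma Vk_vext (v : Fin (k + 1) → ℝ) : Vk k (vext v) = ∑ j : Fin (k + 1), Fn (v j) := by
  unfold Vk
  rw [Finset.sum_range]
  apply Finset.sum_congr rfl
  intro j _
  rw [vext_coe]

lemma massk_vext (v : Fin (k + 1) → ℝ) : massk k (vext v) = ∑ j : Fin (k + 1), v j := by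
  unfold massk
  rw [Finset.sum_range]
  apply Finset.sum_congr rfl
  intro j _
  rw [vext_coe]

lemma posK_vext {v : Fin (k + 1) → ℝ} (hv : ∀ j, 0 < v j) : PosK k (vext v) := by
  intro i hi
  rw [vext_of_lt v (by omega)]
  exact hv _

lemma srt_vext {v : Fin (k + 1) → ℝ} (hv : Antitone v) : Srt k (vext v) 1 := by
  cases k with
  | zero => trivial
  | succ j =>
    refine ⟨fun i hi => ?_, ?_⟩
    · rw [vext_of_lt v (by omega), vext_of_lt v (by omega)]
      exact hv (Fin.mk_le_mk.mpr (by omega))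
    · rw [vext_of_lt v (by omega), vext_of_lt v (by omega), one_mul]
      exact hv (Fin.mk_le_mk.mpr (by omega))

lemma exists_sort (x : Fin (k + 1) → ℝ) :
    ∃ σ : Equiv.Perm (Fin (k + 1)), Antitone (fun j => x (σ j)) := by
  refine ⟨Tuple.sort (fun i => -x i), ?_⟩
  intro a b hab
  have := Tuple.monotone_sort (fun i => -x i) hab
  simp only [Function.comp] at this
  linarith

/-- The supremum of the affine functions over the family and its rearrangements. -/
noncomputable def Wf (k : ℕ) (N : Set (ℕ → ℝ)) (A : (ℕ → ℝ) → ℝ) (x : Fin (k + 1) → ℝ) : ℝ :=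
  sSup {v | ∃ σ : Equiv.Perm (Fin (k + 1)), ∃ n ∈ N, v = Ob k A (vext fun j => x (σ j)) n}

section

variable {δ ℓ Wb Cb : ℝ} {N : Set (ℕ → ℝ)} {A w : (ℕ → ℝ) → ℝ}

lemma Core.anti_fin (C : Core k 1 δ ℓ Wb Cb N A w) {n : ℕ → ℝ} (hn : n ∈ N) :
    Antitone (fun j : Fin (k + 1) => n j) := by
  have h : ∀ a b : ℕ, a ≤ b → b ≤ k → n b ≤ n a := by
    intro a b hab
    induction b, hab using Nat.le_induction with
    | base => intro _; exact le_rfl
    | succ b hb ih =>
      intro hbk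
      exact le_trans (C.anti n hn b (by omega)) (ih (by omega))
  intro a b hab
  exact h a b hab (by have := b.2; omega)

/-- The rearrangement inequality for the affine functions. -/
lemma Core.aff_le (C : Core k 1 δ ℓ Wb Cb N A w) {x : Fin (k + 1) → ℝ}
    {σ₀ : Equiv.Perm (Fin (k + 1))} (hσ₀ : Antitone (fun j => x (σ₀ j))) {n : ℕ → ℝ} (hn : n ∈ N)
    (σ : Equiv.Perm (Fin (k + 1))) :
    Ob k A (vext fun j => x (σ j)) n ≤ Ob k A (vext fun j => x (σ₀ j)) n := by
  unfold Ob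
  rw [dotk_vext, dotk_vext]
  have hm := (C.anti_fin hn).monovary hσ₀
  have h1 := hm.sum_mul_comp_perm_le_sum_mul (σ := σ.trans σ₀.symm)
  simp only [Equiv.trans_apply, Equiv.apply_symm_apply] at h1
  linarith

lemma Core.Wf_bdd (C : Core k 1 δ ℓ Wb Cb N A w) {x : Fin (k + 1) → ℝ} (hx : Pos x) :
    BddAbove {v | ∃ σ : Equiv.Perm (Fin (k + 1)), ∃ n ∈ N,
      v = Ob k A (vext fun j => x (σ j)) n} := by
  obtain ⟨σ₀, hσ₀⟩ := exists_sort x
  refine ⟨Vk k (vext fun j => x (σ₀ j)) + Cb * massk k (vext fun j => x (σ₀ j)), ?_⟩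
  rintro _ ⟨σ, n, hn, rfl⟩
  exact le_trans (C.aff_le hσ₀ hn σ) (C.ub _ (posK_vext fun j => hx _) n hn)

lemma Core.le_Wf (C : Core k 1 δ ℓ Wb Cb N A w) {x : Fin (k + 1) → ℝ} (hx : Pos x)
    (σ : Equiv.Perm (Fin (k + 1))) {n : ℕ → ℝ} (hn : n ∈ N) :
    Ob k A (vext fun j => x (σ j)) n ≤ Wf k N A x :=
  le_csSup (C.Wf_bdd hx) ⟨σ, n, hn, rfl⟩

lemma Core.Wf_le (C : Core k 1 δ ℓ Wb Cb N A w) {x : Fin (k + 1) → ℝ} {B : ℝ}
    (hB : ∀ σ : Equiv.Perm (Fin (k + 1)), ∀ n ∈ N, Ob k A (vext fun j => x (σ j)) n ≤ B) :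
    Wf k N A x ≤ B := by
  apply csSup_le
  · obtain ⟨n, hn⟩ := C.ne
    exact ⟨_, 1, n, hn, rfl⟩
  · rintro _ ⟨σ, n, hn, rfl⟩
    exact hB σ n hn

lemma V_eq_sum_Fn (x : Fin (k + 1) → ℝ) (σ₀ : Equiv.Perm (Fin (k + 1))) :
    V x = ∑ j, Fn (x (σ₀ j)) := by
  rw [Equiv.sum_comp σ₀ (fun i => Fn (x i))]
  rfl

lemma mass_eq_sum (x : Fin (k + 1) → ℝ) (σ₀ : Equiv.Perm (Fin (k + 1))) :
    ∑ i, x i = ∑ j, x (σ₀ j) :=
  (Equiv.sum_comp σ₀ x).symm

/-- The two sided comparison with the entropy. -/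
lemma Core.Wf_sub_V (C : Core k 1 δ ℓ Wb Cb N A w) {x : Fin (k + 1) → ℝ} (hx : Pos x) :
    |Wf k N A x - V x| ≤ Cb * ∑ i, x i := by
  obtain ⟨σ₀, hσ₀⟩ := exists_sort x
  have hpos : PosK k (vext fun j => x (σ₀ j)) := posK_vext fun j => hx _
  have h1 : Wf k N A x ≤ V x + Cb * ∑ i, x i := by
    apply C.Wf_le
    intro σ n hn
    refine le_trans (C.aff_le hσ₀ hn σ) ?_
    have := C.ub _ hpos n hn
    rwa [Vk_vext, massk_vext, ← V_eq_sum_Fn, ← mass_eq_sum] at this
  obtain ⟨n, hn, hval⟩ := C.lb _ hpos (srt_vext hσ₀)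
  rw [Vk_vext, massk_vext, ← V_eq_sum_Fn, ← mass_eq_sum] at hval
  have h2 := C.le_Wf hx σ₀ hn
  rw [abs_le]
  constructor <;> linarith

end

/-- The slope on the original coordinates. -/
def mof (σ₀ : Equiv.Perm (Fin (k + 1))) (n : ℕ → ℝ) : Fin (k + 1) → ℝ :=
  fun i => n (σ₀.symm i : Fin (k + 1))

lemma dot_mof (σ₀ : Equiv.Perm (Fin (k + 1))) (n : ℕ → ℝ) (z : Fin (k + 1) → ℝ) :
    dot (mof σ₀ n) z = dotk k n (vext fun j => z (σ₀ j)) := by
  rw [dotk_vext]
  unfold dot mof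
  rw [← Equiv.sum_comp σ₀]
  simp

lemma dot_e_mof (σ₀ : Equiv.Perm (Fin (k + 1))) (n : ℕ → ℝ) (e : Fin (k + 1) → ℝ) :
    dot e (mof σ₀ n) = dotk k (vext fun j => e (σ₀ j)) n := by
  rw [dotk_vext_left]
  unfold dot mof
  rw [← Equiv.sum_comp σ₀]
  simp

lemma abs_dot_sub_lev_le {d : ℕ} {e m x : Fin d → ℝ} {Dev : ℝ}
    (hm : ∀ i, |m i - Real.log (x i)| ≤ Dev) :
    |dot e m - lev e x| ≤ (∑ i, |e i|) * Dev := by
  unfold lev dot lg
  rw [← Finset.sum_sub_distrib, Finset.sum_mul]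
  refine le_trans (Finset.abs_sum_le_sum_abs _ _) (Finset.sum_le_sum fun i _ => ?_)
  rw [← mul_sub, abs_mul]
  exact mul_le_mul_of_nonneg_left (hm i) (abs_nonneg _)

lemma continuous_dot_left {d : ℕ} (x : Fin d → ℝ) : Continuous fun m : Fin d → ℝ => dot m x := by
  unfold dot
  fun_prop

lemma continuous_dot_right {d : ℕ} (e : Fin d → ℝ) : Continuous fun m : Fin d → ℝ => dot e m := by
  unfold dot
  fun_prop

/-- Passing from almost subgradients to subgradients. -/
lemma exact_of_almost {d : ℕ} {W : (Fin d → ℝ) → ℝ} {E : Finset (Fin d → ℝ)} {K₀ Dev : ℝ}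
    {x : Fin d → ℝ}
    (h : ∀ ε : ℝ, 0 < ε → ∃ m : Fin d → ℝ,
      (∀ x', Pos x' → W x - W x' ≤ dot m x - dot m x' + ε) ∧
      (∀ i, |m i - Real.log (x i)| ≤ Dev) ∧
      ∀ e ∈ E, dot e m = 0 ∨ (K₀ ≤ dot e m ∧ K₀ ≤ lev e x) ∨ dot e m ≤ -K₀) :
    ∃ m : Fin d → ℝ,
      (∀ x', Pos x' → W x - W x' ≤ dot m x - dot m x') ∧
      (∀ i, |m i - Real.log (x i)| ≤ Dev) ∧
      ∀ e ∈ E, dot e m = 0 ∨ (K₀ ≤ dot e m ∧ K₀ ≤ lev e x) ∨ dot e m ≤ -K₀ := by
  set T : ℕ → Set (Fin d → ℝ) := fun j => {m |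
      (∀ x', Pos x' → W x - W x' ≤ dot m x - dot m x' + 1 / ((j : ℝ) + 1)) ∧
      (∀ i, |m i - Real.log (x i)| ≤ Dev) ∧
      ∀ e ∈ E, dot e m = 0 ∨ (K₀ ≤ dot e m ∧ K₀ ≤ lev e x) ∨ dot e m ≤ -K₀} with hT
  have hclosed : ∀ j, IsClosed (T j) := by
    intro j
    have h1 : IsClosed {m : Fin d → ℝ |
        ∀ x', Pos x' → W x - W x' ≤ dot m x - dot m x' + 1 / ((j : ℝ) + 1)} := by
      simp only [Set.ofPred_forall]
      refine isClosed_iInter fun x' => isClosed_iInter fun _ => ?_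
      exact isClosed_le continuous_const
        (((continuous_dot_left x).sub (continuous_dot_left x')).add continuous_const)
    have h2 : IsClosed {m : Fin d → ℝ | ∀ i, |m i - Real.log (x i)| ≤ Dev} := by
      simp only [Set.ofPred_forall]
      refine isClosed_iInter fun i => ?_
      exact isClosed_le (by fun_prop) continuous_const
    have h3 : IsClosed {m : Fin d → ℝ |
        ∀ e ∈ E, dot e m = 0 ∨ (K₀ ≤ dot e m ∧ K₀ ≤ lev e x) ∨ dot e m ≤ -K₀} := by
      simp only [Set.ofPred_forall]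
      refine isClosed_iInter fun e => isClosed_iInter fun _ => ?_
      have hc := continuous_dot_right e
      have h4 : IsClosed {m : Fin d → ℝ | dot e m = 0} := isClosed_eq hc continuous_const
      have h5 : IsClosed {m : Fin d → ℝ | K₀ ≤ dot e m ∧ K₀ ≤ lev e x} :=
        (isClosed_le continuous_const hc).inter isClosed_const
      have h6 : IsClosed {m : Fin d → ℝ | dot e m ≤ -K₀} := isClosed_le hc continuous_const
      exact h4.union (h5.union h6)
    exact h1.inter (h2.inter h3)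
  have hmono : ∀ j, T (j + 1) ⊆ T j := by
    rintro j m ⟨h1, h2, h3⟩
    refine ⟨fun x' hx' => ?_, h2, h3⟩
    have h4 := h1 x' hx'
    have h5 : 1 / (((j + 1 : ℕ) : ℝ) + 1) ≤ 1 / ((j : ℝ) + 1) := by
      apply one_div_le_one_div_of_le (by positivity)
      push_cast
      linarith
    linarith
  have hne : ∀ j, (T j).Nonempty := by
    intro j
    obtain ⟨m, h1, h2, h3⟩ := h (1 / ((j : ℝ) + 1)) (by positivity)
    exact ⟨m, h1, h2, h3⟩
  have hcomp : IsCompact (T 0) := by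
    apply isCompact_Icc (a := fun i => Real.log (x i) - Dev)
      (b := fun i => Real.log (x i) + Dev) |>.of_isClosed_subset (hclosed 0)
    rintro m ⟨_, h2, _⟩
    constructor
    · intro i
      have := (abs_le.mp (h2 i)).1
      simp only
      linarith
    · intro i
      have := (abs_le.mp (h2 i)).2
      simp only
      linarith
  obtain ⟨m, hm⟩ := IsCompact.nonempty_iInter_of_sequence_nonempty_isCompact_isClosed T hmono hne
    hcomp hclosed
  have hm' := Set.mem_iInter.mp hm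
  refine ⟨m, ?_, (hm' 0).2.1, (hm' 0).2.2⟩
  intro x' hx'
  apply le_of_forall_pos_le_add
  intro ε hε
  obtain ⟨j, hj⟩ := exists_nat_one_div_lt hε
  have h1 := (hm' j).1 x' hx'
  linarith

open Classical in
/-- The symmetrized set of functionals. -/
noncomputable def symF (k : ℕ) (E : Finset (Fin (k + 1) → ℝ)) : Finset (ℕ → ℝ) :=
  ((Finset.univ : Finset (Equiv.Perm (Fin (k + 1)))) ×ˢ E).image
      (fun p => vext fun j => p.2 (p.1 j)) ∪ (Finset.range k).image bv

lemma symF_braid (k : ℕ) (E : Finset (Fin (k + 1) → ℝ)) : Braid k (symF k E) := by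
  classical
  intro i hi
  unfold symF
  exact Finset.mem_union_right _ (Finset.mem_image_of_mem _ (Finset.mem_range.mpr hi))

lemma symF_mem {k : ℕ} {E : Finset (Fin (k + 1) → ℝ)} {e : Fin (k + 1) → ℝ} (he : e ∈ E)
    (σ : Equiv.Perm (Fin (k + 1))) : (vext fun j => e (σ j)) ∈ symF k E := by
  classical
  unfold symF
  apply Finset.mem_union_left
  exact Finset.mem_image.mpr ⟨(σ, e), Finset.mem_product.mpr ⟨Finset.mem_univ _, he⟩, rfl⟩

/-- The static theorem. -/
theorem static {d : ℕ} (E : Finset (Fin d → ℝ)) (K₀ : ℝ) :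
    ∃ (W : (Fin d → ℝ) → ℝ) (C Dev : ℝ), 0 ≤ C ∧ (∀ x, Pos x → |W x - V x| ≤ C * ∑ i, x i) ∧
      ∀ x, Pos x → ∃ m : Fin d → ℝ,
        (∀ x', Pos x' → W x - W x' ≤ dot m x - dot m x') ∧
        (∀ i, |m i - Real.log (x i)| ≤ Dev) ∧
        ∀ e ∈ E, dot e m = 0 ∨ (K₀ ≤ dot e m ∧ K₀ ≤ lev e x) ∨ dot e m ≤ -K₀ := by
  classical
  cases d with
  | zero =>
    refine ⟨fun _ => 0, 0, 0, le_rfl, ?_, ?_⟩
    · intro x _
      simp [V]
    · intro x _
      refine ⟨0, ?_, fun i => i.elim0, ?_⟩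
      · intro x' _
        simp [dot]
      · intro e _
        left
        simp [dot]
  | succ k =>
    obtain ⟨B, hB⟩ : ∃ B, B = ∑ e ∈ E, ∑ i, |e i| := ⟨_, rfl⟩
    have hB0 : 0 ≤ B := by
      rw [hB]
      exact Finset.sum_nonneg fun e _ => Finset.sum_nonneg fun i _ => abs_nonneg _
    have hBe : ∀ e ∈ E, ∑ i, |e i| ≤ B := by
      intro e he
      rw [hB]
      exact Finset.single_le_sum (f := fun e : Fin (k + 1) → ℝ => ∑ i, |e i|)
        (fun e _ => Finset.sum_nonneg fun i _ => abs_nonneg _) he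
    obtain ⟨δ, ℓ, a, L₀, hδ, hδ1, hℓ, ha, hL₀, H⟩ :=
      level k (symF k E) (symF_braid k E) (B + 1) (by linarith) 1 le_rfl
    obtain ⟨L, hL⟩ : ∃ L, L = max L₀ (K₀ + B * ℓ) := ⟨_, rfl⟩
    have hLL₀ : L₀ ≤ L := by rw [hL]; exact le_max_left _ _
    have hLK : K₀ + B * ℓ ≤ L := by rw [hL]; exact le_max_right _ _
    have hL1 : 1 ≤ L := le_trans hL₀ hLL₀
    obtain ⟨N, A, w, C, hI⟩ := H L hLL₀
    refine ⟨Wf k N A, a * L, a * L + ℓ, by positivity, fun x hx => C.Wf_sub_V hx, ?_⟩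
    intro x hx
    obtain ⟨σ₀, hσ₀⟩ := exists_sort x
    have hpos : PosK k (vext fun j => x (σ₀ j)) := posK_vext fun j => hx _
    have hsrt : Srt k (vext fun j => x (σ₀ j)) 1 := srt_vext hσ₀
    set y : ℕ → ℝ := vext fun j => x (σ₀ j) with hy
    have hyk : 0 < y k := hpos k le_rfl
    apply exact_of_almost
    intro ε hε
    obtain ⟨n, hn, hnear⟩ := C.exists_near hpos (ε := min ε (δ * y k))
      (lt_min hε (by positivity))
    have hnm := C.nm y hpos hsrt n hn (hnear.mono (min_le_right _ _))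
    have hwn := C.w_nonneg n hn
    have hwle := C.w_le n hn
    have hbox : ∀ i, |mof σ₀ n i - Real.log (x i)| ≤ w n + ℓ := by
      intro i
      have h1 := hnm (σ₀.symm i : Fin (k + 1)) (by have := (σ₀.symm i).2; omega)
      rw [hy, vext_coe] at h1
      simpa [mof] using h1
    refine ⟨mof σ₀ n, ?_, fun i => le_trans (hbox i) (by linarith), ?_⟩
    · intro x' hx'
      have h1 : Wf k N A x ≤ Ob k A y n + ε := by
        apply C.Wf_le
        intro σ n' hn'
        have h2 := C.aff_le hσ₀ hn' σ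
        have h3 := hnear n' hn'
        have h4 : min ε (δ * y k) ≤ ε := min_le_left _ _
        linarith
      have h2 := C.le_Wf hx' σ₀ hn
      unfold Ob at h1 h2
      rw [dot_mof, dot_mof]
      linarith
    · intro e he
      have hsum := abs_dot_sub_lev_le (e := e) hbox
      have hsumB : (∑ i, |e i|) * (w n + ℓ) ≤ B * (w n + ℓ) :=
        mul_le_mul_of_nonneg_right (hBe e he) (by linarith)
      have habs := abs_le.mp (le_trans hsum hsumB)
      rcases hI n hn _ (symF_mem he σ₀) with h0 | h0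
      · left
        rw [dot_e_mof]
        exact h0
      · rw [← dot_e_mof] at h0
        have hbig : K₀ + B * (w n + ℓ) ≤ (B + 1) * (w n + L) := by
          have h1 : 0 ≤ B * L := by positivity
          have h2 : (B + 1) * (w n + L) = B * w n + B * L + w n + L := by ring
          have h3 : B * (w n + ℓ) = B * w n + B * ℓ := by ring
          rw [h2, h3]
          linarith
        rcases le_total 0 (dot e (mof σ₀ n)) with h1 | h1
        · right
          left
          rw [abs_of_nonneg h1] at h0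
          have hBw : 0 ≤ B * (w n + ℓ) := by positivity
          constructor <;> linarith [habs.1, habs.2]
        · right
          right
          rw [abs_of_nonpos h1] at h0
          have hBw : 0 ≤ B * (w n + ℓ) := by positivity
          linarith

end Vale.Agent.Lib.P072
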