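import Vale.Agent.Lib.P072.Entropy

/-!
The maximisers of the affine minorants over the banded set of gradients, at points where all
nearly flat directions are parallel.
-/

namespace Vale.Agent.Lib.P072

open Finset

variable {d : ℕ}

/-- Gradients that are exactly flat or at least `δ` away from flat along every `e ∈ E`. -/
def Allowed (E : Finset (Fin d → ℝ)) (δ : ℝ) (n : Fin d → ℝ) : Prop :=
  ∀ e ∈ E, dot e n = 0 ∨ δ ≤ |dot e n|

/-- Parallel vectors (vanishing two by two minors). -/
def Par (e e' : Fin d → ℝ) : Prop := ∀ i j, e i * e' j = e j * e' i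

lemma dot_smul (c : ℝ) (e n : Fin d → ℝ) : dot (c • e) n = c * dot e n := by
  unfold dot
  rw [Finset.mul_sum]
  apply Finset.sum_congr rfl
  intro i _
  simp only [Pi.smul_apply, smul_eq_mul]
  ring

lemma lev_smul (c : ℝ) (e x : Fin d → ℝ) : lev (c • e) x = c * lev e x := by
  unfold lev
  exact dot_smul c e _

lemma dot_zero' (n : Fin d → ℝ) : dot 0 n = 0 := by
  unfold dot
  simp

/-- If the level along `e` is below `K`, the exactly flat candidate strictly beats the
candidate at level `δ`. -/
lemma deadzone {x e : Fin d → ℝ} (hx : Pos x) (he : e ≠ 0) (hi : IntLike e) {B K δ : ℝ}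
    (heB : ∀ i, |e i| ≤ B) (hK : 0 ≤ K) (hδ : K + d * B * (2 + Real.exp K) ≤ δ)
    {α0 α1 : ℝ} (hz0 : Pos (shift x α0 e)) (hl0 : lev e (shift x α0 e) = 0)
    (h0s : lev e x ≤ 0 → 0 ≤ α0)
    (hz1 : Pos (shift x α1 e)) (hl1 : lev e (shift x α1 e) = δ)
    (h1s : lev e x ≤ δ → 0 ≤ α1)
    (hle : phi x (lg (shift x α0 e)) ≤ phi x (lg (shift x α1 e))) :
    K ≤ lev e x := by
  classical
  obtain ⟨i₁, hi₁⟩ : ∃ i, e i ≠ 0 := by
    by_contra hall
    push Not at hall
    exact he (funext hall)
  have hd : (1 : ℝ) ≤ d := by
    have : 0 < d := Fin.pos i₁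
    exact_mod_cast this
  have hB : 1 ≤ B := le_trans (hi i₁ hi₁) (heB i₁)
  have hexp : 0 < Real.exp K := Real.exp_pos K
  have hdB : 1 ≤ (d : ℝ) * B := by nlinarith
  have hδpos : 0 < δ := by nlinarith
  by_contra hlt
  push Not at hlt
  set t := lev e x with ht
  rcases lt_or_ge t 0 with hneg | hnn
  · -- the level is negative: monotonicity on the fibre
    have hα0 : 0 ≤ α0 := h0s hneg.le
    have hα0ne : α0 ≠ 0 := by
      intro h0
      have : shift x α0 e = x := by
        funext i
        simp [shift, h0]
      rw [this] at hl0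
      linarith
    have hα0pos : 0 < α0 := lt_of_le_of_ne hα0 (Ne.symm hα0ne)
    have h1 := phi_le_through hz0 (lg (shift x α1 e))
    have h2 := phi_lg_through hz0
    rw [hl0, mul_zero, sub_zero] at h2
    have h3 : dot e (lg (shift x α1 e)) = δ := hl1
    rw [h3] at h1
    have : 0 < α0 * δ := mul_pos hα0pos hδpos
    linarith
  · -- the level is small and nonnegative: compare entropy gaps
    set s := Finset.univ.filter (fun i => e i ≠ 0) with hs
    have hsne : s.Nonempty := ⟨i₁, Finset.mem_filter.mpr ⟨Finset.mem_univ _, hi₁⟩⟩
    obtain ⟨j, hjs, hjmin⟩ := Finset.exists_min_image s x hsne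
    have hej : e j ≠ 0 := (Finset.mem_filter.mp hjs).2
    have hej1 : 1 ≤ |e j| := hi j hej
    set c := - t / e j with hc
    have hcabs : |c| ≤ K := by
      rw [hc, abs_div, abs_neg, abs_of_nonneg hnn]
      have h1 : t / |e j| ≤ t := div_le_self hnn hej1
      linarith
    have hGc : G c ≤ Real.exp K :=
      le_trans (G_le_exp_abs c) (Real.exp_le_exp.mpr hcabs)
    -- the one coordinate candidate lies on the flat wall
    have hdot0 : dot e (fun i => Real.log (x i) + if i = j then c else 0) = 0 := by
      rw [dot_update, hc, ← ht]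
      field_simp
      ring
    have hup := phi_le_through hz0 (fun i => Real.log (x i) + if i = j then c else 0)
    rw [hdot0, mul_zero, sub_zero, phi_update hx] at hup
    have hz0val := phi_lg_through hz0
    rw [hl0, mul_zero, sub_zero] at hz0val
    have hxj : 0 < x j := hx j
    have hA : V x - x j * Real.exp K ≤ phi x (lg (shift x α0 e)) := by
      rw [hz0val]
      have : x j * G c ≤ x j * Real.exp K := mul_le_mul_of_nonneg_left hGc hxj.le
      linarith
    -- the lower bound for the gap at level δ
    have hgap := V_sub_phi_lg hx hz1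
    set a : Fin d → ℝ := fun i => Real.log (shift x α1 e i) - Real.log (x i) with ha
    have hΔ : 0 < δ - t := by nlinarith
    have hα1 : 0 ≤ α1 := h1s (by linarith)
    have hsum : ∑ i, e i * a i = δ - t := by
      rw [ha, sum_term_eq, hl1]
    have hcard : (∑ _i : Fin d, (δ - t) / d) ≤ ∑ i, e i * a i := by
      rw [hsum]
      simp only [Finset.sum_const, Finset.card_univ, Fintype.card_fin, nsmul_eq_mul]
      have hd0 : (d : ℝ) ≠ 0 := by linarith
      field_simp
      exact le_refl _
    have : Nonempty (Fin d) := ⟨i₁⟩
    obtain ⟨i, _, hi2⟩ := Finset.exists_le_of_sum_le (Finset.univ_nonempty) hcard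
    have hΔd : 0 < (δ - t) / d := div_pos hΔ (by linarith)
    have hei : e i ≠ 0 := by
      intro h0
      rw [h0, zero_mul] at hi2
      linarith
    have habsa : (δ - t) / d / B ≤ |a i| := by
      rw [div_le_iff₀ (by linarith)]
      have h1 : e i * a i ≤ |e i| * |a i| := by
        rw [← abs_mul]
        exact le_abs_self _
      have h2 : |e i| * |a i| ≤ B * |a i| :=
        mul_le_mul_of_nonneg_right (heB i) (abs_nonneg _)
      linarith
    have hGa : (δ - t) / d / B - 1 ≤ G (a i) := le_trans (by linarith) (G_ge_abs (a i))
    have hxij : x j ≤ x i := hjmin i (Finset.mem_filter.mpr ⟨Finset.mem_univ _, hei⟩)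
    have hterm : x j * ((δ - t) / d / B - 1) ≤ x i * G (a i) := by
      have h1 : x j * ((δ - t) / d / B - 1) ≤ x j * G (a i) :=
        mul_le_mul_of_nonneg_left hGa hxj.le
      have h2 : x j * G (a i) ≤ x i * G (a i) :=
        mul_le_mul_of_nonneg_right hxij (G_nonneg _)
      linarith
    have hsingle : x i * G (a i) ≤ ∑ i, x i * G (a i) :=
      Finset.single_le_sum (f := fun i => x i * G (a i))
        (fun k _ => mul_nonneg (hx k).le (G_nonneg _)) (Finset.mem_univ i)
    have hfinal : x j * ((δ - t) / d / B - 1) ≤ x j * Real.exp K := by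
      have h1 : ∑ i, x i * G (a i) = V x - phi x (lg (shift x α1 e)) := hgap.symm
      nlinarith
    have hfin2 : (δ - t) / d / B - 1 ≤ Real.exp K := le_of_mul_le_mul_left hfinal hxj
    have hBpos : 0 < B := by linarith
    have hdpos : (0 : ℝ) < d := by linarith
    have hfin3 : δ - t ≤ d * B * (1 + Real.exp K) := by
      have h1 : (δ - t) / d / B ≤ 1 + Real.exp K := by linarith
      rw [div_div, div_le_iff₀ (by positivity)] at h1
      linarith
    nlinarith

/-- The mirror statement of `deadzone` for the negative side. -/
lemma deadzone_neg {x e : Fin d → ℝ} (hx : Pos x) (he : e ≠ 0) (hi : IntLike e) {B K δ : ℝ}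
    (heB : ∀ i, |e i| ≤ B) (hK : 0 ≤ K) (hδ : K + d * B * (2 + Real.exp K) ≤ δ)
    {α0 α1 : ℝ} (hz0 : Pos (shift x α0 e)) (hl0 : lev e (shift x α0 e) = 0)
    (h0s : 0 ≤ lev e x → α0 ≤ 0)
    (hz1 : Pos (shift x α1 e)) (hl1 : lev e (shift x α1 e) = -δ)
    (h1s : -δ ≤ lev e x → α1 ≤ 0)
    (hle : phi x (lg (shift x α0 e)) ≤ phi x (lg (shift x α1 e))) :
    lev e x ≤ -K := by
  have hne : -e ≠ 0 := neg_ne_zero.mpr he
  have heB' : ∀ i, |(-e) i| ≤ B := by
    intro i
    simpa using heB i
  have h0' : shift x α0 e = shift x (-α0) (-e) := by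
    rw [shift_neg, neg_neg]
  have h1' : shift x α1 e = shift x (-α1) (-e) := by
    rw [shift_neg, neg_neg]
  rw [h0'] at hz0 hl0 hle
  rw [h1'] at hz1 hl1 hle
  have := deadzone hx hne hi.neg heB' hK hδ hz0
    (by rw [lev_neg, hl0, neg_zero])
    (by
      intro h
      rw [lev_neg] at h
      have := h0s (by linarith)
      linarith)
    hz1
    (by rw [lev_neg, hl1, neg_neg])
    (by
      intro h
      rw [lev_neg] at h
      have := h1s (by linarith)
      linarith)
    hle
  rw [lev_neg] at this
  linarith

/-- Structure of the maximiser when all nearly flat directions are parallel. -/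
lemma key_structure {x : Fin d → ℝ} (hx : Pos x) (E : Finset (Fin d → ℝ))
    (hEint : ∀ e ∈ E, IntLike e) {B K δ Λ : ℝ} (hEB : ∀ e ∈ E, ∀ i, |e i| ≤ B)
    (hK : 0 ≤ K) (hδ : K + d * B * (2 + Real.exp K) ≤ δ) (hδpos : 0 < δ) (hBnn : 0 ≤ B)
    (hΛ : δ + K + 2 * δ * d * B ≤ Λ)
    (Hfar : ∀ e ∈ E, ∀ e' ∈ E, |lev e x| < Λ → |lev e' x| < Λ → Par e e') :
    ∃ n, Allowed E δ n ∧ (∀ n', Allowed E δ n' → phi x n' ≤ phi x n) ∧
      (∀ e ∈ E, 0 < dot e n → K ≤ lev e x) ∧
      (V x ≤ phi x n ∨ ∃ e ∈ E, ∃ j, e j ≠ 0 ∧ V x - Real.exp δ * x j ≤ phi x n) ∧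
      ((∀ e ∈ E, dot e n = 0) →
        ∀ e ∈ E, ∃ e0 ∈ E, |lev e0 x| < Λ ∧ ∃ lam : ℝ, e = lam • e0) := by
  classical
  have hsumx : 0 ≤ ∑ i, x i := Finset.sum_nonneg fun i _ => (hx i).le
  have hdB0 : 0 ≤ (d : ℝ) * B := mul_nonneg (Nat.cast_nonneg d) hBnn
  have hKδ : K ≤ δ := by
    have h1 : 0 ≤ (d : ℝ) * B * (2 + Real.exp K) :=
      mul_nonneg hdB0 (by have := Real.exp_pos K; linarith)
    linarith
  have hΛpos : 0 < Λ := by
    have h3 : 0 ≤ 2 * δ * d * B := by positivity
    linarith
  by_cases hA : Allowed E δ (lg x)
  · refine ⟨lg x, hA, ?_, ?_, ?_, ?_⟩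
    · intro n' _
      rw [phi_lg hx]
      exact phi_le_V hx n'
    · intro e he hpos
      rcases hA e he with h | h
      · exact absurd h hpos.ne'
      · rw [abs_of_pos hpos] at h
        exact le_trans hKδ h
    · left
      rw [phi_lg hx]
    · intro hall e he
      refine ⟨e, he, ?_, 1, by simp⟩
      have : lev e x = 0 := hall e he
      rw [this, abs_zero]
      exact hΛpos
  · -- some direction is inside the band
    unfold Allowed at hA
    push Not at hA
    obtain ⟨e1, he1E, he1ne, he1lt⟩ := hA
    have hlev1 : lev e1 x = dot e1 (lg x) := rfl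
    have he1zero : e1 ≠ 0 := by
      rintro rfl
      exact he1ne (dot_zero' _)
    -- vectors parallel to e1
    set L := E.filter (fun e => e ≠ 0 ∧ Par e e1) with hL
    have he1L : e1 ∈ L := by
      refine Finset.mem_filter.mpr ⟨he1E, he1zero, ?_⟩
      intro i j
      ring
    obtain ⟨e0, he0L, he0min⟩ := Finset.exists_min_image L (fun e => ‖e‖) ⟨e1, he1L⟩
    obtain ⟨he0E, he0ne, he0par⟩ : e0 ∈ E ∧ e0 ≠ 0 ∧ Par e0 e1 := by
      obtain ⟨h1, h2, h3⟩ := Finset.mem_filter.mp he0L
      exact ⟨h1, h2, h3⟩
    -- every vector in L is a multiple of e0 with factor at least one in absolute value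
    obtain ⟨i1, hi1⟩ : ∃ i, e1 i ≠ 0 := by
      by_contra hall
      push Not at hall
      exact he1zero (funext hall)
    have hmul : ∀ e, Par e e1 → e = (e i1 / e1 i1) • e1 := by
      intro e hpar
      funext i
      have := hpar i i1
      simp only [Pi.smul_apply, smul_eq_mul]
      field_simp
      linarith
    have ha0 : e0 i1 / e1 i1 ≠ 0 := by
      intro h0
      apply he0ne
      have := hmul e0 he0par
      rw [h0, zero_smul] at this
      exact this
    have hline : ∀ e ∈ L, ∃ lam : ℝ, e = lam • e0 ∧ 1 ≤ |lam| := by
      intro e heL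
      obtain ⟨_, _, hpar⟩ := Finset.mem_filter.mp heL
      set lam := (e i1 / e1 i1) / (e0 i1 / e1 i1) with hlam
      have h1 : e = lam • e0 := by
        conv_lhs => rw [hmul e hpar]
        conv_rhs => rw [hmul e0 he0par]
        rw [smul_smul, hlam, div_mul_cancel₀ _ ha0]
      refine ⟨lam, h1, ?_⟩
      have h2 : ‖e0‖ ≤ ‖e‖ := he0min e heL
      rw [h1, norm_smul] at h2
      have h3 : 0 < ‖e0‖ := norm_pos_iff.mpr he0ne
      have h4 : 1 * ‖e0‖ ≤ ‖lam‖ * ‖e0‖ := by linarith
      have := le_of_mul_le_mul_right h4 h3
      simpa using this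
    have hi0 : IntLike e0 := hEint e0 he0E
    have he0B : ∀ i, |e0 i| ≤ B := hEB e0 he0E
    set t := lev e0 x with ht
    obtain ⟨μ, hμ, hμ1⟩ := hline e1 he1L
    have htbound : |t| < δ := by
      have h1 : lev e1 x = μ * t := by
        conv_lhs => rw [hμ]
        rw [lev_smul]
      have h2 : |lev e1 x| < δ := he1lt
      rw [h1, abs_mul] at h2
      have h3 := abs_nonneg t
      nlinarith
    have htl := abs_lt.mp htbound
    -- off line vectors have large level
    have hoff : ∀ e ∈ E, e ≠ 0 → e ∉ L → Λ ≤ |lev e x| := by
      intro e heE hene henL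
      by_contra hlt
      push Not at hlt
      apply henL
      refine Finset.mem_filter.mpr ⟨heE, hene, ?_⟩
      refine Hfar e heE e1 he1E hlt ?_
      have h2 : |lev e1 x| < δ := he1lt
      have h3 : 0 ≤ 2 * δ * d * B := by positivity
      linarith
    -- the three candidates
    obtain ⟨α0, hz0, hl0, h0a, h0b⟩ := fiber_solve hx he0ne hi0 0
    obtain ⟨αp, hzp, hlp, hpa, hpb⟩ := fiber_solve hx he0ne hi0 δ
    obtain ⟨αm, hzm, hlm, hma, hmb⟩ := fiber_solve hx he0ne hi0 (-δ)
    -- a general bound for points on the fibre with level of size at most δ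
    have hclose : ∀ α, Pos (shift x α e0) → |lev e0 (shift x α e0)| ≤ δ →
        ∀ e ∈ E, |dot e (lg (shift x α e0)) - lev e x| ≤ 2 * δ * d * B := by
      intro α hz hlevz e heE
      have h1 : dot e (lg (shift x α e0)) - lev e x
          = ∑ i, e i * (Real.log (shift x α e0 i) - Real.log (x i)) := by
        rw [sum_term_eq]
        rfl
      rw [h1]
      have hdiff : |lev e0 (shift x α e0) - lev e0 x| ≤ 2 * δ := by
        have := abs_sub (lev e0 (shift x α e0)) (lev e0 x)
        have h2 : |lev e0 (shift x α e0) - lev e0 x| ≤
            |lev e0 (shift x α e0)| + |lev e0 x| := abs_sub _ _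
        linarith
      calc |∑ i, e i * (Real.log (shift x α e0 i) - Real.log (x i))|
          ≤ ∑ i, |e i * (Real.log (shift x α e0 i) - Real.log (x i))| :=
            Finset.abs_sum_le_sum_abs _ _
        _ ≤ ∑ _i : Fin d, B * (2 * δ) := by
            apply Finset.sum_le_sum
            intro i _
            rw [abs_mul]
            exact mul_le_mul (hEB e heE i)
              (le_trans (abs_log_shift_le hx hi0 hz i) hdiff) (abs_nonneg _) hBnn
        _ = 2 * δ * d * B := by
            simp only [Finset.sum_const, Finset.card_univ, Fintype.card_fin, nsmul_eq_mul]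
            ring
    -- membership in the allowed set
    have hallowed : ∀ α, Pos (shift x α e0) →
        (lev e0 (shift x α e0) = 0 ∨ |lev e0 (shift x α e0)| = δ) →
        Allowed E δ (lg (shift x α e0)) := by
      intro α hz hc e heE
      by_cases hez : e = 0
      · left
        rw [hez]
        exact dot_zero' _
      by_cases heL : e ∈ L
      · obtain ⟨lam, hlam, hlam1⟩ := hline e heL
        rw [hlam, dot_smul]
        have hd : dot e0 (lg (shift x α e0)) = lev e0 (shift x α e0) := rfl
        rw [hd]
        rcases hc with hc | hc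
        · left
          rw [hc, mul_zero]
        · right
          rw [abs_mul, hc]
          nlinarith
      · right
        have hlarge := hoff e heE hez heL
        have hlev : |lev e0 (shift x α e0)| ≤ δ := by
          rcases hc with hc | hc
          · rw [hc, abs_zero]
            exact hδpos.le
          · exact hc.le
        have hc2 := hclose α hz hlev e heE
        have h3 : |lev e x| - |dot e (lg (shift x α e0)) - lev e x|
            ≤ |dot e (lg (shift x α e0))| := by
          have := abs_sub_abs_le_abs_sub (lev e x) (dot e (lg (shift x α e0)))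
          rw [abs_sub_comm (lev e x)] at this
          linarith
        linarith
    -- positivity transfers from the candidate to the level at x for off line vectors
    have hsignoff : ∀ α, Pos (shift x α e0) → |lev e0 (shift x α e0)| ≤ δ →
        ∀ e ∈ E, e ∉ L → e ≠ 0 → 0 < dot e (lg (shift x α e0)) → K ≤ lev e x := by
      intro α hz hlev e heE heL hene hpos
      have hlarge := hoff e heE hene heL
      have hc2 := abs_le.mp (hclose α hz hlev e heE)
      rcases le_total 0 (lev e x) with h | h
      · rw [abs_of_nonneg h] at hlarge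
        have h3 : 0 ≤ 2 * δ * d * B := by positivity
        linarith
      · rw [abs_of_nonpos h] at hlarge
        have h3 : 0 ≤ δ := hδpos.le
        have hkk : 0 ≤ K := hK
        linarith [hc2.2]
    -- upper bound by one of the three candidates
    have hv0 := phi_lg_through hz0
    have hvp := phi_lg_through hzp
    have hvm := phi_lg_through hzm
    rw [hl0, mul_zero, sub_zero] at hv0
    rw [hlp] at hvp
    rw [hlm] at hvm
    have hupper : ∀ n', Allowed E δ n' →
        phi x n' ≤ phi x (lg (shift x α0 e0)) ∨ phi x n' ≤ phi x (lg (shift x αp e0)) ∨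
        phi x n' ≤ phi x (lg (shift x αm e0)) := by
      intro n' hn'
      rcases hn' e0 he0E with hb | hb
      · left
        have := phi_le_through hz0 n'
        rw [hb, mul_zero, sub_zero] at this
        rw [hv0]
        exact this
      · rcases le_or_gt 0 (dot e0 n') with hb0 | hb0
        · right; left
          rw [abs_of_nonneg hb0] at hb
          have hαp : 0 ≤ αp := hpa htl.2.le
          have := phi_le_through hzp n'
          rw [hvp]
          have h2 : αp * δ ≤ αp * dot e0 n' := mul_le_mul_of_nonneg_left hb hαp
          linarith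
        · right; right
          rw [abs_of_neg hb0] at hb
          have hαm : αm ≤ 0 := hmb htl.1.le
          have := phi_le_through hzm n'
          rw [hvm]
          have h2 : αm * dot e0 n' ≥ αm * (-δ) :=
            mul_le_mul_of_nonpos_left (by linarith) hαm
          linarith
    -- the value lower bound
    obtain ⟨j, hj⟩ : ∃ i, e0 i ≠ 0 := by
      by_contra hall
      push Not at hall
      exact he0ne (funext hall)
    have hval0 : V x - Real.exp δ * x j ≤ phi x (lg (shift x α0 e0)) := by
      set c := - t / e0 j with hc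
      have hj1 : 1 ≤ |e0 j| := hi0 j hj
      have hcabs : |c| ≤ δ := by
        rw [hc, abs_div, abs_neg]
        have h1 : |t| / |e0 j| ≤ |t| := div_le_self (abs_nonneg _) hj1
        linarith
      have hGc : G c ≤ Real.exp δ :=
        le_trans (G_le_exp_abs c) (Real.exp_le_exp.mpr hcabs)
      have hdot0 : dot e0 (fun i => Real.log (x i) + if i = j then c else 0) = 0 := by
        rw [dot_update, hc, ← ht]
        field_simp
        ring
      have hup := phi_le_through hz0 (fun i => Real.log (x i) + if i = j then c else 0)
      rw [hdot0, mul_zero, sub_zero, phi_update hx] at hup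
      rw [hv0]
      have hxj : 0 < x j := hx j
      have h1 : x j * G c ≤ x j * Real.exp δ :=
        mul_le_mul_of_nonneg_left hGc hxj.le
      linarith
    -- the property on vectors of L for each candidate
    have hlevabs0 : |lev e0 (shift x α0 e0)| ≤ δ := by
      rw [hl0, abs_zero]
      exact hδpos.le
    have hlevabsp : |lev e0 (shift x αp e0)| ≤ δ := by
      rw [hlp, abs_of_pos hδpos]
    have hlevabsm : |lev e0 (shift x αm e0)| ≤ δ := by
      rw [hlm, abs_neg, abs_of_pos hδpos]
    have hal0 := hallowed α0 hz0 (Or.inl hl0)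
    have halp := hallowed αp hzp (Or.inr (by rw [hlp, abs_of_pos hδpos]))
    have halm := hallowed αm hzm (Or.inr (by rw [hlm, abs_neg, abs_of_pos hδpos]))
    by_cases hcase0 : phi x (lg (shift x αp e0)) ≤ phi x (lg (shift x α0 e0)) ∧
        phi x (lg (shift x αm e0)) ≤ phi x (lg (shift x α0 e0))
    · refine ⟨lg (shift x α0 e0), hal0, ?_, ?_, Or.inr ⟨e0, he0E, j, hj, hval0⟩, ?_⟩
      · intro n' hn'
        rcases hupper n' hn' with h | h | h
        · exact h
        · exact le_trans h hcase0.1
        · exact le_trans h hcase0.2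
      · intro e heE hpos
        by_cases hez : e = 0
        · rw [hez, dot_zero'] at hpos
          exact absurd hpos (lt_irrefl _)
        by_cases heL : e ∈ L
        · obtain ⟨lam, hlam, _⟩ := hline e heL
          rw [hlam, dot_smul] at hpos
          have hd : dot e0 (lg (shift x α0 e0)) = 0 := hl0
          rw [hd, mul_zero] at hpos
          exact absurd hpos (lt_irrefl _)
        · exact hsignoff α0 hz0 hlevabs0 e heE heL hez hpos
      · intro hall e heE
        have ht0 : |lev e0 x| < Λ := by
          have h3 : 0 ≤ 2 * δ * d * B := by positivity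
          have h4 : |t| < δ := htbound
          rw [← ht]
          linarith
        by_cases hez : e = 0
        · exact ⟨e0, he0E, ht0, 0, by simp [hez]⟩
        by_cases heL : e ∈ L
        · obtain ⟨lam, hlam, _⟩ := hline e heL
          exact ⟨e0, he0E, ht0, lam, hlam⟩
        · exfalso
          rcases hal0 e heE with h | h
          · have h5 := hall e heE
            have hlarge := hoff e heE hez heL
            have hc2 := hclose α0 hz0 hlevabs0 e heE
            rw [h5, zero_sub, abs_neg] at hc2
            have h3 : 0 ≤ K := hK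
            linarith
          · have h5 := hall e heE
            rw [h5, abs_zero] at h
            linarith
    · by_cases hcasep : phi x (lg (shift x αm e0)) ≤ phi x (lg (shift x αp e0))
      · have hp0 : phi x (lg (shift x α0 e0)) ≤ phi x (lg (shift x αp e0)) := by
          by_contra hcon
          push Not at hcon
          exact hcase0 ⟨hcon.le, le_trans hcasep hcon.le⟩
        refine ⟨lg (shift x αp e0), halp, ?_, ?_,
          Or.inr ⟨e0, he0E, j, hj, le_trans hval0 hp0⟩, ?_⟩
        · intro n' hn'
          rcases hupper n' hn' with h | h | h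
          · exact le_trans h hp0
          · exact h
          · exact le_trans h hcasep
        · intro e heE hpos
          by_cases hez : e = 0
          · rw [hez, dot_zero'] at hpos
            exact absurd hpos (lt_irrefl _)
          by_cases heL : e ∈ L
          · obtain ⟨lam, hlam, hlam1⟩ := hline e heL
            rw [hlam, dot_smul] at hpos
            have hd : dot e0 (lg (shift x αp e0)) = δ := hlp
            rw [hd] at hpos
            have hlampos : 0 < lam := by
              by_contra hcon
              push Not at hcon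
              nlinarith
            have hKt : K ≤ t := deadzone hx he0ne hi0 he0B hK hδ hz0 hl0 h0a hzp hlp hpa hp0
            rw [hlam, lev_smul]
            rw [abs_of_pos hlampos] at hlam1
            have hK0 : 0 ≤ t := le_trans hK hKt
            nlinarith
          · exact hsignoff αp hzp hlevabsp e heE heL hez hpos
        · intro hall
          exfalso
          have h5 : dot e0 (lg (shift x αp e0)) = δ := hlp
          have h6 := hall e0 he0E
          rw [h5] at h6
          linarith
      · push Not at hcasep
        have hm0 : phi x (lg (shift x α0 e0)) ≤ phi x (lg (shift x αm e0)) := by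
          by_contra hcon
          push Not at hcon
          exact hcase0 ⟨le_trans hcasep.le hcon.le, hcon.le⟩
        refine ⟨lg (shift x αm e0), halm, ?_, ?_,
          Or.inr ⟨e0, he0E, j, hj, le_trans hval0 hm0⟩, ?_⟩
        · intro n' hn'
          rcases hupper n' hn' with h | h | h
          · exact le_trans h hm0
          · exact le_trans h hcasep.le
          · exact h
        · intro e heE hpos
          by_cases hez : e = 0
          · rw [hez, dot_zero'] at hpos
            exact absurd hpos (lt_irrefl _)
          by_cases heL : e ∈ L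
          · obtain ⟨lam, hlam, hlam1⟩ := hline e heL
            rw [hlam, dot_smul] at hpos
            have hd : dot e0 (lg (shift x αm e0)) = -δ := hlm
            rw [hd] at hpos
            have hlamneg : lam < 0 := by
              by_contra hcon
              push Not at hcon
              nlinarith
            have hKt : t ≤ -K :=
              deadzone_neg hx he0ne hi0 he0B hK hδ hz0 hl0 h0b hzm hlm hmb hm0
            rw [hlam, lev_smul]
            rw [abs_of_neg hlamneg] at hlam1
            nlinarith
          · exact hsignoff αm hzm hlevabsm e heE heL hez hpos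
        · intro hall
          exfalso
          have h5 : dot e0 (lg (shift x αm e0)) = -δ := hlm
          have h6 := hall e0 he0E
          rw [h5] at h6
          linarith

end Vale.Agent.Lib.P072
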