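import Vale.Agent.Lib.P072.Core

/-!
The recursive construction: elimination of the last coordinate from a finite set of linear
functionals, and the tower of families obtained from it.
-/

namespace Vale.Agent.Lib.P072

open Finset

/-- Dividing a functional by its coefficient at the coordinate `k + 1`. -/
noncomputable def quo (k : ℕ) (e : ℕ → ℝ) : ℕ → ℝ := fun i => e i / e (k + 1)

open Classical in
/-- The wall functionals. -/
noncomputable def Dset (k : ℕ) (F : Finset (ℕ → ℝ)) : Finset (ℕ → ℝ) :=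
  (F.filter (fun e => e (k + 1) ≠ 0)).image (quo k)

open Classical in
/-- The functionals remaining after elimination of the coordinate `k + 1`. -/
noncomputable def Fdown (k : ℕ) (F : Finset (ℕ → ℝ)) : Finset (ℕ → ℝ) :=
  F.filter (fun e => e (k + 1) = 0) ∪ Finset.image₂ (fun a b => a - b) (Dset k F) (Dset k F)

/-- The functional `x_i - x_{i+1}`. -/
noncomputable def bv (i : ℕ) : ℕ → ℝ :=
  fun j => (if j = i then 1 else 0) - (if j = i + 1 then 1 else 0)

/-- The functionals comparing consecutive coordinates are present. -/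
def Braid (k : ℕ) (F : Finset (ℕ → ℝ)) : Prop := ∀ i < k, bv i ∈ F

/-- The walls at a prefix. -/
noncomputable def Zset (k : ℕ) (D : Finset (ℕ → ℝ)) (c : ℕ → ℝ) : Finset ℝ := by
  classical
  exact D.image (fun d => -dotk k d c)

lemma mem_Zset {k : ℕ} {D : Finset (ℕ → ℝ)} {c : ℕ → ℝ} {z : ℝ} :
    z ∈ Zset k D c ↔ ∃ d ∈ D, -dotk k d c = z := by
  classical
  unfold Zset
  simp only [Finset.mem_image]

lemma dotk_sub (k : ℕ) (a b c : ℕ → ℝ) : dotk k (a - b) c = dotk k a c - dotk k b c := by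
  unfold dotk
  rw [← Finset.sum_sub_distrib]
  apply Finset.sum_congr rfl
  intro i _
  simp only [Pi.sub_apply]
  ring

lemma dotk_quo (k : ℕ) {e : ℕ → ℝ} (he : e (k + 1) ≠ 0) (c : ℕ → ℝ) :
    dotk k e c = e (k + 1) * dotk k (quo k e) c := by
  unfold dotk quo
  rw [Finset.mul_sum]
  apply Finset.sum_congr rfl
  intro i _
  field_simp

lemma dotk_quo_bv (k : ℕ) (c : ℕ → ℝ) : -dotk k (quo k (bv k)) c = c k := by
  have h1 : bv k (k + 1) = -1 := by
    simp [bv]
  have h2 : dotk k (bv k) c = c k := by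
    unfold dotk
    rw [Finset.sum_range_succ]
    have h3 : ∑ i ∈ range k, bv k i * c i = 0 := by
      apply Finset.sum_eq_zero
      intro i hi
      have hi' := Finset.mem_range.mp hi
      have : bv k i = 0 := by
        simp only [bv]
        rw [if_neg (by omega), if_neg (by omega)]
        ring
      rw [this, zero_mul]
    rw [h3]
    simp [bv]
  have h4 := dotk_quo k (e := bv k) (by rw [h1]; norm_num) c
  rw [h1, h2] at h4
  linarith

lemma mem_Dset {k : ℕ} {F : Finset (ℕ → ℝ)} {e : ℕ → ℝ} (he : e ∈ F) (h0 : e (k + 1) ≠ 0) :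
    quo k e ∈ Dset k F := by
  classical
  unfold Dset
  exact Finset.mem_image_of_mem _ (Finset.mem_filter.mpr ⟨he, h0⟩)

lemma sub_mem_Fdown {k : ℕ} {F : Finset (ℕ → ℝ)} {a b : ℕ → ℝ} (ha : a ∈ Dset k F)
    (hb : b ∈ Dset k F) : a - b ∈ Fdown k F := by
  classical
  unfold Fdown
  exact Finset.mem_union_right _ (Finset.mem_image₂.mpr ⟨a, ha, b, hb, rfl⟩)

lemma mem_Fdown_of_zero {k : ℕ} {F : Finset (ℕ → ℝ)} {e : ℕ → ℝ} (he : e ∈ F)
    (h0 : e (k + 1) = 0) : e ∈ Fdown k F := by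
  classical
  unfold Fdown
  exact Finset.mem_union_left _ (Finset.mem_filter.mpr ⟨he, h0⟩)

lemma Braid.down {k : ℕ} {F : Finset (ℕ → ℝ)} (h : Braid (k + 1) F) : Braid k (Fdown k F) := by
  intro i hi
  apply mem_Fdown_of_zero (h i (by omega))
  simp only [bv]
  rw [if_neg (by omega), if_neg (by omega)]
  ring

lemma exists_min_coord_abs (F : Finset (ℕ → ℝ)) (k : ℕ) :
    ∃ m : ℝ, 0 < m ∧ ∀ e ∈ F, e k ≠ 0 → m ≤ |e k| := by
  classical
  induction F using Finset.induction_on with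
  | empty => exact ⟨1, one_pos, by simp⟩
  | insert a s _ ih =>
    obtain ⟨m, hm, h⟩ := ih
    by_cases ha : a k = 0
    · refine ⟨m, hm, ?_⟩
      intro e he hne
      rcases Finset.mem_insert.mp he with rfl | he'
      · exact absurd ha hne
      · exact h e he' hne
    · refine ⟨min m |a k|, lt_min hm (abs_pos.mpr ha), ?_⟩
      intro e he hne
      rcases Finset.mem_insert.mp he with rfl | he'
      · exact min_le_right _ _
      · exact le_trans (min_le_left _ _) (h e he' hne)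

/-- The smallness of `L ^ 2 * exp (-L)`. -/
lemma exists_large_L {κ : ℝ} (hκ : 0 < κ) :
    ∃ L₁ : ℝ, 1 ≤ L₁ ∧ ∀ L, L₁ ≤ L → L ^ 2 * Real.exp (-L) ≤ κ := by
  have h := Real.tendsto_pow_mul_exp_neg_atTop_nhds_zero 2
  have h2 := (h.eventually (gt_mem_nhds hκ))
  obtain ⟨L₁, hL₁⟩ := Filter.eventually_atTop.mp h2
  exact ⟨max L₁ 1, le_max_right _ _, fun L hL => (hL₁ L (le_trans (le_max_left _ _) hL)).le⟩

/-- The numerical conditions of the inductive step hold for large `L`. -/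
lemma exists_numeric {δ δ₀ ℓ₀ Λ b₁ c₁ : ℝ} (hδ₀ : 0 < δ₀) (hδ : 0 ≤ δ) (hΛ : 1 ≤ Λ)
    (hb₁ : 0 ≤ b₁) (hc₁ : 0 ≤ c₁) :
    ∃ L₁ : ℝ, 1 ≤ L₁ ∧ ∀ L, L₁ ≤ L →
      (δ + b₁ * L + (b₁ * L + c₁)) * (1 + δ₀ + 2 * (δ + b₁ * L + (b₁ * L + c₁)) * Λ) *
        Real.exp (3 / 2 - L) ≤ δ₀ / 2 ∧
      Real.exp (ℓ₀ - L) * (2 * (b₁ * L) + 1) ≤ δ₀ / 4 := by
  obtain ⟨β, hβ⟩ : ∃ β, β = δ + 2 * b₁ + c₁ := ⟨_, rfl⟩
  have hβ0 : 0 ≤ β := by rw [hβ]; positivity
  obtain ⟨κ₁, hκ₁⟩ : ∃ κ₁, κ₁ = β * (1 + δ₀ + 2 * β * Λ) * Real.exp (3 / 2) + 1 := ⟨_, rfl⟩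
  have hκ₁0 : 0 < κ₁ := by rw [hκ₁]; positivity
  obtain ⟨κ₂, hκ₂⟩ : ∃ κ₂, κ₂ = Real.exp ℓ₀ * (2 * b₁ + 1) + 1 := ⟨_, rfl⟩
  have hκ₂0 : 0 < κ₂ := by rw [hκ₂]; positivity
  obtain ⟨L₁, hL₁, h⟩ := exists_large_L (κ := min (δ₀ / 2 / κ₁) (δ₀ / 4 / κ₂))
    (lt_min (by positivity) (by positivity))
  refine ⟨L₁, hL₁, fun L hL => ?_⟩
  have hL1 : 1 ≤ L := le_trans hL₁ hL
  have hL0 : 0 < L := by linarith
  have hE := h L hL
  have hE1 : L ^ 2 * Real.exp (-L) ≤ δ₀ / 2 / κ₁ := le_trans hE (min_le_left _ _)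
  have hE2 : L ^ 2 * Real.exp (-L) ≤ δ₀ / 4 / κ₂ := le_trans hE (min_le_right _ _)
  have hexp := Real.exp_pos (-L)
  have hP : 0 ≤ L ^ 2 * Real.exp (-L) := by positivity
  constructor
  · have hCa : δ + b₁ * L + (b₁ * L + c₁) ≤ β * L := by
      rw [hβ]
      nlinarith
    have hCa0 : 0 ≤ δ + b₁ * L + (b₁ * L + c₁) := by positivity
    have h1 : 1 + δ₀ + 2 * (δ + b₁ * L + (b₁ * L + c₁)) * Λ ≤ (1 + δ₀ + 2 * β * Λ) * L := by
      have h2 : (δ + b₁ * L + (b₁ * L + c₁)) * Λ ≤ β * L * Λ :=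
        mul_le_mul_of_nonneg_right hCa (by linarith)
      nlinarith
    have h3 : 0 ≤ 1 + δ₀ + 2 * (δ + b₁ * L + (b₁ * L + c₁)) * Λ := by positivity
    have h4 := mul_le_mul hCa h1 h3 (by positivity)
    have h5 : Real.exp (3 / 2 - L) = Real.exp (3 / 2) * Real.exp (-L) := by
      rw [← Real.exp_add]
      ring_nf
    rw [h5]
    have hE3 : κ₁ * (L ^ 2 * Real.exp (-L)) ≤ δ₀ / 2 := by
      have := mul_le_mul_of_nonneg_left hE1 hκ₁0.le
      rwa [mul_div_cancel₀ _ hκ₁0.ne'] at this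
    have h6 : β * (1 + δ₀ + 2 * β * Λ) * Real.exp (3 / 2) * (L ^ 2 * Real.exp (-L))
        ≤ κ₁ * (L ^ 2 * Real.exp (-L)) := by
      apply mul_le_mul_of_nonneg_right _ hP
      rw [hκ₁]
      linarith
    have h7 := Real.exp_pos (3 / 2)
    calc (δ + b₁ * L + (b₁ * L + c₁)) * (1 + δ₀ + 2 * (δ + b₁ * L + (b₁ * L + c₁)) * Λ) *
          (Real.exp (3 / 2) * Real.exp (-L))
        ≤ (β * L * ((1 + δ₀ + 2 * β * Λ) * L)) * (Real.exp (3 / 2) * Real.exp (-L)) :=
          mul_le_mul_of_nonneg_right h4 (by positivity)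
      _ = β * (1 + δ₀ + 2 * β * Λ) * Real.exp (3 / 2) * (L ^ 2 * Real.exp (-L)) := by ring
      _ ≤ _ := le_trans h6 hE3
  · have h5 : Real.exp (ℓ₀ - L) = Real.exp ℓ₀ * Real.exp (-L) := by
      rw [← Real.exp_add]
      ring_nf
    rw [h5]
    have hE3 : κ₂ * (L ^ 2 * Real.exp (-L)) ≤ δ₀ / 4 := by
      have := mul_le_mul_of_nonneg_left hE2 hκ₂0.le
      rwa [mul_div_cancel₀ _ hκ₂0.ne'] at this
    have h6 : Real.exp ℓ₀ * (2 * b₁ + 1) * (L ^ 2 * Real.exp (-L))
        ≤ κ₂ * (L ^ 2 * Real.exp (-L)) := by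
      apply mul_le_mul_of_nonneg_right _ hP
      rw [hκ₂]
      linarith
    have h7 : 2 * (b₁ * L) + 1 ≤ (2 * b₁ + 1) * L ^ 2 := by
      nlinarith [mul_nonneg hb₁ (sub_nonneg.mpr hL1), sq_nonneg L,
        mul_nonneg (mul_nonneg hb₁ hL0.le) (sub_nonneg.mpr hL1)]
    have h8 := Real.exp_pos ℓ₀
    calc Real.exp ℓ₀ * Real.exp (-L) * (2 * (b₁ * L) + 1)
        ≤ Real.exp ℓ₀ * Real.exp (-L) * ((2 * b₁ + 1) * L ^ 2) :=
          mul_le_mul_of_nonneg_left h7 (by positivity)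
      _ = Real.exp ℓ₀ * (2 * b₁ + 1) * (L ^ 2 * Real.exp (-L)) := by ring
      _ ≤ _ := le_trans h6 hE3

lemma aux_one_le {r x : ℝ} (hr : 2 ≤ r) (hx : 1 ≤ x) : 1 ≤ r * x := by nlinarith

lemma aux_three {r ψ x : ℝ} (h : 3 * r ≤ ψ) (hx : 0 ≤ x) : 3 * (r * x) ≤ ψ * x := by nlinarith

lemma aux_le_mul {r x : ℝ} (hr : 2 ≤ r) (hx : 0 ≤ x) : x ≤ r * x := by nlinarith

lemma aux_cb1 {a₀ δ₀ b₁ c₁ L : ℝ} (hδ : 0 ≤ δ₀) (hb : 0 ≤ b₁) (hc : 0 ≤ c₁) (hL : 1 ≤ L) :
    a₀ * L + δ₀ ≤ (a₀ + δ₀ + b₁ + c₁) * L := by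
  have h1 : δ₀ ≤ δ₀ * L := by nlinarith
  have h2 : 0 ≤ b₁ * L := by positivity
  have h3 : 0 ≤ c₁ * L := by positivity
  nlinarith

lemma aux_cb2 {a₀ δ₀ b₁ c₁ L : ℝ} (hδ : 0 ≤ δ₀) (ha : 0 ≤ a₀) (hc : 0 ≤ c₁) (hL : 1 ≤ L) :
    b₁ * L + c₁ ≤ (a₀ + δ₀ + b₁ + c₁) * L := by
  have h1 : c₁ ≤ c₁ * L := by nlinarith
  have h2 : 0 ≤ a₀ * L := by positivity
  have h3 : 0 ≤ δ₀ * L := by positivity
  nlinarith

/-- The tower of families, with the dichotomy for every functional of `F`. -/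
theorem level (k : ℕ) : ∀ (F : Finset (ℕ → ℝ)), Braid k F → ∀ ψ : ℝ, 0 < ψ → ∀ Λ : ℝ, 1 ≤ Λ →
    ∃ δ ℓ a L₀ : ℝ, 0 < δ ∧ δ ≤ 1 / 10 ∧ 0 ≤ ℓ ∧ 0 ≤ a ∧ 1 ≤ L₀ ∧ ∀ L, L₀ ≤ L →
      ∃ (N : Set (ℕ → ℝ)) (A w : (ℕ → ℝ) → ℝ), Core k Λ δ ℓ (a * L) (a * L) N A w ∧
        ∀ n ∈ N, ∀ e ∈ F, dotk k e n = 0 ∨ ψ * (w n + L) ≤ |dotk k e n| := by
  induction k with
  | zero =>
    intro F _ ψ hψ Λ _
    obtain ⟨m, hm, hmF⟩ := exists_min_coord_abs F 0
    obtain ⟨r, hr⟩ : ∃ r, r = max (ψ / m) 1 := ⟨_, rfl⟩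
    have hr1 : 1 ≤ r := by rw [hr]; exact le_max_right _ _
    have hrψ : ψ ≤ m * r := by
      have h1 : ψ / m ≤ r := by rw [hr]; exact le_max_left _ _
      rwa [div_le_iff₀ hm, mul_comm] at h1
    refine ⟨1 / 10, 1, r, 1, by norm_num, le_rfl, zero_le_one, by linarith, le_rfl, ?_⟩
    intro L hL
    have hρ1 : 1 ≤ r * L := by nlinarith
    refine ⟨baseN (r * L), baseA (r * L), baseW (r * L),
      core_base hρ1 le_rfl (by norm_num) le_rfl le_rfl le_rfl, ?_⟩
    intro n hn e he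
    rw [dotk_zero]
    by_cases hn0 : n 0 = 0
    · left
      rw [hn0, mul_zero]
    by_cases he0 : e 0 = 0
    · left
      rw [he0, zero_mul]
    right
    have hw : baseW (r * L) n = 0 := by
      simp [baseW, wd0, hn0]
    rw [hw, zero_add, abs_mul]
    have h1 := hmF e he he0
    have h2 : r * L < |n 0| := by
      rcases hn with h | h
      · exact absurd h hn0
      · exact h
    have hL0 : 0 < L := by linarith
    calc ψ * L ≤ m * r * L := mul_le_mul_of_nonneg_right hrψ hL0.le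
      _ = m * (r * L) := by ring
      _ ≤ |e 0| * |n 0| := mul_le_mul h1 h2.le (by positivity) (abs_nonneg _)
  | succ k ih =>
    intro F hF ψ hψ Λ hΛ
    obtain ⟨m, hm, hmF⟩ := exists_min_coord_abs F (k + 1)
    obtain ⟨r, hr⟩ : ∃ r, r = max (ψ / m) 2 := ⟨_, rfl⟩
    have hr2 : 2 ≤ r := by rw [hr]; exact le_max_right _ _
    have hrψ : ψ ≤ m * r := by
      have h1 : ψ / m ≤ r := by rw [hr]; exact le_max_left _ _
      rwa [div_le_iff₀ hm, mul_comm] at h1
    obtain ⟨m₁, hm₁⟩ : ∃ m₁, m₁ = min 1 m := ⟨_, rfl⟩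
    have hm₁0 : 0 < m₁ := by rw [hm₁]; exact lt_min one_pos hm
    have hm₁1 : m₁ ≤ 1 := by rw [hm₁]; exact min_le_left _ _
    have hm₁m : m₁ ≤ m := by rw [hm₁]; exact min_le_right _ _
    obtain ⟨ψ', hψ'⟩ : ∃ ψ', ψ' = max ψ (max (ψ * (r + 1) / m₁) (3 * r)) := ⟨_, rfl⟩
    have hψ'1 : ψ ≤ ψ' := by rw [hψ']; exact le_max_left _ _
    have hψ'2 : ψ * (r + 1) ≤ m₁ * ψ' := by
      have h1 : ψ * (r + 1) / m₁ ≤ ψ' := by
        rw [hψ']
        exact le_trans (le_max_left _ _) (le_max_right _ _)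
      rw [mul_comm m₁ ψ']
      exact (div_le_iff₀ hm₁0).mp h1
    have hψ'3 : 3 * r ≤ ψ' := by
      rw [hψ']
      exact le_trans (le_max_right _ _) (le_max_right _ _)
    have hψ'0 : 0 < ψ' := by linarith
    obtain ⟨δ₀, ℓ₀, a₀, L₀, hδ₀, hδ₀1, hℓ₀, ha₀, hL₀1, H⟩ :=
      ih (Fdown k F) hF.down ψ' hψ'0 (Λ + 1) (by linarith)
    obtain ⟨δ, hδdef⟩ : ∃ δ, δ = min (1 / 10) (δ₀ / 4) := ⟨_, rfl⟩
    have hδ0 : 0 < δ := by
      rw [hδdef]
      exact lt_min (by norm_num) (by positivity)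
    have hδ1 : δ ≤ 1 / 10 := by rw [hδdef]; exact min_le_left _ _
    have hδ2 : δ ≤ δ₀ / 4 := by rw [hδdef]; exact min_le_right _ _
    have hlogΛ : 0 ≤ Real.log Λ := Real.log_nonneg hΛ
    have hlogΛ' : 0 ≤ Real.log (1 + Λ) := Real.log_nonneg (by linarith)
    obtain ⟨b₁, hb₁⟩ : ∃ b₁, b₁ = r * (a₀ + 1) + a₀ := ⟨_, rfl⟩
    have hb₁0 : 0 ≤ b₁ := by rw [hb₁]; positivity
    obtain ⟨c₁, hc₁⟩ : ∃ c₁, c₁ = Real.log Λ + ℓ₀ := ⟨_, rfl⟩
    have hc₁0 : 0 ≤ c₁ := by rw [hc₁]; positivity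
    obtain ⟨L₁, hL₁1, hL₁⟩ := exists_numeric (δ := δ) (ℓ₀ := ℓ₀) hδ₀ hδ0.le hΛ hb₁0 hc₁0
    obtain ⟨a, ha⟩ : ∃ a, a = a₀ + δ₀ + b₁ + c₁ := ⟨_, rfl⟩
    have ha0 : 0 ≤ a := by rw [ha]; positivity
    refine ⟨δ, ℓ₀ + Real.log (1 + Λ) + 1, a, max L₀ L₁, hδ0, hδ1, by positivity, ha0,
      le_trans hL₀1 (le_max_left _ _), ?_⟩
    intro L hL
    have hLL₀ : L₀ ≤ L := le_trans (le_max_left _ _) hL
    have hLL₁ : L₁ ≤ L := le_trans (le_max_right _ _) hL
    have hL1 : 1 ≤ L := le_trans hL₁1 hLL₁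
    have hL0 : 0 < L := by linarith
    obtain ⟨N₀, A₀, w₀, hC, hI⟩ := H L hLL₀
    obtain ⟨hN1, hN2⟩ := hL₁ L hLL₁
    set D := Dset k F with hD
    let Z : (ℕ → ℝ) → Finset ℝ := fun c => Zset k D c
    let ρ : (ℕ → ℝ) → ℝ := fun c => r * (w₀ c + L)
    have hρb0 : 0 ≤ b₁ * L := by positivity
    have hS : StepHyp k Λ δ δ₀ ℓ₀ (a₀ * L) (a₀ * L) L (b₁ * L) (b₁ * L + c₁) N₀ A₀ w₀ Z ρ :=
      { core := hC
        congrZ := by
          intro c c' h
          show Zset k D c = Zset k D c'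
          ext z
          simp only [mem_Zset]
          constructor
          · rintro ⟨d, hd, rfl⟩
            exact ⟨d, hd, by rw [dotk_congr_right d h]⟩
          · rintro ⟨d, hd, rfl⟩
            exact ⟨d, hd, by rw [dotk_congr_right d h]⟩
        congrρ := by
          intro c c' h
          show r * (w₀ c + L) = r * (w₀ c' + L)
          rw [hC.congrW c c' h]
        walls := by
          intro c hc
          have hw := hC.w_nonneg c hc
          refine
            { top := ?_, rad := ?_, sep := ?_ }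
          · show c k ∈ Zset k D c
            rw [mem_Zset]
            refine ⟨quo k (bv k), mem_Dset (hF k (by omega)) ?_, dotk_quo_bv k c⟩
            simp [bv]
          · show 1 ≤ r * (w₀ c + L)
            exact aux_one_le hr2 (by linarith)
          · intro z hz z' hz' hne
            obtain ⟨d, hd, rfl⟩ := mem_Zset.mp hz
            obtain ⟨d', hd', rfl⟩ := mem_Zset.mp hz'
            rcases hI c hc (d' - d) (sub_mem_Fdown hd' hd) with h0 | h0
            · exfalso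
              apply hne
              rw [dotk_sub] at h0
              linarith
            · rw [dotk_sub] at h0
              have h1 : -dotk k d c - -dotk k d' c = dotk k d' c - dotk k d c := by ring
              rw [h1]
              show 3 * (r * (w₀ c + L)) ≤ _
              refine le_trans ?_ h0
              exact aux_three hψ'3 (by linarith)
        rho_ge := by
          intro c hc
          have hw := hC.w_nonneg c hc
          show w₀ c + L ≤ r * (w₀ c + L)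
          exact aux_le_mul hr2 (by linarith)
        rho_le := by
          intro c hc
          have hw := hC.w_le c hc
          have hw0 := hC.w_nonneg c hc
          show r * (w₀ c + L) ≤ b₁ * L
          rw [hb₁]
          have h1 : r * (w₀ c + L) ≤ r * (a₀ * L + L) :=
            mul_le_mul_of_nonneg_left (by linarith) (by linarith)
          have h2 : 0 ≤ a₀ * L := by positivity
          have h3 : (r * (a₀ + 1) + a₀) * L = r * (a₀ * L + L) + a₀ * L := by ring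
          rw [h3]
          linarith
        hL := hL0.le
        hΛ := hΛ
        hδ := hδ0
        hδ1 := hδ1
        hδ₀ := hδ₀
        hδδ₀ := hδ2
        hρR := by linarith
        hR := by
          rw [hc₁, hb₁]
          have h0 : 0 ≤ r * (a₀ + 1) * L := by positivity
          have h3 : (r * (a₀ + 1) + a₀) * L = r * (a₀ + 1) * L + a₀ * L := by ring
          rw [h3]
          linarith
        N1 := hN1
        N2 := hN2 }
    refine ⟨nextN k N₀ Z ρ, nextA k A₀ Z ρ, nextW k w₀ Z ρ, ?_, ?_⟩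
    · refine hS.core_next hℓ₀ le_rfl ?_ ?_ ?_ ?_
      · apply mul_le_mul_of_nonneg_right _ hL0.le
        rw [ha]
        linarith
      · apply mul_le_mul_of_nonneg_right _ hL0.le
        rw [ha]
        linarith
      · rw [ha]
        exact aux_cb1 hδ₀.le hb₁0 hc₁0 hL1
      · rw [ha]
        exact aux_cb2 hδ₀.le ha₀ hc₁0 hL1
    · intro n hn e he
      have hw := hC.w_nonneg n hn.1
      have hwL : 0 ≤ w₀ n + L := by linarith
      rw [dotk_succ]
      have hineq : ψ * (r * (w₀ n + L) + L) ≤ m₁ * ψ' * (w₀ n + L) := by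
        have h1 : r * (w₀ n + L) + L ≤ (r + 1) * (w₀ n + L) := by
          have h2 : (r + 1) * (w₀ n + L) = r * (w₀ n + L) + (w₀ n + L) := by ring
          rw [h2]
          linarith
        calc ψ * (r * (w₀ n + L) + L) ≤ ψ * ((r + 1) * (w₀ n + L)) :=
              mul_le_mul_of_nonneg_left h1 hψ.le
          _ = ψ * (r + 1) * (w₀ n + L) := by ring
          _ ≤ m₁ * ψ' * (w₀ n + L) := mul_le_mul_of_nonneg_right hψ'2 hwL
      have hψ'pos : 0 ≤ ψ' * (w₀ n + L) := by positivity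
      have hm₁ψ : m₁ * ψ' * (w₀ n + L) ≤ ψ' * (w₀ n + L) := by
        have h2 : m₁ * ψ' * (w₀ n + L) = m₁ * (ψ' * (w₀ n + L)) := by ring
        rw [h2]
        exact mul_le_of_le_one_left hψ'pos hm₁1
      have hnW : ψ * (nextW k w₀ Z ρ n + L) ≤ ψ' * (w₀ n + L) := by
        unfold nextW
        split_ifs
        · exact le_trans hineq hm₁ψ
        · exact mul_le_mul_of_nonneg_right hψ'1 hwL
      by_cases he0 : e (k + 1) = 0
      · rw [he0, zero_mul, add_zero]
        rcases hI n hn.1 e (mem_Fdown_of_zero he he0) with h0 | h0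
        · exact Or.inl h0
        · exact Or.inr (le_trans hnW h0)
      · have hd := mem_Dset he he0
        have hsplit : dotk k e n + e (k + 1) * n (k + 1)
            = e (k + 1) * (n (k + 1) - -dotk k (quo k e) n) := by
          rw [dotk_quo k he0 n]
          ring
        rw [hsplit, abs_mul]
        have hm' : m ≤ |e (k + 1)| := hmF e he he0
        by_cases hν : n (k + 1) ∈ Z n
        · obtain ⟨d', hd', hν'⟩ := mem_Zset.mp hν
          rw [← hν']
          have hsub : -dotk k d' n - -dotk k (quo k e) n = dotk k (quo k e - d') n := by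
            rw [dotk_sub]
            ring
          rw [hsub]
          rcases hI n hn.1 _ (sub_mem_Fdown hd hd') with h0 | h0
          · left
            rw [h0, mul_zero]
          · right
            have hw1 : nextW k w₀ Z ρ n = ρ n := by
              unfold nextW
              simp [hν]
            rw [hw1]
            show ψ * (r * (w₀ n + L) + L) ≤ _
            refine le_trans hineq ?_
            calc m₁ * ψ' * (w₀ n + L) = m₁ * (ψ' * (w₀ n + L)) := by ring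
              _ ≤ |e (k + 1)| * |dotk k (quo k e - d') n| :=
                  mul_le_mul (le_trans hm₁m hm') h0 hψ'pos (abs_nonneg _)
        · right
          have hw1 : nextW k w₀ Z ρ n = w₀ n := by
            unfold nextW
            simp [hν]
          rw [hw1]
          have hgen : r * (w₀ n + L) < |n (k + 1) - -dotk k (quo k e) n| := by
            rcases hn.2.2 with h | h
            · exact absurd h hν
            · exact h _ (mem_Zset.mpr ⟨_, hd, rfl⟩)
          calc ψ * (w₀ n + L) ≤ m * r * (w₀ n + L) := mul_le_mul_of_nonneg_right hrψ hwL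
            _ = m * (r * (w₀ n + L)) := by ring
            _ ≤ _ := mul_le_mul hm' hgen.le (by positivity) (abs_nonneg _)

end Vale.Agent.Lib.P072
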