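import Vale.Agent.Lib.P072.General

/-!
The theorems for solutions in the weak sense: locally Lipschitz paths satisfying the equation at
almost every time. This covers measurable rates.
-/

namespace Vale.Agent.Lib.P072

open Finset Filter Topology MeasureTheory
open scoped NNReal

variable {d : ℕ}

/-- A positive locally Lipschitz path on `[0, T)` solving the equation at almost every time, for
rates with values in `[ε, 1/ε]`. -/
structure WSol (R : Finset (Reaction d)) (ε T : ℝ) (k : ℝ → Reaction d → ℝ)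
    (x : ℝ → Fin d → ℝ) : Prop where
  rates : ∀ t, ∀ r ∈ R, ε ≤ k t r ∧ k t r ≤ ε⁻¹
  lip : ∀ b, b < T → ∃ L : ℝ≥0, LipschitzOnWith L x (Set.Icc 0 b)
  pos : ∀ t ∈ Set.Ico 0 T, ∀ i, 0 < x t i
  ode : ∀ᵐ t, t ∈ Set.Ioo 0 T → HasDerivAt x (massAction R (k t) (x t)) t

lemma hasDerivAt_dot (n : Fin d → ℝ) {y : ℝ → Fin d → ℝ} {y' : Fin d → ℝ} {s : ℝ}
    (hy : HasDerivAt y y' s) : HasDerivAt (fun τ => dot n (y τ)) (dot n y') s := by
  unfold dot
  apply HasDerivAt.fun_sum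
  intro i _
  exact ((hasDerivAt_pi.mp hy) i).const_mul (n i)

/-- Decrease at a given rate, from the almost everywhere condition. -/
lemma rate_ae {a b η : ℝ} (hab : a ≤ b) {g : ℝ → ℝ} {y : ℝ → Fin d → ℝ}
    (hg : AbsolutelyContinuousOnInterval g a b)
    (H : ∀ᵐ s, s ∈ Set.Ioo a b → ∃ (n y' : Fin d → ℝ),
      (∀ τ ∈ Set.Icc a b, g s - g τ ≤ dot n (y s) - dot n (y τ)) ∧
        HasDerivAt y y' s ∧ dot n y' ≤ -η) :
    g b ≤ g a - η * (b - a) := by
  have h1 := hg.integral_deriv_eq_sub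
  have hI := hg.intervalIntegrable_deriv
  have h₁ : ∀ᵐ x : ℝ, x ≠ a := by simp [ae_iff, measure_singleton]
  have h₂ : ∀ᵐ x : ℝ, x ≠ b := by simp [ae_iff, measure_singleton]
  have hle : (deriv g) ≤ᵐ[volume.restrict (Set.Icc a b)] fun _ => -η := by
    rw [Filter.EventuallyLE, ae_restrict_iff' measurableSet_Icc]
    filter_upwards [H, hg.ae_differentiableAt, h₁, h₂] with s hs hdiff hsa hsb hsI
    have hsO : s ∈ Set.Ioo a b :=
      ⟨lt_of_le_of_ne hsI.1 (Ne.symm hsa), lt_of_le_of_ne hsI.2 hsb⟩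
    obtain ⟨n, y', hsub, hd, hneg⟩ := hs hsO
    have hgd : HasDerivAt g (deriv g s) s :=
      (hdiff (by rw [Set.uIcc_of_le hab]; exact hsI)).hasDerivAt
    have hψ := hasDerivAt_dot n hd
    have ht1 : Tendsto (slope g s) (𝓝[<] s) (𝓝 (deriv g s)) :=
      (hasDerivAt_iff_tendsto_slope.mp hgd).mono_left (nhdsWithin_mono _ (fun z hz => ne_of_lt hz))
    have ht2 : Tendsto (slope (fun τ => dot n (y τ)) s) (𝓝[<] s) (𝓝 (dot n y')) :=
      (hasDerivAt_iff_tendsto_slope.mp hψ).mono_left (nhdsWithin_mono _ (fun z hz => ne_of_lt hz))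
    have hev : ∀ᶠ τ in 𝓝[<] s, τ ∈ Set.Ioo a s := Ioo_mem_nhdsLT hsO.1
    have hmain : deriv g s ≤ dot n y' := by
      apply le_of_tendsto_of_tendsto ht1 ht2
      filter_upwards [hev] with τ hτ
      have h5 := hsub τ ⟨hτ.1.le, le_trans hτ.2.le hsI.2⟩
      unfold slope
      simp only [vsub_eq_sub, smul_eq_mul]
      have hneg' : τ - s < 0 := by linarith [hτ.2]
      have hinv : (τ - s)⁻¹ ≤ 0 := (inv_neg''.mpr hneg').le
      apply mul_le_mul_of_nonpos_left _ hinv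
      linarith
    linarith
  have h2 := intervalIntegral.integral_mono_ae_restrict (μ := volume) hab hI
    (intervalIntegrable_const (c := -η)) hle
  rw [intervalIntegral.integral_const, smul_eq_mul] at h2
  linarith

/-- A static function along a Lipschitz path is absolutely continuous. -/
lemma ac_comp {W : (Fin d → ℝ) → ℝ}
    (hW : ∀ x, Pos x → ∃ m : Fin d → ℝ, ∀ x', Pos x' → W x - W x' ≤ dot m x - dot m x')
    {y : ℝ → Fin d → ℝ} {a b : ℝ} (hab : a ≤ b) {L : ℝ≥0}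
    (hy : LipschitzOnWith L y (Set.Icc a b)) (hp : ∀ s ∈ Set.Icc a b, Pos (y s)) :
    AbsolutelyContinuousOnInterval (fun s => W (y s)) a b := by
  have hconv := convexOn_of_subgrad hW
  have hLL := hconv.locallyLipschitzOn isOpen_posSet
  have hcomp := isCompact_Icc.image_of_continuousOn hy.continuousOn
  have hsub : y '' Set.Icc a b ⊆ posSet := by
    rintro _ ⟨s, hs, rfl⟩
    exact hp s hs
  obtain ⟨K, hK⟩ := (hLL.mono hsub).exists_lipschitzOnWith_of_compact hcomp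
  have h1 : LipschitzOnWith (K * L) (W ∘ y) (Set.Icc a b) :=
    hK.comp hy (fun s hs => ⟨s, hs, rfl⟩)
  rw [← Set.uIcc_of_le hab] at h1
  exact h1.absolutelyContinuousOnInterval

namespace WSol

variable {R : Finset (Reaction d)} {ε T : ℝ} {k : ℝ → Reaction d → ℝ} {x : ℝ → Fin d → ℝ}

lemma lip_Icc (S : WSol R ε T k x) {a b : ℝ} (ha : 0 ≤ a) (hb : b < T) :
    ∃ L : ℝ≥0, LipschitzOnWith L x (Set.Icc a b) := by
  obtain ⟨L, hL⟩ := S.lip b hb
  exact ⟨L, hL.mono (Set.Icc_subset_Icc_left ha)⟩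

/-- Monotonicity of the static function along a weak solution. -/
lemma static_mono (S : WSol R ε T k x) (hWR : WeaklyReversible R) (hε : 0 < ε)
    {W : (Fin d → ℝ) → ℝ} {Dev K : ℝ} (hK0 : 0 ≤ K) (hKexp : (R.card : ℝ) / ε ^ 2 ≤ Real.exp K)
    (hW : ∀ x, Pos x → ∃ m : Fin d → ℝ,
        (∀ x', Pos x' → W x - W x' ≤ dot m x - dot m x') ∧
        (∀ i, |m i - Real.log (x i)| ≤ Dev) ∧
        ∀ e ∈ diffs R, dot e m = 0 ∨ (K ≤ dot e m ∧ K ≤ lev e x) ∨ dot e m ≤ -K)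
    {a b : ℝ} (ha : 0 ≤ a) (hab : a ≤ b) (hb : b < T) : W (x b) ≤ W (x a) := by
  have hsub : Set.Icc a b ⊆ Set.Ico 0 T := fun s hs =>
    ⟨le_trans ha hs.1, lt_of_le_of_lt hs.2 hb⟩
  obtain ⟨L, hL⟩ := S.lip_Icc ha hb
  have hAC := ac_comp (fun x hx => by
    obtain ⟨m, hm, _⟩ := hW x hx
    exact ⟨m, hm⟩) hab hL (fun s hs => S.pos s (hsub hs))
  have := rate_ae (η := 0) (y := x) hab hAC (by
    filter_upwards [S.ode] with s hs hsI
    have hsI' : s ∈ Set.Icc a b := ⟨hsI.1.le, hsI.2.le⟩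
    have hsT := hsub hsI'
    have hs0 : 0 < s := lt_of_le_of_lt ha hsI.1
    obtain ⟨m, hm, _, htri⟩ := hW _ (S.pos s hsT)
    refine ⟨m, massAction R (k s) (x s), ?_, hs ⟨hs0, hsT.2⟩, ?_⟩
    · intro τ hτ
      exact hm _ (S.pos τ (hsub hτ))
    · rw [neg_zero]
      exact drift_nonpos hWR hε (S.rates s) (S.pos s hsT) hKexp
        (fun e he => rule_of_tri hK0 (htri e he)))
  linarith

/-- Solutions stay in their stoichiometric class. -/
lemma sub_mem (S : WSol R ε T k x) {t : ℝ} (ht : t ∈ Set.Ico 0 T) :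
    x t - x 0 ∈ stoichiometricSubspace R := by
  by_contra hnot
  obtain ⟨f, hf, hker⟩ := Submodule.exists_le_ker_of_notMem hnot
  set F := LinearMap.toContinuousLinearMap f with hF
  obtain ⟨L, hL⟩ := S.lip t ht.2
  have hAC : AbsolutelyContinuousOnInterval (fun s => F (x s)) 0 t := by
    have h1 : LipschitzOnWith (‖F‖₊ * L) (fun s => F (x s)) (Set.Icc 0 t) :=
      F.lipschitz.comp_lipschitzOnWith hL
    rw [← Set.uIcc_of_le ht.1] at h1
    exact h1.absolutelyContinuousOnInterval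
  have h₁ : ∀ᵐ s : ℝ, s ≠ 0 := by simp [ae_iff, measure_singleton]
  have h₂ : ∀ᵐ s : ℝ, s ≠ t := by simp [ae_iff, measure_singleton]
  obtain ⟨C, hC⟩ := hAC.const_of_ae_hasDerivAt_zero (by
    filter_upwards [S.ode, h₁, h₂] with s hs hs0 hst hsI
    rw [Set.uIcc_of_le ht.1] at hsI
    have hsO : s ∈ Set.Ioo 0 T :=
      ⟨lt_of_le_of_ne hsI.1 (Ne.symm hs0), lt_of_lt_of_le (lt_of_le_of_ne hsI.2 hst) ht.2.le⟩
    have h2 := F.hasFDerivAt.comp_hasDerivAt s (hs hsO)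
    have h3 : F (massAction R (k s) (x s)) = 0 := by
      have := hker (massAction_mem_stoich R (k s) (x s))
      simpa [hF] using this
    rw [h3] at h2
    exact h2)
  have h4 := hC 0 (Set.left_mem_uIcc)
  have h5 := hC t (Set.right_mem_uIcc)
  apply hf
  have : f (x t - x 0) = F (x t) - F (x 0) := by
    simp [hF]
  rw [this, h4, h5, sub_self]

/-- A weak solution is a weak solution on shorter intervals. -/
lemma restrict (S : WSol R ε T k x) {T' : ℝ} (hT : T' ≤ T) : WSol R ε T' k x where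
  rates := S.rates
  lip := fun b hb => S.lip b (lt_of_lt_of_le hb hT)
  pos := fun t ht => S.pos t ⟨ht.1, lt_of_lt_of_le ht.2 hT⟩
  ode := by
    filter_upwards [S.ode] with t ht ht'
    exact ht ⟨ht'.1, lt_of_lt_of_le ht'.2 hT⟩

/-- Shifting the time. -/
lemma shift {t₀ : ℝ} (S : WSol R ε (T + t₀) k x) (ht₀ : 0 ≤ t₀) :
    WSol R ε T (fun s => k (s + t₀)) (fun s => x (s + t₀)) where
  rates := fun t => S.rates (t + t₀)
  lip := by
    intro b hb
    obtain ⟨L, hL⟩ := S.lip (b + t₀) (by linarith)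
    have h1 : LipschitzOnWith 1 (fun s : ℝ => s + t₀) (Set.Icc 0 b) :=
      (LipschitzWith.of_dist_le_mul (fun a b => by simp [Real.dist_eq])).lipschitzOnWith
    exact ⟨L * 1, hL.comp h1 (fun s hs => ⟨by linarith [hs.1], by linarith [hs.2]⟩)⟩
  pos := fun t ht => S.pos (t + t₀) ⟨by linarith [ht.1], by linarith [ht.2]⟩
  ode := by
    have h1 := (measurePreserving_add_right (volume : Measure ℝ) t₀).quasiMeasurePreserving.ae
      S.ode
    filter_upwards [h1] with t ht ht'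
    exact (ht ⟨by linarith [ht'.1], by linarith [ht'.2]⟩).comp_add_const t t₀

end WSol

/-- The bound on the mass, uniform over initial data of bounded mass. -/
theorem mass_bound_weak {R : Finset (Reaction d)} (hWR : WeaklyReversible R) {ε : ℝ}
    (hε : 0 < ε) (ρ : ℝ) :
    ∃ C : ℝ, ∀ (T : ℝ) (k : ℝ → Reaction d → ℝ) (x : ℝ → Fin d → ℝ),
      WSol R ε T k x → ∑ i, x 0 i ≤ ρ → ∀ t ∈ Set.Ico 0 T, ∑ i, x t i ≤ C := by
  classical
  rcases Nat.eq_zero_or_pos d with hd0 | hd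
  · subst hd0
    exact ⟨0, fun _ _ _ _ _ _ _ => by simp⟩
  obtain ⟨K, hKdef⟩ : ∃ K : ℝ, K = (R.card : ℝ) / ε ^ 2 := ⟨_, rfl⟩
  have hK0 : 0 ≤ K := by
    rw [hKdef]
    positivity
  have hKexp : (R.card : ℝ) / ε ^ 2 ≤ Real.exp K := by
    have := Real.add_one_le_exp K
    rw [← hKdef]
    linarith
  obtain ⟨W, C, Dev, hC0, hWV, hW⟩ := static (diffs R) K
  obtain ⟨ρ₁, hρ₁⟩ : ∃ ρ₁ : ℝ, ρ₁ = max ρ 1 := ⟨_, rfl⟩
  have hρ₁1 : 1 ≤ ρ₁ := by rw [hρ₁]; exact le_max_right _ _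
  have hρρ₁ : ρ ≤ ρ₁ := by rw [hρ₁]; exact le_max_left _ _
  obtain ⟨R₁, _, hR₁⟩ := exists_threshold hd C (ρ₁ * Real.log ρ₁ + C * ρ₁) hC0
  refine ⟨R₁, ?_⟩
  intro T k x S hm0 t ht
  by_contra hcon
  push Not at hcon
  have h0T : (0 : ℝ) ∈ Set.Ico 0 T := ⟨le_rfl, lt_of_le_of_lt ht.1 ht.2⟩
  have hmono := S.static_mono hWR hε hK0 hKexp hW le_rfl ht.1 ht.2
  have h1 := abs_le.mp (hWV _ (S.pos t ht))
  have h2 := abs_le.mp (hWV _ (S.pos 0 h0T))
  have h3 := V_le_of_mass_le (S.pos 0 h0T) hρ₁1 (le_trans hm0 hρρ₁)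
  have h4 := hR₁ _ hcon
  have hmp : 0 < ∑ i, x t i := by
    have hne : (Finset.univ : Finset (Fin d)).Nonempty := ⟨⟨0, hd⟩, Finset.mem_univ _⟩
    exact Finset.sum_pos (fun j _ => S.pos t ht j) hne
  have h5 := V_ge_mass (S.pos t ht) hd hmp
  have h6 : C * ∑ i, x 0 i ≤ C * ρ₁ := mul_le_mul_of_nonneg_left (le_trans hm0 hρρ₁) hC0
  linarith [h1.1, h1.2, h2.1, h2.2]

/-- Monotonicity of a static function of a subset of the species, along a weak solution. -/
lemma restricted_mono_weak {R : Finset (Reaction d)} (hWR : WeaklyReversible R) {ε : ℝ}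
    (hε : 0 < ε) {T : ℝ} {k : ℝ → Reaction d → ℝ} {x : ℝ → Fin d → ℝ} (S : WSol R ε T k x)
    {m : ℕ} {φ : Fin m → Fin d} (hφ : Function.Injective φ)
    {W : (Fin m → ℝ) → ℝ} {Dev K K' : ℝ} {E : Finset (Fin m → ℝ)} (hK' : 0 ≤ K')
    (hKexp : (R.card : ℝ) / ε ^ 2 ≤ Real.exp K)
    (hE : ∀ e ∈ diffs R, (fun j => e (φ j)) ∈ E)
    (hW : ∀ y, Pos y → ∃ n : Fin m → ℝ,
        (∀ y', Pos y' → W y - W y' ≤ dot n y - dot n y') ∧
        (∀ i, |n i - Real.log (y i)| ≤ Dev) ∧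
        ∀ e ∈ E, dot e n = 0 ∨ (K' ≤ dot e n ∧ K' ≤ lev e y) ∨ dot e n ≤ -K')
    {a b : ℝ} (ha : 0 ≤ a) (hab : a ≤ b) (hb : b < T)
    (Hl : ∀ s ∈ Set.Ioc a b, ∀ e ∈ diffs R,
      K' ≤ lev (fun j => e (φ j)) (fun j => x s (φ j)) → K ≤ lev e (x s)) :
    W (fun j => x b (φ j)) ≤ W (fun j => x a (φ j)) := by
  have hsub : Set.Icc a b ⊆ Set.Ico 0 T := fun s hs =>
    ⟨le_trans ha hs.1, lt_of_le_of_lt hs.2 hb⟩
  have hPos : ∀ s ∈ Set.Icc a b, Pos (fun j => x s (φ j)) := fun s hs j => S.pos s (hsub hs) _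
  obtain ⟨L, hL⟩ := S.lip_Icc ha hb
  have hres : LipschitzWith 1 (fun z : Fin d → ℝ => (fun j => z (φ j) : Fin m → ℝ)) := by
    apply LipschitzWith.of_dist_le_mul
    intro z z'
    simp only [NNReal.coe_one, one_mul]
    exact (dist_pi_le_iff dist_nonneg).mpr fun j => dist_le_pi_dist z z' (φ j)
  have hLy : LipschitzOnWith (1 * L) (fun s => (fun j => x s (φ j) : Fin m → ℝ)) (Set.Icc a b) :=
    hres.comp_lipschitzOnWith hL
  have hAC := ac_comp (fun y hy => by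
    obtain ⟨n, hn, _⟩ := hW y hy
    exact ⟨n, hn⟩) hab hLy hPos
  have := rate_ae (η := 0) (y := fun s j => x s (φ j)) hab hAC (by
    filter_upwards [S.ode] with s hs hsI
    have hsI' : s ∈ Set.Icc a b := ⟨hsI.1.le, hsI.2.le⟩
    have hsT := hsub hsI'
    have hs0 : 0 < s := lt_of_le_of_lt ha hsI.1
    obtain ⟨n, hn, _, htri⟩ := hW _ (hPos s hsI')
    have hd := hs ⟨hs0, hsT.2⟩
    refine ⟨n, fun j => massAction R (k s) (x s) (φ j), ?_, ?_, ?_⟩
    · intro τ hτ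
      exact hn _ (hPos τ hτ)
    · apply hasDerivAt_pi.mpr
      intro j
      exact (hasDerivAt_pi.mp hd) (φ j)
    · rw [neg_zero, ← dot_padz_left hφ]
      apply drift_nonpos hWR hε (S.rates s) (S.pos s hsT) hKexp
      intro e he hposd
      rw [dot_padz_right hφ] at hposd
      exact Hl s ⟨hsI.1, hsI.2.le⟩ e he (rule_of_tri hK' (htri _ (hE e he)) hposd))
  linarith
/-- One step of the induction on the number of small coordinates. -/
lemma lower_step_weak {R : Finset (Reaction d)} (hWR : WeaklyReversible R) {ε : ℝ}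
    (hε : 0 < ε) (R₁ : ℝ) {r₀ : ℝ} (hr₀ : 0 < r₀) (m : ℕ) (hm : 1 ≤ m)
    {rp : ℝ} (hrp : 0 < rp)
    (Hm : ∀ (T : ℝ) (k : ℝ → Reaction d → ℝ) (x : ℝ → Fin d → ℝ),
      WSol R ε T k x →
      (∀ i, r₀ ≤ x 0 i) →
      (∀ t ∈ Set.Ico 0 T, ∑ i, x t i ≤ R₁) →
      ∀ t ∈ Set.Ico 0 T, (Finset.univ.filter (fun i => x t i < rp)).card < m + 1) :
    ∃ r : ℝ, 0 < r ∧ ∀ (T : ℝ) (k : ℝ → Reaction d → ℝ) (x : ℝ → Fin d → ℝ),
      WSol R ε T k x →
      (∀ i, r₀ ≤ x 0 i) →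
      (∀ t ∈ Set.Ico 0 T, ∑ i, x t i ≤ R₁) →
      ∀ t ∈ Set.Ico 0 T, (Finset.univ.filter (fun i => x t i < r)).card < m := by
  classical
  obtain ⟨B, hB1, hB⟩ := exists_bound_diffs R
  have hBnn : 0 ≤ B := by linarith
  have hdnn : (0 : ℝ) ≤ d := Nat.cast_nonneg d
  obtain ⟨L, hLdef⟩ : ∃ L : ℝ, L = |Real.log rp| + |Real.log (max R₁ 1)| := ⟨_, rfl⟩
  have hL0 : 0 ≤ L := by
    rw [hLdef]
    positivity
  obtain ⟨K, hKdef⟩ : ∃ K : ℝ, K = (R.card : ℝ) / ε ^ 2 := ⟨_, rfl⟩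
  have hK0 : 0 ≤ K := by
    rw [hKdef]
    positivity
  have hKexp : (R.card : ℝ) / ε ^ 2 ≤ Real.exp K := by
    have := Real.add_one_le_exp K
    rw [← hKdef]
    linarith
  obtain ⟨K', hK'def⟩ : ∃ K' : ℝ, K' = K + d * B * L := ⟨_, rfl⟩
  have hK'0 : 0 ≤ K' := by
    rw [hK'def]
    positivity
  -- the static functions for all subsets of the species
  let φ : (I : Finset (Fin d)) → Fin I.card → Fin d := fun I => I.orderEmbOfFin rfl
  have hφ : ∀ I, Function.Injective (φ I) := fun I => (I.orderEmbOfFin rfl).injective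
  have hφI : ∀ I, Finset.image (φ I) Finset.univ = I := fun I =>
    Finset.image_orderEmbOfFin_univ I rfl
  let redF : (I : Finset (Fin d)) → Finset (Fin I.card → ℝ) := fun I =>
    (diffs R).image (fun e j => e (φ I j))
  have hredF : ∀ I, ∀ e ∈ diffs R, (fun j => e (φ I j)) ∈ redF I := fun I e he =>
    Finset.mem_image_of_mem (fun e j => e (φ I j)) he
  choose W C Dev hC hWV hW using fun I => static (redF I) K'
  obtain ⟨Cs, hCsdef⟩ : ∃ Cs : ℝ, Cs = ∑ I, C I := ⟨_, rfl⟩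
  have hCs : ∀ I, C I ≤ Cs := fun I => by
    rw [hCsdef]
    exact Finset.single_le_sum (f := C) (fun J _ => hC J) (Finset.mem_univ I)
  have hCs0 : 0 ≤ Cs := by
    rw [hCsdef]
    exact Finset.sum_nonneg fun J _ => hC J
  obtain ⟨ρ', hρ'def⟩ : ∃ ρ' : ℝ, ρ' = min (min r₀ rp) (min 1 (Real.exp (-Cs))) := ⟨_, rfl⟩
  have hρ'pos : 0 < ρ' := by
    rw [hρ'def]
    have := Real.exp_pos (-Cs)
    simp only [lt_min_iff]
    exact ⟨⟨hr₀, hrp⟩, one_pos, this⟩
  have hρ'r₀ : ρ' ≤ r₀ := by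
    rw [hρ'def]
    exact le_trans (min_le_left _ _) (min_le_left _ _)
  have hρ'rp : ρ' ≤ rp := by
    rw [hρ'def]
    exact le_trans (min_le_left _ _) (min_le_right _ _)
  have hρ'1 : ρ' ≤ 1 := by
    rw [hρ'def]
    exact le_trans (min_le_right _ _) (min_le_left _ _)
  have hρ'log : Real.log ρ' ≤ -Cs := by
    have h1 : ρ' ≤ Real.exp (-Cs) := by
      rw [hρ'def]
      exact le_trans (min_le_right _ _) (min_le_right _ _)
    have := Real.log_le_log hρ'pos h1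
    rwa [Real.log_exp] at this
  have hdenom : 0 < 2 * ((d : ℝ) * (2 + Cs) + 1) := by positivity
  obtain ⟨s, hsdef⟩ : ∃ s : ℝ, s = min 1 (ρ' / (2 * ((d : ℝ) * (2 + Cs) + 1))) := ⟨_, rfl⟩
  have hspos : 0 < s := by
    rw [hsdef]
    exact lt_min one_pos (div_pos hρ'pos hdenom)
  have hs1 : s ≤ 1 := by
    rw [hsdef]
    exact min_le_left _ _
  have hsmul : s * (2 * ((d : ℝ) * (2 + Cs) + 1)) ≤ ρ' := by
    have : s ≤ ρ' / (2 * ((d : ℝ) * (2 + Cs) + 1)) := by
      rw [hsdef]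
      exact min_le_right _ _
    rwa [le_div_iff₀ hdenom] at this
  have hdC : 0 ≤ (d : ℝ) * (2 + Cs) := by positivity
  have hsρ : (d : ℝ) * ((2 + Cs) * s) < ρ' := by
    have h1 : s * (2 * ((d : ℝ) * (2 + Cs) + 1)) = 2 * ((d : ℝ) * (2 + Cs)) * s + 2 * s := by ring
    have h2 : (d : ℝ) * ((2 + Cs) * s) = (d : ℝ) * (2 + Cs) * s := by ring
    have h3 : 0 ≤ (d : ℝ) * (2 + Cs) * s := by positivity
    nlinarith
  have hs2 : s ^ 2 ≤ s := by nlinarith
  have hsleρ : s ≤ ρ' := by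
    have h1 : 0 ≤ s * (2 * ((d : ℝ) * (2 + Cs))) := by positivity
    nlinarith
  refine ⟨s ^ 2, by positivity, ?_⟩
  intro T k x S hr0 hmass t ht
  by_contra hcard
  push Not at hcard
  set I := Finset.univ.filter (fun i => x t i < s ^ 2) with hIdef
  have hInon : I.Nonempty := Finset.card_pos.mp (by omega)
  have hIt : ∀ i ∈ I, x t i < s ^ 2 := fun i hi => (Finset.mem_filter.mp hi).2
  have h0t : Set.Icc 0 t ⊆ Set.Ico 0 T := fun τ hτ => ⟨hτ.1, lt_of_le_of_lt hτ.2 ht.2⟩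
  obtain ⟨L₂, hL₂⟩ := S.lip t ht.2
  obtain ⟨t', ht', ⟨i₀, hi₀I, hi₀⟩, hle, hafter⟩ := exists_last_time (I := I) (ρ := ρ')
    hL₂.continuousOn ht.1
    (by
      obtain ⟨i, hi⟩ := hInon
      exact ⟨i, hi, le_trans hρ'r₀ (hr0 i)⟩)
    (fun i hi => lt_of_lt_of_le (hIt i hi) (le_trans hs2 hsleρ))
  have hsub : ∀ s' ∈ Set.Ioc t' t, s' ∈ Set.Ico 0 T := fun s' hs' =>
    ⟨le_trans ht'.1 hs'.1.le, lt_of_le_of_lt hs'.2 ht.2⟩
  -- the coordinates off I stay large
  have hoff : ∀ s' ∈ Set.Ioc t' t, ∀ l, l ∉ I → rp ≤ x s' l := by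
    intro s' hs' l hl
    by_contra hcon
    push Not at hcon
    have hbound := Hm T k x S hr0 hmass s' (hsub s' hs')
    have hins : insert l I ⊆ Finset.univ.filter (fun i => x s' i < rp) := by
      intro i hi
      rcases Finset.mem_insert.mp hi with rfl | hi
      · exact Finset.mem_filter.mpr ⟨Finset.mem_univ _, hcon⟩
      · refine Finset.mem_filter.mpr ⟨Finset.mem_univ _, ?_⟩
        exact lt_of_lt_of_le (hafter s' hs' i hi) hρ'rp
    have hc1 := Finset.card_le_card hins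
    rw [Finset.card_insert_of_notMem hl] at hc1
    omega
  have hlogL : ∀ s' ∈ Set.Ioc t' t, ∀ l, l ∉ I → |Real.log (x s' l)| ≤ L := by
    intro s' hs' l hl
    have hr := hoff s' hs' l hl
    have hxp := S.pos s' (hsub s' hs') l
    have hxle : x s' l ≤ max R₁ 1 := by
      have h1 : x s' l ≤ ∑ i, x s' i := Finset.single_le_sum (f := fun i => x s' i)
        (fun i _ => (S.pos s' (hsub s' hs') i).le) (Finset.mem_univ l)
      exact le_trans (le_trans h1 (hmass s' (hsub s' hs'))) (le_max_left _ _)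
    have h1 := Real.log_le_log hrp hr
    have h2 := Real.log_le_log hxp hxle
    have h3 := le_abs_self (Real.log (max R₁ 1))
    have h4 := neg_abs_le (Real.log rp)
    have h5 := abs_nonneg (Real.log rp)
    have h6 := abs_nonneg (Real.log (max R₁ 1))
    rw [abs_le]
    constructor <;> linarith
  have Hl : ∀ s' ∈ Set.Ioc t' t, ∀ e ∈ diffs R,
      K' ≤ lev (fun j => e (φ I j)) (fun j => x s' (φ I j)) → K ≤ lev e (x s') := by
    intro s' hs' e he hlev
    rw [lev_split_emb (hφ I) (hφI I) e (x s')]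
    have hsum : |∑ i ∈ Iᶜ, e i * Real.log (x s' i)| ≤ d * B * L := by
      calc |∑ i ∈ Iᶜ, e i * Real.log (x s' i)|
          ≤ ∑ i ∈ Iᶜ, |e i * Real.log (x s' i)| := Finset.abs_sum_le_sum_abs _ _
        _ ≤ ∑ _i ∈ Iᶜ, B * L := by
            apply Finset.sum_le_sum
            intro i hi
            rw [abs_mul]
            exact mul_le_mul (hB e he i) (hlogL s' hs' i (Finset.mem_compl.mp hi))
              (abs_nonneg _) hBnn
        _ = (Iᶜ.card : ℝ) * (B * L) := by simp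
        _ ≤ d * (B * L) := by
            apply mul_le_mul_of_nonneg_right _ (by positivity)
            have : Iᶜ.card ≤ d := by
              simpa using Finset.card_le_univ Iᶜ
            exact_mod_cast this
        _ = d * B * L := by ring
    have := neg_abs_le (∑ i ∈ Iᶜ, e i * Real.log (x s' i))
    linarith
  have hmono := restricted_mono_weak hWR hε S (hφ I) hK'0 hKexp (hredF I) (hW I)
    ht'.1 ht'.2.le ht.2 Hl
  have ht'0 : t' ∈ Set.Ico 0 T := ⟨ht'.1, lt_trans ht'.2 ht.2⟩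
  -- upper bound at the last time
  obtain ⟨j₀, hj₀⟩ : ∃ j₀, φ I j₀ = i₀ := by
    have : i₀ ∈ Finset.image (φ I) Finset.univ := by
      rw [hφI]
      exact hi₀I
    obtain ⟨j, _, hj⟩ := Finset.mem_image.mp this
    exact ⟨j, hj⟩
  have hφmem : ∀ j, φ I j ∈ I := fun j => Finset.orderEmbOfFin_mem I rfl j
  have hposy' : Pos (fun j => x t' (φ I j)) := fun j => S.pos t' ht'0 _
  have hposy : Pos (fun j => x t (φ I j)) := fun j => S.pos t ht _
  have hup := barrier_upper hposy' (ρ := ρ') (C := C I)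
    (le_trans hρ'log (by linarith [hCs I])) (fun j => hle _ (hφmem j)) (j₀ := j₀)
    (by
      show ρ' ≤ x t' (φ I j₀)
      rw [hj₀]
      exact hi₀)
  have hup2 := (abs_le.mp (hWV I _ hposy')).2
  -- lower bound at the final time
  have hlow := barrier_lower hposy hspos hs1 (hC I) (fun j => (hIt _ (hφmem j)).le)
  have hlow2 := (abs_le.mp (hWV I _ hposy)).1
  have hmd : ((I.card : ℕ) : ℝ) * ((2 + C I) * s) ≤ (d : ℝ) * ((2 + Cs) * s) := by
    have h1 : (I.card : ℝ) ≤ d := by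
      have : I.card ≤ d := by
        simpa using Finset.card_le_univ I
      exact_mod_cast this
    have h2 : (2 + C I) * s ≤ (2 + Cs) * s :=
      mul_le_mul_of_nonneg_right (by linarith [hCs I]) hspos.le
    exact mul_le_mul h1 h2 (mul_nonneg (by linarith [hC I]) hspos.le) hdnn
  linarith

/-- The lower bound along solutions whose mass is bounded. -/
theorem lower_bound_weak {R : Finset (Reaction d)} (hWR : WeaklyReversible R) {ε : ℝ}
    (hε : 0 < ε) (R₁ : ℝ) {r₀ : ℝ} (hr₀ : 0 < r₀) :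
    ∃ r : ℝ, 0 < r ∧ ∀ (T : ℝ) (k : ℝ → Reaction d → ℝ) (x : ℝ → Fin d → ℝ),
      WSol R ε T k x →
      (∀ i, r₀ ≤ x 0 i) →
      (∀ t ∈ Set.Ico 0 T, ∑ i, x t i ≤ R₁) →
      ∀ t ∈ Set.Ico 0 T, ∀ i, r ≤ x t i := by
  classical
  have key : ∀ j : ℕ, j ≤ d → ∃ r : ℝ, 0 < r ∧ ∀ (T : ℝ) (k : ℝ → Reaction d → ℝ)
      (x : ℝ → Fin d → ℝ),
      WSol R ε T k x →
      (∀ i, r₀ ≤ x 0 i) →
      (∀ t ∈ Set.Ico 0 T, ∑ i, x t i ≤ R₁) →
      ∀ t ∈ Set.Ico 0 T, (Finset.univ.filter (fun i => x t i < r)).card < d + 1 - j := by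
    intro j
    induction j with
    | zero =>
      intro _
      refine ⟨1, one_pos, ?_⟩
      intro T k x _ _ _ t _
      have : (Finset.univ.filter (fun i => x t i < 1)).card ≤ d := by
        simpa using Finset.card_filter_le (Finset.univ : Finset (Fin d)) (fun i => x t i < 1)
      omega
    | succ j ih =>
      intro hj
      obtain ⟨rp, hrp, Hm⟩ := ih (by omega)
      have hm : 1 ≤ d + 1 - (j + 1) := by omega
      have heq : d + 1 - (j + 1) + 1 = d + 1 - j := by omega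
      apply lower_step_weak hWR hε R₁ hr₀ (d + 1 - (j + 1)) hm hrp
      rw [heq]
      exact Hm
  obtain ⟨r, hr, H⟩ := key d le_rfl
  refine ⟨r, hr, ?_⟩
  intro T k x S hr0 hmass t ht i
  have hcard := H T k x S hr0 hmass t ht
  have h0 : (Finset.univ.filter (fun i => x t i < r)).card = 0 := by omega
  rw [Finset.card_eq_zero] at h0
  by_contra hcon
  push Not at hcon
  have : i ∈ Finset.univ.filter (fun i => x t i < r) :=
    Finset.mem_filter.mpr ⟨Finset.mem_univ _, hcon⟩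
  rw [h0] at this
  simp at this


/-- The absorbing property: every global solution visits a fixed bounded region away from the
boundary. -/
theorem absorbing_weak {R : Finset (Reaction d)} (hWR : WeaklyReversible R) {ε : ℝ}
    (hε : 0 < ε) {c : Fin d → ℝ} (hc : ∀ i, 0 < c i) :
    ∃ Rs rs : ℝ, 0 < rs ∧ ∀ (k : ℝ → Reaction d → ℝ) (x : ℝ → Fin d → ℝ),
      (∀ T, WSol R ε T k x) →
      x 0 - c ∈ stoichiometricSubspace R →
      ∃ t₀, 0 ≤ t₀ ∧ ∑ i, x t₀ i ≤ Rs ∧ ∀ i, rs ≤ x t₀ i := by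
  classical
  rcases Nat.eq_zero_or_pos d with hd0 | hd
  · subst hd0
    exact ⟨0, 1, one_pos, fun _ _ _ _ => ⟨0, le_rfl, by simp, fun i => i.elim0⟩⟩
  obtain ⟨K, hKdef⟩ : ∃ K : ℝ, K = (R.card : ℝ) / (ε / 2) ^ 2 + 1 := ⟨_, rfl⟩
  have hK1 : 1 ≤ K := by
    rw [hKdef]
    have : 0 ≤ (R.card : ℝ) / (ε / 2) ^ 2 := by positivity
    linarith
  have hK0 : 0 ≤ K := by linarith
  have hKexp : (R.card : ℝ) / (ε / 2) ^ 2 ≤ Real.exp K := by
    have := Real.add_one_le_exp K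
    rw [hKdef] at this ⊢
    linarith
  obtain ⟨W, C, Dev, hC0, hWV, hW⟩ := static (diffs R) K
  obtain ⟨Rs, rs, hrs, hnear⟩ := near_bounds hd hc (A := |Dev|) (abs_nonneg _)
  refine ⟨Rs, rs, hrs, ?_⟩
  intro k x S hx0
  by_contra hno
  push Not at hno
  have hpos : ∀ t, 0 ≤ t → ∀ i, 0 < x t i := fun t ht =>
    (S (t + 1)).pos t ⟨ht, by linarith⟩
  have hfar : ∀ s, 0 ≤ s → |Dev| * (∑ i, x s i + ∑ i, c i) < gam c (x s) := by
    intro s hs
    by_contra hcon
    push Not at hcon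
    obtain ⟨h1, h2⟩ := hnear (x s) (hpos s hs) hcon
    obtain ⟨i, hi⟩ := hno s hs h1
    exact absurd (h2 i) (not_le.mpr hi)
  -- bounds along this solution
  obtain ⟨C₁, hC₁⟩ := mass_bound_weak hWR hε (∑ i, x 0 i)
  have hmass : ∀ T, ∀ t ∈ Set.Ico 0 T, ∑ i, x t i ≤ C₁ := fun T =>
    hC₁ T k x (S T) le_rfl
  have hmass' : ∀ t, 0 ≤ t → ∑ i, x t i ≤ C₁ := fun t ht =>
    hmass (t + 1) t ⟨ht, by linarith⟩
  obtain ⟨r₀, hr₀, hr₀le⟩ := exists_min_coord (hpos 0 le_rfl)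
  obtain ⟨r, hr, hrl⟩ := lower_bound_weak hWR hε C₁ hr₀
  have hlow : ∀ t, 0 ≤ t → ∀ i, r ≤ x t i := by
    intro t ht i
    exact hrl (t + 1) k x (S _) hr₀le (hmass _) t ⟨ht, by linarith⟩ i
  -- the rate of decrease
  obtain ⟨r', hr'def⟩ : ∃ r' : ℝ, r' = min r 1 := ⟨_, rfl⟩
  have hr'pos : 0 < r' := by
    rw [hr'def]
    exact lt_min hr one_pos
  have hr'1 : r' ≤ 1 := by
    rw [hr'def]
    exact min_le_right _ _
  have hr'r : r' ≤ r := by
    rw [hr'def]
    exact min_le_left _ _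
  obtain ⟨N, hNdef⟩ : ∃ N : ℕ, N = ∑ q ∈ R, ∑ j, q.1 j := ⟨_, rfl⟩
  have hN : ∀ q ∈ R, ∑ j, q.1 j ≤ N := by
    intro q hq
    rw [hNdef]
    exact Finset.single_le_sum (f := fun q : Reaction d => ∑ j, q.1 j)
      (fun _ _ => Nat.zero_le _) hq
  obtain ⟨η, hηdef⟩ : ∃ η : ℝ, η = (ε / 2) * r' ^ N * 1 := ⟨_, rfl⟩
  have hηpos : 0 < η := by
    rw [hηdef]
    positivity
  have hV : ∀ s, 0 ≤ s → -(d : ℝ) ≤ V (x s) := by
    intro s hs
    have := phi_le_V (hpos s hs) 0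
    rwa [phi_zero] at this
  have hC₁0 : 0 ≤ C₁ := by
    have h1 := hmass' 0 le_rfl
    have h2 : 0 ≤ ∑ i, x 0 i := Finset.sum_nonneg fun i _ => (hpos 0 le_rfl i).le
    linarith
  have hW0 := abs_le.mp (hWV _ (hpos 0 le_rfl))
  obtain ⟨τ, hτdef⟩ : ∃ τ : ℝ, τ = (W (x 0) + d + C * C₁) / η + 1 := ⟨_, rfl⟩
  have hWl : -(d : ℝ) - C * C₁ ≤ W (x 0) := by
    have h1 := hV 0 le_rfl
    have h2 : C * ∑ i, x 0 i ≤ C * C₁ := mul_le_mul_of_nonneg_left (hmass' 0 le_rfl) hC0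
    linarith [hW0.1]
  have hτpos : 0 < τ := by
    have : 0 ≤ (W (x 0) + d + C * C₁) / η := div_nonneg (by linarith) hηpos.le
    rw [hτdef]
    linarith
  have hPos : ∀ s ∈ Set.Icc 0 τ, Pos (x s) := fun s hs => hpos s hs.1
  obtain ⟨L, hL⟩ := (S (τ + 1)).lip τ (by linarith)
  have hAC := ac_comp (fun y hy => by
    obtain ⟨n, hn, _⟩ := hW y hy
    exact ⟨n, hn⟩) hτpos.le hL hPos
  have hdec := rate_ae (η := η) (y := x) hτpos.le hAC (by
    filter_upwards [(S (τ + 1)).ode] with s hs' hs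
    have hs0 : 0 ≤ s := hs.1.le
    have hxS : x s - c ∈ stoichiometricSubspace R := by
      have := Submodule.add_mem _ ((S (s + 1)).sub_mem (t := s) ⟨hs0, by linarith⟩) hx0
      rwa [sub_add_sub_cancel] at this
    obtain ⟨m, hm, hbox, htri⟩ := hW _ (hpos s hs0)
    refine ⟨m, massAction R (k s) (x s), ?_, hs' ⟨hs.1, by linarith [hs.2]⟩, ?_⟩
    · intro τ' hτ'
      exact hm _ (hPos τ' hτ')
    · -- some functional does not vanish on the slope
      have hex : ∃ e ∈ diffs R, 1 ≤ |dot e m| := by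
        by_contra hnone
        push Not at hnone
        have hall : ∀ e ∈ diffs R, dot e m = 0 := by
          intro e he
          rcases htri e he with h | ⟨h, _⟩ | h
          · exact h
          · have h1 := hnone e he
            have h2 := le_abs_self (dot e m)
            linarith
          · have h1 := hnone e he
            have h2 := neg_abs_le (dot e m)
            linarith
        have hflat := dot_eq_zero_of_mem_stoich hWR hall hxS
        have hbox' : ∀ i, |m i - Real.log (x s i)| ≤ |Dev| := fun i =>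
          le_trans (hbox i) (le_abs_self _)
        have h3 := gam_le_of_flat hc (hpos s hs0) hbox' hflat
        exact absurd h3 (not_le.mpr (hfar s hs0))
      obtain ⟨e, he, he1⟩ := hex
      rw [hηdef]
      exact drift_strict hWR hε ((S (τ + 1)).rates s) (hpos s hs0) hKexp
        (fun e he => rule_of_tri hK0 (htri e he)) (by positivity)
        (fun q hq => mono_lower hr'pos hr'1 (fun i => le_trans hr'r (hlow s hs0 i)) q.1 (hN q hq))
        he he1)
  have h1 := abs_le.mp (hWV _ (hpos τ hτpos.le))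
  have h2 := hV τ hτpos.le
  have h3 : C * ∑ i, x τ i ≤ C * C₁ := mul_le_mul_of_nonneg_left (hmass' τ hτpos.le) hC0
  have h4 : W (x τ) ≤ W (x 0) - η * (τ - 0) := hdec
  have h5 : η * τ = W (x 0) + d + C * C₁ + η := by
    rw [hτdef]
    field_simp
  nlinarith [h1.1]

/-- The compact attractor. -/
theorem attractor_weak {R : Finset (Reaction d)} (hWR : WeaklyReversible R) {ε : ℝ}
    (hε : 0 < ε) {c : Fin d → ℝ} (hc : ∀ i, 0 < c i) :
    ∃ K : Set (Fin d → ℝ), IsCompact K ∧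
      (∀ y ∈ K, (∀ i, 0 < y i) ∧ y - c ∈ stoichiometricSubspace R) ∧
      ∀ (k : ℝ → Reaction d → ℝ) (x : ℝ → Fin d → ℝ),
        (∀ T, WSol R ε T k x) →
        x 0 - c ∈ stoichiometricSubspace R →
        ∃ t₀, ∀ t, t₀ ≤ t → x t ∈ K := by
  classical
  obtain ⟨Rs, rs, hrs, habsorb⟩ := absorbing_weak hWR hε hc
  obtain ⟨R₂, hR₂⟩ := mass_bound_weak hWR hε Rs
  obtain ⟨r₂, hr₂, hr₂l⟩ := lower_bound_weak hWR hε R₂ hrs
  refine ⟨{y | y - c ∈ stoichiometricSubspace R ∧ ∑ i, y i ≤ R₂ ∧ ∀ i, r₂ ≤ y i}, ?_, ?_, ?_⟩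
  · -- compactness
    have hclosedS : IsClosed {y : Fin d → ℝ | y - c ∈ stoichiometricSubspace R} := by
      have h1 : IsClosed ((stoichiometricSubspace R : Submodule ℝ (Fin d → ℝ)) :
          Set (Fin d → ℝ)) := Submodule.closed_of_finiteDimensional _
      exact h1.preimage (continuous_id.sub continuous_const)
    have hclosedm : IsClosed {y : Fin d → ℝ | ∑ i, y i ≤ R₂} :=
      isClosed_le (continuous_finsetSum _ fun i _ => continuous_apply i) continuous_const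
    have hclosedl : IsClosed {y : Fin d → ℝ | ∀ i, r₂ ≤ y i} := by
      simp only [Set.ofPred_forall]
      exact isClosed_iInter fun i => isClosed_le continuous_const (continuous_apply i)
    have hbox : {y : Fin d → ℝ | y - c ∈ stoichiometricSubspace R ∧ ∑ i, y i ≤ R₂ ∧ ∀ i, r₂ ≤ y i}
        ⊆ Set.Icc (fun _ => r₂) (fun _ => R₂) := by
      rintro y ⟨_, hm, hl⟩
      refine ⟨hl, ?_⟩
      intro i
      have : y i ≤ ∑ j, y j := Finset.single_le_sum (f := y)
        (fun j _ => le_trans hr₂.le (hl j)) (Finset.mem_univ i)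
      exact le_trans this hm
    exact isCompact_Icc.of_isClosed_subset
      (hclosedS.inter (hclosedm.inter hclosedl)) hbox
  · rintro y ⟨hS, _, hl⟩
    exact ⟨fun i => lt_of_lt_of_le hr₂ (hl i), hS⟩
  · intro k x S hx0
    obtain ⟨t₀, ht₀, hm₀, hl₀⟩ := habsorb k x S hx0
    refine ⟨t₀, ?_⟩
    intro t ht
    -- the shifted solution
    have hxS : ∀ s, 0 ≤ s → x s - c ∈ stoichiometricSubspace R := by
      intro s hs
      have := Submodule.add_mem _ ((S (s + 1)).sub_mem (t := s) ⟨hs, by linarith⟩) hx0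
      rwa [sub_add_sub_cancel] at this
    have hsol : ∀ T, WSol R ε T (fun s => k (s + t₀)) (fun s => x (s + t₀)) := fun T =>
      (S (T + t₀)).shift ht₀
    have hz0 : x (0 + t₀) = x t₀ := by rw [zero_add]
    have hzm : ∀ T, ∀ s ∈ Set.Ico 0 T, ∑ i, x (s + t₀) i ≤ R₂ := fun T =>
      hR₂ T _ _ (hsol T) (by simp only [hz0]; exact hm₀)
    have hzl : ∀ T, ∀ s ∈ Set.Ico 0 T, ∀ i, r₂ ≤ x (s + t₀) i := fun T =>
      hr₂l T _ _ (hsol T) (fun i => by simp only [hz0]; exact hl₀ i) (hzm T)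
    have hs0 : t - t₀ ∈ Set.Ico 0 (t - t₀ + 1) := ⟨by linarith, by linarith⟩
    have hzt : t - t₀ + t₀ = t := by ring
    refine ⟨hxS t (le_trans ht₀ ht), ?_, ?_⟩
    · have := hzm _ _ hs0
      rwa [hzt] at this
    · intro i
      have := hzl _ _ hs0 i
      rwa [hzt] at this

end Vale.Agent.Lib.P072
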